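import Vale.Agent.P002.H2.DefsComp

/-!
# Components dominated by a torus: definitions
-/

namespace Vale.Agent.P002.R2

open Matrix Vale.Agent.P002R.Orb Vale.Agent.P002.H326J Vale.Agent.P002.H2

variable {ι : Type} {r n : ℕ}

/-- `φ` is a Laurent polynomial in `t₁, …, tₙ` with complex coefficients, i.e. a regular function
on the torus `(ℂˣ)ⁿ`: a polynomial in the `tᵢ` and the `1 / tᵢ`. -/
def IsLaurent (φ : (Fin n → ℂˣ) → ℂ) : Prop :=
  ∃ A : MvPolynomial (Fin n ⊕ Fin n) ℂ, ∀ t, φ t =
    MvPolynomial.eval (Sum.elim (fun i => (t i : ℂ)) fun i => (((t i)⁻¹ : ℂˣ) : ℂ)) A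

/-- The set `Z` of points of `M_r(X)(ℂ)` is dominated by a torus: for some `n` there are matrices
`X t`, `t ∈ (ℂˣ)ⁿ`, whose entries are Laurent polynomials in `t`, such that `X t` is in `Z` for
all `t` outside of a proper closed subset `h = 0` of the torus, and such that these points `X t`
are Zariski dense in `Z` as a set of points of `M_r(X)(ℂ)`: every invariant function which
vanishes at all of them vanishes on `Z`. -/
def IsTorusDominated (R : Set (FreeGroup ι)) (Z : Set (ι → SpecialLinearGroup (Fin r) ℂ)) : Prop :=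
  ∃ (n : ℕ) (X : (Fin n → ℂˣ) → ι → SpecialLinearGroup (Fin r) ℂ),
    (∀ p i j, IsLaurent fun t => (X t p).1 i j) ∧
    (∃ h : MvPolynomial (Fin n) ℂ, h ≠ 0 ∧
      ∀ t : Fin n → ℂˣ, MvPolynomial.eval (fun i => (t i : ℂ)) h ≠ 0 → X t ∈ Z) ∧
    ∀ F : MvPolynomial (ι × Fin r × Fin r) ℂ, IsInvariant R F →
      (∀ t, X t ∈ Z → value F (X t) = 0) → ∀ Y ∈ Z, value F Y = 0

/-- `X` is in the Zariski closure of `Z` in the representation variety. -/
def InClosureRep (Z : Set (ι → SpecialLinearGroup (Fin r) ℂ))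
    (X : ι → SpecialLinearGroup (Fin r) ℂ) : Prop :=
  ∀ F : MvPolynomial (ι × Fin r × Fin r) ℂ, (∀ X' ∈ Z, value F X' = 0) → value F X = 0

/-- `z` is integral at the maximal ideal `P` of the ring of all algebraic integers: it is in the
localization of this ring at `P`. -/
def IsIntegralAt (P : Ideal (integralClosure ℤ ℂ)) (z : ℂ) : Prop :=
  ∃ b : integralClosure ℤ ℂ, b ∉ P ∧ IsIntegral ℤ ((b : ℂ) * z)

end Vale.Agent.P002.R2
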