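import Vale.Agent.P002.R2.H426.Cov2

/-!
# Laurent polynomials as functions on the torus
-/

namespace Vale.Agent.P002.R2.H426

open Matrix Module Vale.Agent.P002R.Orb Vale.Agent.P002.H2 Vale.Agent.P002.H955

section

variable {ι : Type} {r n : ℕ}

theorem torus_zero (P : MvPolynomial (Fin n) ℂ)
    (h : ∀ t : Fin n → ℂˣ, MvPolynomial.eval (fun i => (t i : ℂ)) P = 0) : P = 0 := by
  refine MvPolynomial.funext_set (fun _ => {x : ℂ | x ≠ 0}) (fun _ => ?_) fun x hx => ?_
  · exact Set.Infinite.mono (s := Set.range fun k : ℕ => ((k : ℂ) + 1)) (by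
      rintro _ ⟨k, rfl⟩
      exact Nat.cast_add_one_ne_zero k) (Set.infinite_range_of_injective fun a b hab => by
        have h1 : (a : ℂ) = b := add_right_cancel hab
        exact_mod_cast h1)
  · rw [map_zero]
    exact h fun i => Units.mk0 (x i) (hx i (Set.mem_univ i))

theorem lev_num (p : MvPolynomial (Fin n ⊕ Fin n) ℂ) :
    ∃ (N : ℕ) (P : MvPolynomial (Fin n) ℂ), ∀ t : Fin n → ℂˣ,
      MvPolynomial.eval (fun i => (t i : ℂ)) P =
        (∏ i, (t i : ℂ)) ^ N * MvPolynomial.eval (tt t) p := by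
  induction p using MvPolynomial.induction_on with
  | C a => exact ⟨0, MvPolynomial.C a, fun t => by
      rw [MvPolynomial.eval_C, MvPolynomial.eval_C, pow_zero, one_mul]⟩
  | add p q hp hq =>
    obtain ⟨M, P', hP'⟩ := hp
    obtain ⟨M', Q', hQ'⟩ := hq
    refine ⟨M + M', (∏ i, MvPolynomial.X i) ^ M' * P' + (∏ i, MvPolynomial.X i) ^ M * Q',
      fun t => ?_⟩
    rw [map_add, map_mul, map_mul, hP', hQ', map_add, map_pow, map_pow, map_prod]
    simp only [MvPolynomial.eval_X]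
    ring
  | mul_X p i hp =>
    obtain ⟨M, P', hP'⟩ := hp
    rcases i with i | i
    · refine ⟨M, P' * MvPolynomial.X i, fun t => ?_⟩
      rw [map_mul, hP', map_mul, MvPolynomial.eval_X, MvPolynomial.eval_X]
      change _ = _ * (_ * (t i : ℂ))
      ring
    · refine ⟨M + 1, P' * ∏ j ∈ Finset.univ.erase i, MvPolynomial.X j, fun t => ?_⟩
      rw [map_mul, hP', map_mul, map_prod, MvPolynomial.eval_X]
      simp only [MvPolynomial.eval_X]
      change _ = _ * (_ * (((t i)⁻¹ : ℂˣ) : ℂ))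
      rw [pow_succ, ← Finset.mul_prod_erase _ (fun j => (t j : ℂ)) (Finset.mem_univ i),
        Units.val_inv_eq_inv_val]
      have h1 := (t i).ne_zero
      field_simp

theorem lev_domain (p q : MvPolynomial (Fin n ⊕ Fin n) ℂ)
    (h : ∀ t : Fin n → ℂˣ, MvPolynomial.eval (tt t) p = 0 ∨ MvPolynomial.eval (tt t) q = 0) :
    (∀ t : Fin n → ℂˣ, MvPolynomial.eval (tt t) p = 0) ∨
      ∀ t : Fin n → ℂˣ, MvPolynomial.eval (tt t) q = 0 := by
  obtain ⟨N, P, hP⟩ := lev_num p
  obtain ⟨N', Q, hQ⟩ := lev_num q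
  have h1 : P * Q = 0 := by
    apply torus_zero
    intro t
    rw [map_mul, hP, hQ]
    rcases h t with h1 | h1
    · rw [h1, mul_zero, zero_mul]
    · rw [h1, mul_zero, mul_zero]
  have h2 : ∀ t : Fin n → ℂˣ, ∏ i, (t i : ℂ) ≠ 0 := fun t =>
    Finset.prod_ne_zero_iff.2 fun i _ => (t i).ne_zero
  rcases mul_eq_zero.1 h1 with h3 | h3
  · left
    intro t
    have h4 := hP t
    rw [h3, map_zero] at h4
    exact (mul_eq_zero.1 h4.symm).resolve_left (pow_ne_zero _ (h2 t))
  · right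
    intro t
    have h4 := hQ t
    rw [h3, map_zero] at h4
    exact (mul_eq_zero.1 h4.symm).resolve_left (pow_ne_zero _ (h2 t))

/-- polynomials in the entries of a Laurent family -/
theorem lev_value (X : (Fin n → ℂˣ) → ι → SpecialLinearGroup (Fin r) ℂ)
    (A : ι → Fin r → Fin r → MvPolynomial (Fin n ⊕ Fin n) ℂ)
    (hA : ∀ t p i j, (X t p).1 i j = MvPolynomial.eval (tt t) (A p i j))
    (F : MvPolynomial (ι × Fin r × Fin r) ℂ) :
    ∃ p : MvPolynomial (Fin n ⊕ Fin n) ℂ, ∀ t, value F (X t) = MvPolynomial.eval (tt t) p := by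
  refine ⟨MvPolynomial.bind₁ (fun q => A q.1 q.2.1 q.2.2) F, fun t => ?_⟩
  rw [H252.value_eq, ← MvPolynomial.coe_aeval_eq_eval, ← MvPolynomial.coe_aeval_eq_eval]
  change MvPolynomial.aeval _ F = MvPolynomial.aeval _ (MvPolynomial.bind₁ _ F)
  rw [MvPolynomial.aeval_bind₁]
  congr 2
  funext q
  exact hA t q.1 q.2.1 q.2.2

/-- one-variable Laurent polynomials -/
theorem lev_Lau (p : MvPolynomial (Fin n ⊕ Fin n) ℂ) (t₀ y : Fin n → ℂˣ) (i : Fin n) :
    (fun c => MvPolynomial.eval (tt fun j => Function.update y i c j * t₀ j) p) ∈ H306.Lau := by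
  refine H306.eval_mem H306.Lau (fun k c => tt (fun j => Function.update y i c j * t₀ j) k)
    (fun k => ?_) p
  rcases k with j | j
  · by_cases hj : j = i
    · subst hj
      have h1 : (fun c : ℂˣ => tt (fun j' => Function.update y j c j' * t₀ j') (Sum.inl j)) =
          (fun c : ℂˣ => ((c ^ (1 : ℤ) : ℂˣ) : ℂ)) * algebraMap ℂ (ℂˣ → ℂ) (t₀ j : ℂ) := by
        funext c
        change ((Function.update y j c j * t₀ j : ℂˣ) : ℂ) = _
        rw [Function.update_self, Units.val_mul]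
        change _ = ((c ^ (1 : ℤ) : ℂˣ) : ℂ) * (t₀ j : ℂ)
        rw [zpow_one]
      rw [h1]
      exact mul_mem (H306.Lau_zpow 1) (H306.Lau.algebraMap_mem _)
    · have h1 : (fun c : ℂˣ => tt (fun j' => Function.update y i c j' * t₀ j') (Sum.inl j)) =
          algebraMap ℂ (ℂˣ → ℂ) (y j * t₀ j : ℂˣ) := by
        funext c
        change ((Function.update y i c j * t₀ j : ℂˣ) : ℂ) = _
        rw [Function.update_of_ne hj]
        rfl
      rw [h1]
      exact H306.Lau.algebraMap_mem _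
  · by_cases hj : j = i
    · subst hj
      have h1 : (fun c : ℂˣ => tt (fun j' => Function.update y j c j' * t₀ j') (Sum.inr j)) =
          (fun c : ℂˣ => ((c ^ (-1 : ℤ) : ℂˣ) : ℂ)) *
            algebraMap ℂ (ℂˣ → ℂ) (((t₀ j)⁻¹ : ℂˣ) : ℂ) := by
        funext c
        change (((Function.update y j c j * t₀ j)⁻¹ : ℂˣ) : ℂ) = _
        rw [Function.update_self, mul_inv, Units.val_mul]
        change _ = ((c ^ (-1 : ℤ) : ℂˣ) : ℂ) * (((t₀ j)⁻¹ : ℂˣ) : ℂ)
        rw [_root_.zpow_neg_one]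
      rw [h1]
      exact mul_mem (H306.Lau_zpow (-1)) (H306.Lau.algebraMap_mem _)
    · have h1 : (fun c : ℂˣ => tt (fun j' => Function.update y i c j' * t₀ j') (Sum.inr j)) =
          algebraMap ℂ (ℂˣ → ℂ) ((y j * t₀ j)⁻¹ : ℂˣ) := by
        funext c
        change (((Function.update y i c j * t₀ j)⁻¹ : ℂˣ) : ℂ) = _
        rw [Function.update_of_ne hj]
        rfl
      rw [h1]
      exact H306.Lau.algebraMap_mem _

end

end Vale.Agent.P002.R2.H426
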