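import Vale.Agent.P002.R2.H426.Cov3
import Vale.Agent.P002.R2.H426.Lau
import Vale.Agent.P002.R2.H426.Defs
import Vale.Agent.P002.H2.YG

/-!
# Algebraic points of components; the closure of a dominating family
-/

namespace Vale.Agent.P002.R2.H426

open Matrix Module Vale.Agent.P002R.Orb Vale.Agent.P002.H326J Vale.Agent.P002.H2
  Vale.Agent.P002.H955 Vale.Agent.P002.R2

section

variable {ι : Type} {r n : ℕ}

/-- algebraic points in the closure of a component -/
theorem alg_points₀ [Finite ι] {s : ℕ} (R : Set (FreeGroup ι)) (w : Fin s → FreeGroup ι)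
    (C : Fin s → SpecialLinearGroup (Fin r) ℂ) {Z : Set (ι → SpecialLinearGroup (Fin r) ℂ)}
    (hZ : IsComponent Z (YW R w C)) (f : MvPolynomial (ι × Fin r × Fin r) Kb) (hf : f ∉ idK Z) :
    ∃ Q : ι → SpecialLinearGroup (Fin r) ℂ, (∀ p i j, (Q p).1 i j ∈ algebraicClosure ℚ ℂ) ∧
      (∀ F ∈ idK Z, value F Q = 0) ∧ value f Q ≠ 0 := by
  obtain ⟨X, hX, hgen⟩ := component_generic R w C hZ
  obtain ⟨c, hc, hcf⟩ := exists_spec (H252.coords X) f (fun h => hf (hgen f h))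
  have hdet : ∀ p, (Matrix.of fun i j => (c (p, i, j) : ℂ)).det = 1 := by
    intro p
    have h2 : ∀ x : ι × Fin r × Fin r → ℂ, (Matrix.of fun i j => (MvPolynomial.X (p, i, j) :
        MvPolynomial (ι × Fin r × Fin r) Kb)).map (MvPolynomial.aeval x) =
          Matrix.of fun i j => x (p, i, j) := by
      intro x
      ext i j
      rw [Matrix.map_apply, Matrix.of_apply, MvPolynomial.aeval_X]
      rfl
    have h1 := hc ((Matrix.of fun i j => (MvPolynomial.X (p, i, j) :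
      MvPolynomial (ι × Fin r × Fin r) Kb)).det - 1) (by
        rw [map_sub, map_one, aeval_det, h2, sub_eq_zero]
        exact (X p).2)
    rw [map_sub, map_one, aeval_det, h2, sub_eq_zero] at h1
    exact h1
  obtain ⟨Q, hQ⟩ : ∃ Q : ι → SpecialLinearGroup (Fin r) ℂ, H252.coords Q = emb c :=
    ⟨fun p => ⟨_, hdet p⟩, rfl⟩
  refine ⟨Q, fun p i j => ?_, fun F hF => ?_, ?_⟩
  · have h1 := congrFun hQ (p, i, j)
    have h2 : (Q p).1 i j = c (p, i, j) := h1
    rw [h2]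
    exact (c _).2
  · rw [value_aeval, hQ]
    exact hc F (hF X hX)
  · rw [value_aeval, hQ]
    exact hcf

/-- a component is open in its closure -/
theorem comp_open [Finite ι] {s : ℕ} (R : Set (FreeGroup ι)) (w : Fin s → FreeGroup ι)
    (C : Fin s → SpecialLinearGroup (Fin r) ℂ) (hC : ∀ k i j, (C k).1 i j ∈ algebraicClosure ℚ ℂ)
    {Z : Set (ι → SpecialLinearGroup (Fin r) ℂ)} (hZ : IsComponent Z (YW R w C)) :
    ∃ f, f ∉ idK Z ∧ ∀ Q : ι → SpecialLinearGroup (Fin r) ℂ, (∀ F ∈ idK Z, value F Q = 0) →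
      value f Q ≠ 0 → Q ∈ Z := by
  have hp := idK_prime hZ.2.1
  obtain ⟨J, b⟩ : ∃ J : Type, Nonempty (Basis J Kb ℂ) :=
    ⟨_, ⟨Module.Basis.ofVectorSpace Kb ℂ⟩⟩
  obtain ⟨b⟩ := b
  obtain ⟨X, hX, hgen⟩ := component_generic R w C hZ
  obtain ⟨f, hfX, hf⟩ := open_cond R w C hC Z hZ.1 X hX hgen
  have hfZ : f ∉ idK Z := fun h => hfX (h X hX)
  have hW : {X ∈ YW R w C | ∀ F ∈ idK Z, value F X = 0} = Z := by
    refine hZ.2.2 _ (fun X hX => hX.1) ⟨⟨X, hZ.1 hX, fun F hF => hF X hX⟩, fun F G h => ?_⟩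
      fun X hX => ⟨hZ.1 hX, fun F hF => hF X hX⟩
    obtain ⟨S, F', hF'⟩ := decomp b F
    obtain ⟨T, G', hG'⟩ := decomp b G
    by_cases h1 : ∀ k ∈ S, F' k ∈ idK Z
    · left
      rintro X ⟨-, hX⟩
      rw [hF']
      exact Finset.sum_eq_zero fun k hk => by rw [hX _ (h1 k hk), mul_zero]
    by_cases h2 : ∀ k ∈ T, G' k ∈ idK Z
    · right
      rintro X ⟨-, hX⟩
      rw [hG']
      exact Finset.sum_eq_zero fun k hk => by rw [hX _ (h2 k hk), mul_zero]
    push Not at h1 h2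
    obtain ⟨k, hk, hFk⟩ := h1
    obtain ⟨l, hl, hGl⟩ := h2
    exfalso
    obtain ⟨Q, hQa, hQZ, hQf⟩ := alg_points₀ R w C hZ (f * (F' k * G' l)) (fun h => by
      rcases hp.mem_or_mem h with h | h
      · exact hfZ h
      · rcases hp.mem_or_mem h with h | h
        · exact hFk h
        · exact hGl h)
    rw [value_evK, map_mul, map_mul] at hQf
    have hQ1 : value f Q ≠ 0 := left_ne_zero_of_mul hQf
    have hQ2 : value (F' k) Q ≠ 0 := left_ne_zero_of_mul (right_ne_zero_of_mul hQf)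
    have hQ3 : value (G' l) Q ≠ 0 := right_ne_zero_of_mul (right_ne_zero_of_mul hQf)
    rcases h Q ⟨hf Q hQZ hQ1, hQZ⟩ with h3 | h3
    · rw [hF'] at h3
      exact hQ2 (parts_zero b S F' Q hQa h3 k hk)
    · rw [hG'] at h3
      exact hQ3 (parts_zero b T G' Q hQa h3 l hl)
  exact ⟨f, hfZ, fun Q hQ hQf => hW ▸ ⟨hf Q hQ hQf, hQ⟩⟩

/-- algebraic points of a component -/
theorem alg_points [Finite ι] {s : ℕ} (R : Set (FreeGroup ι)) (w : Fin s → FreeGroup ι)
    (C : Fin s → SpecialLinearGroup (Fin r) ℂ) (hC : ∀ k i j, (C k).1 i j ∈ algebraicClosure ℚ ℂ)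
    {Z : Set (ι → SpecialLinearGroup (Fin r) ℂ)} (hZ : IsComponent Z (YW R w C)) :
    ∀ h, h ∉ idK Z → ∃ Q ∈ Z, (∀ p i j, (Q p).1 i j ∈ algebraicClosure ℚ ℂ) ∧
      value h Q ≠ 0 := by
  intro h hh
  have hp := idK_prime hZ.2.1
  obtain ⟨f, hf, hfQ⟩ := comp_open R w C hC hZ
  obtain ⟨Q, hQa, hQZ, hQf⟩ := alg_points₀ R w C hZ (f * h) (fun h' => by
    rcases hp.mem_or_mem h' with h' | h'
    · exact hf h'
    · exact hh h')
  rw [value_evK, map_mul] at hQf
  exact ⟨Q, hfQ Q hQZ (left_ne_zero_of_mul hQf), hQa, right_ne_zero_of_mul hQf⟩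

/-- a generically contained family is in the closure -/
theorem fam_closure {Z : Set (ι → SpecialLinearGroup (Fin r) ℂ)}
    (X : (Fin n → ℂˣ) → ι → SpecialLinearGroup (Fin r) ℂ)
    (A : ι → Fin r → Fin r → MvPolynomial (Fin n ⊕ Fin n) ℂ)
    (hA : ∀ t p i j, (X t p).1 i j = MvPolynomial.eval (tt t) (A p i j))
    (h : MvPolynomial (Fin n) ℂ) (h0 : h ≠ 0)
    (hX : ∀ t : Fin n → ℂˣ, MvPolynomial.eval (fun i => (t i : ℂ)) h ≠ 0 → X t ∈ Z)
    (F : MvPolynomial (ι × Fin r × Fin r) ℂ) (hF : ∀ Y ∈ Z, value F Y = 0) (t : Fin n → ℂˣ) :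
    value F (X t) = 0 := by
  obtain ⟨p, hp⟩ := lev_value X A hA F
  have hren : ∀ t : Fin n → ℂˣ, MvPolynomial.eval (tt t) (MvPolynomial.rename Sum.inl h) =
      MvPolynomial.eval (fun i => (t i : ℂ)) h := by
    intro t
    rw [MvPolynomial.eval_rename]
    rfl
  rcases lev_domain (MvPolynomial.rename Sum.inl h) p (fun t => by
    by_cases h1 : MvPolynomial.eval (fun i => (t i : ℂ)) h = 0
    · left
      rw [hren, h1]
    · right
      rw [← hp]
      exact hF _ (hX t h1)) with h1 | h1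
  · exfalso
    apply h0
    apply torus_zero
    intro t
    rw [← hren]
    exact h1 t
  · rw [hp]
    exact h1 t

/-- dominating families in `M_r` dominate in the representation variety -/
theorem fam_dom [Finite ι] {R : Set (FreeGroup ι)} {Z : Set (ι → SpecialLinearGroup (Fin r) ℂ)}
    (hss : ∀ X ∈ Z, ∀ W, IsInv X W → ∃ W', IsInv X W' ∧ IsCompl W W')
    (X : (Fin n → ℂˣ) → ι → SpecialLinearGroup (Fin r) ℂ)
    (hdom : ∀ F : MvPolynomial (ι × Fin r × Fin r) ℂ, IsInvariant R F →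
      (∀ t, X t ∈ Z → value F (X t) = 0) → ∀ Y ∈ Z, value F Y = 0)
    (F : MvPolynomial (ι × Fin r × Fin r) ℂ)
    (hF : ∀ t (g : SpecialLinearGroup (Fin r) ℂ), (value F fun p => g * X t p * g⁻¹) = 0) :
    ∀ Y ∈ Z, value F Y = 0 := by
  intro Y hY
  by_contra hne
  obtain ⟨B, h1, h2, h3⟩ := separation R {G | ∀ t (g : SpecialLinearGroup (Fin r) ℂ),
      (value G fun p => g * X t p * g⁻¹) = 0} (by
    intro Y hY g G hG
    obtain ⟨Gg, hGg⟩ := exists_conj_poly (ι := ι) g G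
    rw [← hGg]
    refine hY Gg fun t g' => ?_
    rw [hGg]
    have h4 := hG t (g * g')
    have h5 : (fun p => g * (g' * X t p * g'⁻¹) * g⁻¹) =
        fun p => g * g' * X t p * (g * g')⁻¹ := by
      funext p
      group
    rw [h5]
    exact h4) Y (hss Y hY) (fun h => hne (h F hF))
  refine h3 (hdom B h1 (fun t _ => h2 (X t) fun G hG => ?_) Y hY)
  have h4 := hG t 1
  have h5 : (fun p => 1 * X t p * (1 : SpecialLinearGroup (Fin r) ℂ)⁻¹) = X t := by
    funext p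
    rw [one_mul, inv_one, mul_one]
  rwa [h5] at h4

end

end Vale.Agent.P002.R2.H426
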