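import Vale.Agent.P002.R2.H426.Gen
import Vale.Agent.P002.R2.H955.Units

/-!
# Families dominating a set of representations: specialization of the coefficients
-/

namespace Vale.Agent.P002.R2.H426

open Matrix Module Vale.Agent.P002R.Orb Vale.Agent.P002.H2 Vale.Agent.P002.H955

section

variable {ι : Type} {r n : ℕ}

/-- the coordinates on the torus and their inverses -/
noncomputable def tt (t : Fin n → ℂˣ) : Fin n ⊕ Fin n → ℂ :=
  Sum.elim (fun i => (t i : ℂ)) fun i => (((t i)⁻¹ : ℂˣ) : ℂ)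

/-- the family with coefficients `c` -/
noncomputable def Mf {T : Finset (Fin n ⊕ Fin n →₀ ℕ)} (c : (ι × Fin r × Fin r) × T → ℂ)
    (t : Fin n → ℂˣ) (p : ι) : Matrix (Fin r) (Fin r) ℂ :=
  Matrix.of fun i j => ∑ m : T, c ((p, i, j), m) * ∏ k, tt t k ^ m.1 k

/-- points of `GL_r` times the torus -/
noncomputable def gt (g : Matrix (Fin r) (Fin r) ℂ) (t : Fin n → ℂˣ) :
    (Fin r × Fin r) ⊕ Fin n → ℂ := Sum.elim (fun p => g p.1 p.2) fun i => (t i : ℂ)

/-- `det g * ∏ t_i` -/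
noncomputable def del (r n : ℕ) : MvPolynomial ((Fin r × Fin r) ⊕ Fin n) Kb :=
  (Matrix.of fun i j => MvPolynomial.X (Sum.inl (i, j))).det * ∏ i, MvPolynomial.X (Sum.inr i)

theorem aeval_det {ν : Type} (x : ν → ℂ) (M : Matrix (Fin r) (Fin r) (MvPolynomial ν Kb)) :
    MvPolynomial.aeval x M.det = (M.map (MvPolynomial.aeval x)).det := by
  have h1 := RingHom.map_det ((MvPolynomial.aeval x : MvPolynomial ν Kb →ₐ[Kb] ℂ) :
    MvPolynomial ν Kb →+* ℂ) M
  exact h1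

theorem aeval_adj {ν : Type} (x : ν → ℂ) (M : Matrix (Fin r) (Fin r) (MvPolynomial ν Kb)) :
    M.adjugate.map (MvPolynomial.aeval x) = (M.map (MvPolynomial.aeval x)).adjugate :=
  RingHom.map_adjugate ((MvPolynomial.aeval x : MvPolynomial ν Kb →ₐ[Kb] ℂ) :
    MvPolynomial ν Kb →+* ℂ) M

theorem aeval_del (g : Matrix (Fin r) (Fin r) ℂ) (t : Fin n → ℂˣ) :
    MvPolynomial.aeval (gt g t) (del r n) = g.det * ∏ i, (t i : ℂ) := by
  unfold del
  rw [map_mul, aeval_det, map_prod]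
  congr 1
  · congr 1
    ext i j
    rw [Matrix.map_apply, Matrix.of_apply, MvPolynomial.aeval_X]
    rfl
  · refine Finset.prod_congr rfl fun i _ => ?_
    rw [MvPolynomial.aeval_X]
    rfl

theorem del_ne : del r n ≠ 0 := by
  intro h
  have h1 := aeval_del (1 : Matrix (Fin r) (Fin r) ℂ) (fun _ : Fin n => (1 : ℂˣ))
  rw [h, map_zero, Matrix.det_one, one_mul] at h1
  exact one_ne_zero (h1.trans (Finset.prod_eq_one fun _ _ => rfl)).symm

theorem del_ne' {g : Matrix (Fin r) (Fin r) ℂ} (hg : g.det ≠ 0) (t : Fin n → ℂˣ) :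
    MvPolynomial.aeval (gt g t) (del r n) ≠ 0 := by
  rw [aeval_del]
  exact mul_ne_zero hg (Finset.prod_ne_zero_iff.2 fun i _ => (t i).ne_zero)

/-- the coordinates of `g X_t g⁻¹` -/
theorem exists_Y (T : Finset (Fin n ⊕ Fin n →₀ ℕ)) :
    ∃ Y : ι × Fin r × Fin r → MvPolynomial ((((Fin r × Fin r) ⊕ Fin n) ⊕
        ((ι × Fin r × Fin r) × T)) ⊕ Unit) Kb,
      ∀ (g : Matrix (Fin r) (Fin r) ℂ) (t : Fin n → ℂˣ) (c : (ι × Fin r × Fin r) × T → ℂ) q,
        g.det ≠ 0 → MvPolynomial.aeval (pnt (del r n) (gt g t) c) (Y q) =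
          (g.det)⁻¹ * (g * Mf c t q.1 * g.adjugate) q.2.1 q.2.2 := by
  obtain ⟨G, hG⟩ : ∃ G : Matrix (Fin r) (Fin r) (MvPolynomial ((((Fin r × Fin r) ⊕ Fin n) ⊕
      ((ι × Fin r × Fin r) × T)) ⊕ Unit) Kb), G = Matrix.of fun i j =>
        MvPolynomial.X (Sum.inl (Sum.inl (Sum.inl (i, j)))) := ⟨_, rfl⟩
  have hGe : ∀ (g : Matrix (Fin r) (Fin r) ℂ) (t : Fin n → ℂˣ)
      (c : (ι × Fin r × Fin r) × T → ℂ),
      G.map (MvPolynomial.aeval (pnt (del r n) (gt g t) c)) = g := by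
    intro g t c
    ext i j
    rw [Matrix.map_apply, hG, Matrix.of_apply, MvPolynomial.aeval_X]
    rfl
  -- the inverses of the coordinates
  obtain ⟨τ, hτ⟩ : ∃ τ : Fin n ⊕ Fin n → MvPolynomial ((((Fin r × Fin r) ⊕ Fin n) ⊕
      ((ι × Fin r × Fin r) × T)) ⊕ Unit) Kb, ∀ (g : Matrix (Fin r) (Fin r) ℂ) (t : Fin n → ℂˣ)
        (c : (ι × Fin r × Fin r) × T → ℂ), g.det ≠ 0 → ∀ k,
          MvPolynomial.aeval (pnt (del r n) (gt g t) c) (τ k) = tt t k := by
    refine ⟨Sum.elim (fun i => MvPolynomial.X (Sum.inl (Sum.inl (Sum.inr i)))) fun i =>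
      MvPolynomial.X (Sum.inr ()) * (G.det * ∏ j ∈ Finset.univ.erase i,
        MvPolynomial.X (Sum.inl (Sum.inl (Sum.inr j)))), fun g t c hg k => ?_⟩
    rcases k with i | i
    · rw [Sum.elim_inl, MvPolynomial.aeval_X]
      rfl
    · rw [Sum.elim_inr, map_mul, map_mul, aeval_det, hGe, map_prod, MvPolynomial.aeval_X]
      change (MvPolynomial.aeval (gt g t) (del r n))⁻¹ * _ = ((t i)⁻¹ : ℂˣ)
      have h1 : ∏ j ∈ Finset.univ.erase i, MvPolynomial.aeval (pnt (del r n) (gt g t) c)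
          (MvPolynomial.X (Sum.inl (Sum.inl (Sum.inr j))) : MvPolynomial _ Kb) =
          ∏ j ∈ Finset.univ.erase i, (t j : ℂ) := by
        refine Finset.prod_congr rfl fun j _ => ?_
        rw [MvPolynomial.aeval_X]
        rfl
      rw [h1, aeval_del, ← Finset.mul_prod_erase _ _ (Finset.mem_univ i),
        Units.val_inv_eq_inv_val]
      have h2 : ∏ j ∈ Finset.univ.erase i, (t j : ℂ) ≠ 0 :=
        Finset.prod_ne_zero_iff.2 fun i _ => (t i).ne_zero
      have h3 := (t i).ne_zero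
      field_simp
  obtain ⟨B, hB⟩ : ∃ B : ι → Matrix (Fin r) (Fin r) (MvPolynomial ((((Fin r × Fin r) ⊕ Fin n) ⊕
      ((ι × Fin r × Fin r) × T)) ⊕ Unit) Kb), ∀ (g : Matrix (Fin r) (Fin r) ℂ)
        (t : Fin n → ℂˣ) (c : (ι × Fin r × Fin r) × T → ℂ), g.det ≠ 0 → ∀ p,
          (B p).map (MvPolynomial.aeval (pnt (del r n) (gt g t) c)) = Mf c t p := by
    refine ⟨fun p => Matrix.of fun i j => ∑ m : T,
      MvPolynomial.X (Sum.inl (Sum.inr ((p, i, j), m))) * ∏ k, τ k ^ m.1 k,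
      fun g t c hg p => ?_⟩
    ext i j
    change MvPolynomial.aeval (pnt (del r n) (gt g t) c) (∑ m : T,
      MvPolynomial.X (Sum.inl (Sum.inr ((p, i, j), m))) * ∏ k, τ k ^ m.1 k) =
        ∑ m : T, c ((p, i, j), m) * ∏ k, tt t k ^ m.1 k
    rw [map_sum]
    refine Finset.sum_congr rfl fun m _ => ?_
    rw [map_mul, map_prod, MvPolynomial.aeval_X]
    congr 1
    refine Finset.prod_congr rfl fun k _ => ?_
    rw [map_pow, hτ g t c hg]
  refine ⟨fun q => (MvPolynomial.X (Sum.inr ()) * ∏ i,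
    MvPolynomial.X (Sum.inl (Sum.inl (Sum.inr i)))) * (G * B q.1 * G.adjugate) q.2.1 q.2.2,
    fun g t c q hg => ?_⟩
  have h1 : MvPolynomial.aeval (pnt (del r n) (gt g t) c) ((G * B q.1 * G.adjugate) q.2.1 q.2.2) =
      (g * Mf c t q.1 * g.adjugate) q.2.1 q.2.2 := by
    have h2 : ((G * B q.1 * G.adjugate).map (MvPolynomial.aeval (pnt (del r n) (gt g t) c))) =
        g * Mf c t q.1 * g.adjugate := by
      rw [Matrix.map_mul, Matrix.map_mul, aeval_adj, hGe, hB g t c hg]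
    rw [← h2]
    rfl
  rw [map_mul, h1, map_mul, map_prod, MvPolynomial.aeval_X]
  congr 1
  change (MvPolynomial.aeval (gt g t) (del r n))⁻¹ * _ = _
  have h2 : ∏ i, MvPolynomial.aeval (pnt (del r n) (gt g t) c)
      (MvPolynomial.X (Sum.inl (Sum.inl (Sum.inr i))) : MvPolynomial _ Kb) = ∏ i, (t i : ℂ) := by
    refine Finset.prod_congr rfl fun j _ => ?_
    rw [MvPolynomial.aeval_X]
    rfl
  have h3 : ∏ i, (t i : ℂ) ≠ 0 := Finset.prod_ne_zero_iff.2 fun i _ => (t i).ne_zero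
  rw [h2, aeval_del]
  field_simp

end

end Vale.Agent.P002.R2.H426
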