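import Vale.Agent.P002.R2.H426.Cov
import Vale.Agent.P002.H2.XG

/-!
# Families dominating a set of representations: descent to the algebraic numbers
-/

namespace Vale.Agent.P002.R2.H426

open Matrix Module Vale.Agent.P002R.Orb Vale.Agent.P002.H2 Vale.Agent.P002.H955

section

variable {ι : Type} {r n : ℕ}

/-- conjugation by an invertible matrix is conjugation by a matrix of determinant one -/
theorem conj_alg (g : Matrix (Fin r) (Fin r) ℂ) (hg : g.det ≠ 0) :
    ∃ V : SpecialLinearGroup (Fin r) ℂ, (∀ A : Matrix (Fin r) (Fin r) ℂ,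
      (g.det)⁻¹ • (g * A * g.adjugate) = V.1 * A * (V⁻¹).1) ∧
      ((∀ i j, g i j ∈ algebraicClosure ℚ ℂ) → ∀ i j, V.1 i j ∈ algebraicClosure ℚ ℂ) := by
  rcases Nat.eq_zero_or_pos r with hr | hr
  · subst hr
    exact ⟨1, fun A => Matrix.ext fun i => i.elim0, fun _ i => i.elim0⟩
  · obtain ⟨c, hc⟩ := IsAlgClosed.exists_pow_nat_eq g.det hr
    have hc0 : c ≠ 0 := by
      rintro rfl
      rw [zero_pow hr.ne'] at hc
      exact hg hc.symm
    have h1 : (c⁻¹ • g).det = 1 := by
      rw [Matrix.det_smul, Fintype.card_fin, inv_pow, hc, inv_mul_cancel₀ hg]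
    obtain ⟨V, hV⟩ : ∃ V : SpecialLinearGroup (Fin r) ℂ, V.1 = c⁻¹ • g := ⟨⟨_, h1⟩, rfl⟩
    refine ⟨V, fun A => ?_, fun ha i j => ?_⟩
    · have h2 : (V⁻¹).1 = (c * (g.det)⁻¹) • g.adjugate := by
        have h3 : (V⁻¹).1 * V.1 = 1 := congrArg Subtype.val (inv_mul_cancel V)
        have h4 : V.1 * ((c * (g.det)⁻¹) • g.adjugate) = 1 := by
          rw [hV, smul_mul_smul_comm, Matrix.mul_adjugate, smul_smul]
          have h5 : c⁻¹ * (c * g.det⁻¹) * g.det = 1 := by field_simp
          rw [h5, one_smul]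
        calc (V⁻¹).1 = (V⁻¹).1 * (V.1 * ((c * (g.det)⁻¹) • g.adjugate)) := by rw [h4, mul_one]
          _ = _ := by rw [← mul_assoc, h3, one_mul]
      rw [h2, hV, smul_mul_assoc, smul_mul_smul_comm]
      congr 1
      field_simp
    · rw [hV, Matrix.smul_apply, smul_eq_mul]
      refine mul_mem (inv_mem ?_) (ha i j)
      have h2 : c ^ r ∈ algebraicClosure ℚ ℂ := by
        rw [hc, Matrix.det_apply]
        refine sum_mem fun σ _ => ?_
        rw [Units.smul_def, zsmul_eq_mul]
        exact mul_mem (intCast_mem _ _) (prod_mem fun i _ => ha _ _)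
      rw [mem_algebraicClosure_iff] at h2 ⊢
      exact h2.of_pow hr

/-- evaluation of compositions -/
theorem aeval_bind {ν μ : Type} (x : ν → ℂ) (Y : μ → MvPolynomial ν Kb) (P : MvPolynomial μ Kb) :
    MvPolynomial.aeval x (MvPolynomial.aeval Y P) =
      MvPolynomial.aeval (fun m => MvPolynomial.aeval x (Y m)) P := by
  have h1 : (MvPolynomial.aeval x).comp (MvPolynomial.aeval Y) =
      (MvPolynomial.aeval (fun m => MvPolynomial.aeval x (Y m)) : MvPolynomial μ Kb →ₐ[Kb] ℂ) := by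
    apply MvPolynomial.algHom_ext
    intro m
    rw [AlgHom.comp_apply, MvPolynomial.aeval_X, MvPolynomial.aeval_X]
  exact DFunLike.congr_fun h1 P

/-- evaluation of the first variables in `ℂ` -/
theorem exists_partial {κ σ : Type} (c : κ → ℂ) (P : MvPolynomial (κ ⊕ σ) Kb) :
    ∃ F : MvPolynomial σ ℂ, ∀ x, MvPolynomial.eval x F = MvPolynomial.aeval (Sum.elim c x) P := by
  refine ⟨MvPolynomial.aeval (Sum.elim (fun k => MvPolynomial.C (c k)) MvPolynomial.X) P,
    fun x => ?_⟩
  have h1 : ((MvPolynomial.aeval x : MvPolynomial σ ℂ →ₐ[ℂ] ℂ).restrictScalars Kb).comp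
      (MvPolynomial.aeval (Sum.elim (fun k => MvPolynomial.C (c k)) MvPolynomial.X)) =
      (MvPolynomial.aeval (Sum.elim c x) : MvPolynomial (κ ⊕ σ) Kb →ₐ[Kb] ℂ) := by
    apply MvPolynomial.algHom_ext
    rintro (k | k)
    · rw [AlgHom.comp_apply, MvPolynomial.aeval_X, MvPolynomial.aeval_X, Sum.elim_inl,
        Sum.elim_inl]
      change MvPolynomial.aeval x (MvPolynomial.C (c k)) = _
      rw [MvPolynomial.aeval_C]
      rfl
    · rw [AlgHom.comp_apply, MvPolynomial.aeval_X, MvPolynomial.aeval_X, Sum.elim_inr,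
        Sum.elim_inr]
      change MvPolynomial.aeval x (MvPolynomial.X k) = _
      rw [MvPolynomial.aeval_X]
  exact DFunLike.congr_fun h1 P

/-- evaluation of the first variables in the algebraic numbers -/
theorem exists_partial₁ {κ σ : Type} (c : κ → Kb) (P : MvPolynomial (κ ⊕ σ) Kb) :
    ∃ F : MvPolynomial σ Kb, ∀ x : σ → ℂ, MvPolynomial.aeval x F =
      MvPolynomial.aeval (Sum.elim (emb c) x) P := by
  refine ⟨MvPolynomial.aeval (Sum.elim (fun k => MvPolynomial.C (c k)) MvPolynomial.X) P,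
    fun x => ?_⟩
  rw [aeval_bind]
  congr 2
  funext k
  rcases k with k | k
  · rw [Sum.elim_inl, Sum.elim_inl, ← MvPolynomial.algebraMap_eq, AlgHom.commutes]
    rfl
  · rw [Sum.elim_inr, Sum.elim_inr, MvPolynomial.aeval_X]

/-- evaluation of the last variables in the algebraic numbers -/
theorem exists_partial₂ {κ σ : Type} (q : σ → Kb) (P : MvPolynomial (κ ⊕ σ) Kb) :
    ∃ F : MvPolynomial κ Kb, ∀ c : κ → ℂ, MvPolynomial.aeval c F =
      MvPolynomial.aeval (Sum.elim c (emb q)) P := by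
  refine ⟨MvPolynomial.aeval (Sum.elim MvPolynomial.X (fun k => MvPolynomial.C (q k))) P,
    fun x => ?_⟩
  rw [aeval_bind]
  congr 2
  funext k
  rcases k with k | k
  · rw [Sum.elim_inl, Sum.elim_inl, MvPolynomial.aeval_X]
  · rw [Sum.elim_inr, Sum.elim_inr, ← MvPolynomial.algebraMap_eq, AlgHom.commutes]
    rfl

end

end Vale.Agent.P002.R2.H426
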