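import Vale.Agent.P002.R2.H426.Cov2

/-!
# Families dominating a set of representations: the algebraic family
-/

namespace Vale.Agent.P002.R2.H426

open Matrix Module Vale.Agent.P002R.Orb Vale.Agent.P002.H2 Vale.Agent.P002.H955

section

variable {ι : Type} {r n : ℕ}

theorem value_aeval (F : MvPolynomial (ι × Fin r × Fin r) Kb)
    (X : ι → SpecialLinearGroup (Fin r) ℂ) :
    value F X = MvPolynomial.aeval (H252.coords X) F := rfl

/-- polynomials over `ℂ` vanishing on `Z` vanish on the closure over the algebraic numbers -/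
theorem value_of_idK {Z : Set (ι → SpecialLinearGroup (Fin r) ℂ)}
    (hdense : ∀ f, f ∉ idK Z → ∃ Q ∈ Z, (∀ p i j, (Q p).1 i j ∈ algebraicClosure ℚ ℂ) ∧
      value f Q ≠ 0)
    (F : MvPolynomial (ι × Fin r × Fin r) ℂ)
    (hF : ∀ Y ∈ Z, (∀ p i j, (Y p).1 i j ∈ algebraicClosure ℚ ℂ) → value F Y = 0)
    (Q : ι → SpecialLinearGroup (Fin r) ℂ) (hQ : ∀ G ∈ idK Z, value G Q = 0) :
    value F Q = 0 := by
  obtain ⟨J, b⟩ : ∃ J : Type, Nonempty (Basis J Kb ℂ) :=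
    ⟨_, ⟨Module.Basis.ofVectorSpace Kb ℂ⟩⟩
  obtain ⟨b⟩ := b
  obtain ⟨S, G, hG⟩ := decomp b F
  have h1 : ∀ k ∈ S, G k ∈ idK Z := by
    intro k hk
    by_contra hne
    obtain ⟨Y, hY, hYa, h2⟩ := hdense _ hne
    have h3 := hF Y hY hYa
    rw [hG] at h3
    exact h2 (parts_zero b S G Y hYa h3 k hk)
  rw [hG]
  exact Finset.sum_eq_zero fun k hk => by rw [hQ _ (h1 k hk), mul_zero]

/-- **Descent of dominating families to the algebraic numbers.** -/
theorem exists_cover [Finite ι] {Z : Set (ι → SpecialLinearGroup (Fin r) ℂ)}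
    (hconj : ∀ X ∈ Z, ∀ g : SpecialLinearGroup (Fin r) ℂ, (fun p => g * X p * g⁻¹) ∈ Z)
    (hdense : ∀ f, f ∉ idK Z → ∃ Q ∈ Z, (∀ p i j, (Q p).1 i j ∈ algebraicClosure ℚ ℂ) ∧
      value f Q ≠ 0)
    (X : (Fin n → ℂˣ) → ι → SpecialLinearGroup (Fin r) ℂ)
    (A : ι → Fin r → Fin r → MvPolynomial (Fin n ⊕ Fin n) ℂ)
    (hA : ∀ t p i j, (X t p).1 i j = MvPolynomial.eval (tt t) (A p i j))
    (hX : ∀ F ∈ idK Z, ∀ t, value F (X t) = 0)
    (hdom : ∀ F : MvPolynomial (ι × Fin r × Fin r) ℂ,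
      (∀ t (g : SpecialLinearGroup (Fin r) ℂ), (value F fun p => g * X t p * g⁻¹) = 0) →
        ∀ Y ∈ Z, value F Y = 0) :
    ∃ (A₀ : ι → Fin r → Fin r → MvPolynomial (Fin n ⊕ Fin n) Kb)
      (X₀ : (Fin n → ℂˣ) → ι → SpecialLinearGroup (Fin r) ℂ),
      (∀ t p i j, (X₀ t p).1 i j = MvPolynomial.aeval (tt t) (A₀ p i j)) ∧
      (∀ F ∈ idK Z, ∀ t, value F (X₀ t) = 0) ∧
      ∃ a₀, a₀ ∉ idK Z ∧ ∀ Q : ι → SpecialLinearGroup (Fin r) ℂ,
        (∀ p i j, (Q p).1 i j ∈ algebraicClosure ℚ ℂ) → (∀ F ∈ idK Z, value F Q = 0) →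
          value a₀ Q ≠ 0 → ∃ (t : Fin n → ℂˣ) (g : SpecialLinearGroup (Fin r) ℂ),
            (∀ i, (t i : ℂ) ∈ algebraicClosure ℚ ℂ) ∧
            (∀ i j, g.1 i j ∈ algebraicClosure ℚ ℂ) ∧ Q = fun p => g * X₀ t p * g⁻¹ := by
  classical
  have := Fintype.ofFinite ι
  -- the coefficients
  obtain ⟨T, hT⟩ : ∃ T : Finset (Fin n ⊕ Fin n →₀ ℕ), ∀ p i j, (A p i j).support ⊆ T :=
    ⟨Finset.univ.biUnion fun q : ι × Fin r × Fin r => (A q.1 q.2.1 q.2.2).support, fun p i j =>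
      Finset.subset_biUnion_of_mem
        (fun q : ι × Fin r × Fin r => (A q.1 q.2.1 q.2.2).support) (Finset.mem_univ (p, i, j))⟩
  obtain ⟨c, hc⟩ : ∃ c : (ι × Fin r × Fin r) × T → ℂ, ∀ q m, c (q, m) =
      (A q.1 q.2.1 q.2.2).coeff m.1 := ⟨fun k => (A k.1.1 k.1.2.1 k.1.2.2).coeff k.2.1,
        fun q m => rfl⟩
  have hMf : ∀ t p, Mf c t p = (X t p).1 := by
    intro t p
    ext i j
    rw [hA, MvPolynomial.eval_eq', Mf, Matrix.of_apply]
    have h1 : ∑ m : T, c ((p, i, j), m) * ∏ k, tt t k ^ m.1 k =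
        ∑ m ∈ T, (A p i j).coeff m * ∏ k, tt t k ^ m k := by
      rw [← Finset.sum_coe_sort T]
      exact Finset.sum_congr rfl fun m _ => by rw [hc]
    rw [h1]
    symm
    refine Finset.sum_subset (hT p i j) fun m _ hm => ?_
    rw [MvPolynomial.notMem_support_iff.1 hm, zero_mul]
  obtain ⟨Y, hY⟩ := exists_Y (ι := ι) (r := r) (n := n) T
  -- the generic point
  obtain ⟨x₁, hx₁, hgen⟩ := exists_gen c (del r n) del_ne
  obtain ⟨g₁, hg₁⟩ : ∃ g₁ : Matrix (Fin r) (Fin r) ℂ, g₁ = Matrix.of fun i j =>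
      x₁ (Sum.inl (i, j)) := ⟨_, rfl⟩
  have hx₁' : g₁.det ≠ 0 ∧ ∀ i, x₁ (Sum.inr i) ≠ 0 := by
    unfold del at hx₁
    rw [map_mul, aeval_det, map_prod] at hx₁
    have h1 : (Matrix.of fun i j => (MvPolynomial.X (Sum.inl (i, j)) :
        MvPolynomial ((Fin r × Fin r) ⊕ Fin n) Kb)).map (MvPolynomial.aeval x₁) = g₁ := by
      ext i j
      rw [Matrix.map_apply, Matrix.of_apply, MvPolynomial.aeval_X, hg₁, Matrix.of_apply]
    rw [h1] at hx₁
    refine ⟨left_ne_zero_of_mul hx₁, fun i => ?_⟩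
    have h2 := Finset.prod_ne_zero_iff.1 (right_ne_zero_of_mul hx₁) i (Finset.mem_univ i)
    rwa [MvPolynomial.aeval_X] at h2
  obtain ⟨t₁, ht₁⟩ : ∃ t₁ : Fin n → ℂˣ, ∀ i, (t₁ i : ℂ) = x₁ (Sum.inr i) :=
    ⟨fun i => Units.mk0 _ (hx₁'.2 i), fun i => rfl⟩
  have hgt₁ : gt g₁ t₁ = x₁ := by
    funext k
    rcases k with ⟨i, j⟩ | i
    · rw [gt, Sum.elim_inl, hg₁, Matrix.of_apply]
    · rw [gt, Sum.elim_inr, ht₁]
  rw [← hgt₁] at hgen
  obtain ⟨V₁, hV₁, -⟩ := conj_alg g₁ hx₁'.1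
  obtain ⟨Y₁, hY₁⟩ : ∃ Y₁ : ι → SpecialLinearGroup (Fin r) ℂ,
      Y₁ = fun p => V₁ * X t₁ p * V₁⁻¹ := ⟨_, rfl⟩
  have hYV : ∀ (g : Matrix (Fin r) (Fin r) ℂ) (V : SpecialLinearGroup (Fin r) ℂ),
      (∀ A : Matrix (Fin r) (Fin r) ℂ, (g.det)⁻¹ • (g * A * g.adjugate) = V.1 * A * (V⁻¹).1) →
      g.det ≠ 0 → ∀ t c' (X' : ι → SpecialLinearGroup (Fin r) ℂ),
        (∀ p, Mf (T := T) c' t p = (X' p).1) → ∀ q,
          MvPolynomial.aeval (pnt (del r n) (gt g t) c') (Y q) =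
            H252.coords (fun p => V * X' p * V⁻¹) q := by
    intro g V hV hg t c' X' hX' q
    rw [hY g t c' q hg, hX']
    have h1 := congrFun (congrFun (hV (X' q.1).1) q.2.1) q.2.2
    rw [Matrix.smul_apply, smul_eq_mul] at h1
    exact h1
  obtain ⟨Yμ, hYμl, hYμr⟩ : ∃ Yμ : ((ι × Fin r × Fin r) × T) ⊕ (ι × Fin r × Fin r) →
      MvPolynomial ((((Fin r × Fin r) ⊕ Fin n) ⊕ ((ι × Fin r × Fin r) × T)) ⊕ Unit) Kb,
      (∀ k, Yμ (Sum.inl k) = MvPolynomial.X (Sum.inl (Sum.inr k))) ∧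
      ∀ q, Yμ (Sum.inr q) = Y q := ⟨Sum.elim (fun k => MvPolynomial.X (Sum.inl (Sum.inr k))) Y,
        fun k => rfl, fun q => rfl⟩
  have hYμe : ∀ (g : Matrix (Fin r) (Fin r) ℂ) (V : SpecialLinearGroup (Fin r) ℂ),
      (∀ A : Matrix (Fin r) (Fin r) ℂ, (g.det)⁻¹ • (g * A * g.adjugate) = V.1 * A * (V⁻¹).1) →
      g.det ≠ 0 → ∀ t c' (X' : ι → SpecialLinearGroup (Fin r) ℂ),
        (∀ p, Mf (T := T) c' t p = (X' p).1) →
          (fun m => MvPolynomial.aeval (pnt (del r n) (gt g t) c') (Yμ m)) =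
            Sum.elim c' (H252.coords fun p => V * X' p * V⁻¹) := by
    intro g V hV hg t c' X' hX'
    funext m
    rcases m with k | q
    · rw [hYμl, MvPolynomial.aeval_X]
      rfl
    · rw [hYμr, hYV g V hV hg t c' X' hX']
      rfl
  obtain ⟨a, ha, hlift⟩ := lift_spec (pnt (del r n) (gt g₁ t₁) c) Yμ
  rw [hYμe g₁ V₁ hV₁ hx₁'.1 t₁ c (X t₁) (hMf t₁), ← hY₁] at ha hlift
  -- points of the closure
  have hconjK : ∀ Q : ι → SpecialLinearGroup (Fin r) ℂ, (∀ F ∈ idK Z, value F Q = 0) →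
      ∀ g : SpecialLinearGroup (Fin r) ℂ, ∀ F ∈ idK Z, (value F fun p => g * Q p * g⁻¹) = 0 := by
    intro Q hQ g F hF
    obtain ⟨G, hG⟩ := exists_conj_poly g (MvPolynomial.map (algebraMap Kb ℂ) F)
    have h1 := value_of_idK hdense G (fun Y hY _ => by
      rw [hG, value_map]
      exact hF _ (hconj Y hY g)) Q hQ
    rwa [hG, value_map] at h1
  have hY₁Z : ∀ F ∈ idK Z, value F Y₁ = 0 := by
    rw [hY₁]
    exact hconjK _ (fun F hF => hX F hF t₁) V₁
  -- relations at the generic point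
  have claim1 : ∀ P : MvPolynomial (((ι × Fin r × Fin r) × T) ⊕ (ι × Fin r × Fin r)) Kb,
      MvPolynomial.aeval (Sum.elim c (H252.coords Y₁)) P = 0 →
      ∀ Q : ι → SpecialLinearGroup (Fin r) ℂ, (∀ F ∈ idK Z, value F Q = 0) →
        MvPolynomial.aeval (Sum.elim c (H252.coords Q)) P = 0 := by
    intro P hP Q hQ
    obtain ⟨F, hF⟩ := exists_partial c P
    have h1 : ∀ t (g : SpecialLinearGroup (Fin r) ℂ), (value F fun p => g * X t p * g⁻¹) = 0 := by
      intro t g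
      rw [H252.value_eq, hF]
      have hg : g.1.det ≠ 0 := by rw [g.2]; exact one_ne_zero
      have hgV : ∀ A : Matrix (Fin r) (Fin r) ℂ,
          (g.1.det)⁻¹ • (g.1 * A * g.1.adjugate) = g.1 * A * (g⁻¹).1 := by
        intro A
        rw [g.2, inv_one, one_smul]
        rfl
      have h2 := hgen (MvPolynomial.aeval Yμ P) (by
        rw [aeval_bind, hYμe g₁ V₁ hV₁ hx₁'.1 t₁ c (X t₁) (hMf t₁), ← hY₁]
        exact hP) c (fun P hP => hP) (gt g.1 t) (del_ne' hg t)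
      rw [aeval_bind, hYμe g.1 g hgV hg t c (X t) (hMf t)] at h2
      exact h2
    have h2 := value_of_idK hdense F (fun Y hY _ => hdom F h1 Y hY) Q hQ
    rwa [H252.value_eq, hF] at h2
  -- an algebraic point of `Z`
  obtain ⟨Q₁, hQ₁, hQ₁a, hQ₁v⟩ : ∃ Q₁ ∈ Z, (∀ p i j, (Q₁ p).1 i j ∈ algebraicClosure ℚ ℂ) ∧
      MvPolynomial.aeval (Sum.elim c (H252.coords Q₁)) a ≠ 0 := by
    by_contra hcon
    push Not at hcon
    obtain ⟨F, hF⟩ := exists_partial c a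
    have h2 := value_of_idK hdense F (fun Y hY hYa => by
      rw [H252.value_eq, hF]
      exact hcon Y hY hYa) Y₁ hY₁Z
    rw [H252.value_eq, hF] at h2
    exact ha h2
  have hemb : ∀ Q : ι → SpecialLinearGroup (Fin r) ℂ,
      (∀ p i j, (Q p).1 i j ∈ algebraicClosure ℚ ℂ) →
        ∃ q : ι × Fin r × Fin r → Kb, emb q = H252.coords Q :=
    fun Q hQ => ⟨fun q => ⟨_, hQ q.1 q.2.1 q.2.2⟩, rfl⟩
  obtain ⟨q₁, hq₁⟩ := hemb Q₁ hQ₁a
  obtain ⟨p₁, hp₁⟩ := exists_partial₂ q₁ a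
  obtain ⟨c₀, hc₀, hc₀p⟩ := exists_spec c p₁ (by
    rw [hp₁, hq₁]
    exact hQ₁v)
  obtain ⟨a₀, ha₀⟩ := exists_partial₁ c₀ a
  -- the algebraic family
  have hspec : ∀ F : MvPolynomial (ι × Fin r × Fin r) Kb,
      MvPolynomial.aeval (H252.coords Y₁) F = 0 → ∀ t,
        MvPolynomial.aeval (fun q : ι × Fin r × Fin r => Mf (emb c₀) t q.1 q.2.1 q.2.2) F = 0 := by
    intro F hF t
    have hd1 : (1 : Matrix (Fin r) (Fin r) ℂ).det ≠ 0 := by
      rw [Matrix.det_one]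
      exact one_ne_zero
    have h2 := hgen (MvPolynomial.aeval Y F) (by
      rw [aeval_bind]
      have h3 : (fun m => MvPolynomial.aeval (pnt (del r n) (gt g₁ t₁) c) (Y m)) =
          H252.coords Y₁ := by
        funext q
        rw [hYV g₁ V₁ hV₁ hx₁'.1 t₁ c (X t₁) (hMf t₁), hY₁]
      rw [h3]
      exact hF) (emb c₀) hc₀ (gt 1 t) (del_ne' hd1 t)
    rw [aeval_bind] at h2
    have h3 : (fun m => MvPolynomial.aeval (pnt (del r n) (gt 1 t) (emb c₀)) (Y m)) =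
        fun q : ι × Fin r × Fin r => Mf (emb c₀) t q.1 q.2.1 q.2.2 := by
      funext q
      rw [hY 1 t (emb c₀) q hd1, Matrix.det_one, inv_one, one_mul, Matrix.adjugate_one,
        Matrix.mul_one, Matrix.one_mul]
    rw [h3] at h2
    exact h2
  have hdet : ∀ t p, (Mf (emb c₀) t p).det = 1 := by
    intro t p
    have h1 := hspec ((Matrix.of fun i j => (MvPolynomial.X (p, i, j) :
      MvPolynomial (ι × Fin r × Fin r) Kb)).det - 1) (by
      rw [map_sub, map_one, aeval_det, sub_eq_zero]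
      have h2 : (Matrix.of fun i j => (MvPolynomial.X (p, i, j) :
          MvPolynomial (ι × Fin r × Fin r) Kb)).map (MvPolynomial.aeval (H252.coords Y₁)) =
          (Y₁ p).1 := by
        ext i j
        rw [Matrix.map_apply, Matrix.of_apply, MvPolynomial.aeval_X]
        rfl
      rw [h2]
      exact (Y₁ p).2) t
    rw [map_sub, map_one, aeval_det, sub_eq_zero] at h1
    have h2 : (Matrix.of fun i j => (MvPolynomial.X (p, i, j) :
        MvPolynomial (ι × Fin r × Fin r) Kb)).map (MvPolynomial.aeval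
          (fun q : ι × Fin r × Fin r => Mf (emb c₀) t q.1 q.2.1 q.2.2)) =
        Mf (emb c₀) t p := by
      ext i j
      rw [Matrix.map_apply, Matrix.of_apply, MvPolynomial.aeval_X]
    rwa [h2] at h1
  obtain ⟨X₀, hX₀⟩ : ∃ X₀ : (Fin n → ℂˣ) → ι → SpecialLinearGroup (Fin r) ℂ,
      ∀ t p, Mf (emb c₀) t p = (X₀ t p).1 := ⟨fun t p => ⟨_, hdet t p⟩, fun t p => rfl⟩
  refine ⟨fun p i j => ∑ m : T, MvPolynomial.monomial m.1 (c₀ ((p, i, j), m)), X₀,
    fun t p i j => ?_, fun F hF t => ?_, a₀, fun h => ?_, fun Q hQa hQZ hQv => ?_⟩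
  · rw [← hX₀, map_sum, Mf, Matrix.of_apply]
    refine Finset.sum_congr rfl fun m _ => ?_
    rw [MvPolynomial.aeval_monomial, Finsupp.prod_fintype]
    · rfl
    · intro k
      rw [pow_zero]
  · have h1 := hspec F (by
      rw [← value_aeval]
      exact hY₁Z F hF) t
    rw [value_aeval]
    have h2 : (fun q : ι × Fin r × Fin r => Mf (emb c₀) t q.1 q.2.1 q.2.2) =
        H252.coords (X₀ t) := by
      funext q
      rw [hX₀]
      rfl
    rwa [h2] at h1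
  · have h1 := h Q₁ hQ₁
    rw [value_aeval, ha₀] at h1
    rw [hp₁, hq₁] at hc₀p
    exact hc₀p h1
  · obtain ⟨q, hq⟩ := hemb Q hQa
    obtain ⟨y, hy, hyz⟩ := hlift (Sum.elim c₀ q) (by
      intro P hP
      have h1 := claim1 P hP Q hQZ
      obtain ⟨P', hP'⟩ := exists_partial₂ q P
      rw [← hq, ← hP'] at h1
      have h2 := hc₀ P' h1
      rw [hP'] at h2
      have h3 : emb (Sum.elim c₀ q) = Sum.elim (emb c₀) (emb q) := by
        funext k
        rcases k with k | k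
        · rfl
        · rfl
      rw [h3]
      exact h2) (by
      have h3 : emb (Sum.elim c₀ q) = Sum.elim (emb c₀) (emb q) := by
        funext k
        rcases k with k | k
        · rfl
        · rfl
      rw [h3, hq, ← ha₀]
      exact hQv)
    obtain ⟨g₀, hg₀⟩ : ∃ g₀ : Matrix (Fin r) (Fin r) ℂ, g₀ = Matrix.of fun i j =>
      (y (Sum.inl (Sum.inl (Sum.inl (i, j)))) : ℂ) := ⟨_, rfl⟩
    -- the last coordinate
    have h1 := hy (MvPolynomial.X (Sum.inr ()) *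
      MvPolynomial.rename (fun k => Sum.inl (Sum.inl k)) (del r n) - 1) (by
      rw [map_sub, map_mul, MvPolynomial.aeval_X, MvPolynomial.aeval_rename, map_one, sub_eq_zero]
      exact inv_mul_cancel₀ (del_ne' hx₁'.1 t₁))
    rw [map_sub, map_mul, MvPolynomial.aeval_X, MvPolynomial.aeval_rename, map_one,
      sub_eq_zero] at h1
    have h2 : MvPolynomial.aeval ((emb y) ∘ fun k => Sum.inl (Sum.inl k)) (del r n) =
        g₀.det * ∏ i, (y (Sum.inl (Sum.inl (Sum.inr i))) : ℂ) := by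
      unfold del
      rw [map_mul, aeval_det, map_prod]
      congr 1
      · congr 1
        ext i j
        rw [Matrix.map_apply, Matrix.of_apply, MvPolynomial.aeval_X, hg₀, Matrix.of_apply]
        rfl
      · refine Finset.prod_congr rfl fun i _ => ?_
        rw [MvPolynomial.aeval_X]
        rfl
    rw [h2] at h1
    have h3 : g₀.det * ∏ i, (y (Sum.inl (Sum.inl (Sum.inr i))) : ℂ) ≠ 0 :=
      right_ne_zero_of_mul (h1.symm ▸ one_ne_zero)
    have hg₀d : g₀.det ≠ 0 := left_ne_zero_of_mul h3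
    obtain ⟨t₀, ht₀⟩ : ∃ t₀ : Fin n → ℂˣ, ∀ i, (t₀ i : ℂ) =
        (y (Sum.inl (Sum.inl (Sum.inr i))) : ℂ) :=
      ⟨fun i => Units.mk0 _ (Finset.prod_ne_zero_iff.1 (right_ne_zero_of_mul h3) i
        (Finset.mem_univ i)), fun i => rfl⟩
    have hyc : ∀ k, (y (Sum.inl (Sum.inr k)) : ℂ) = emb c₀ k := by
      intro k
      have h4 := hyz (Sum.inl k)
      rw [hYμl, MvPolynomial.aeval_X] at h4
      exact h4
    have hpt : emb y = pnt (del r n) (gt g₀ t₀) (emb c₀) := by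
      funext k
      rcases k with ((⟨i, j⟩ | i) | k) | k
      · change (y (Sum.inl (Sum.inl (Sum.inl (i, j)))) : ℂ) = g₀ i j
        rw [hg₀, Matrix.of_apply]
      · change (y (Sum.inl (Sum.inl (Sum.inr i))) : ℂ) = (t₀ i : ℂ)
        rw [ht₀]
      · exact hyc k
      · change (y (Sum.inr ()) : ℂ) = (MvPolynomial.aeval (gt g₀ t₀) (del r n))⁻¹
        rw [aeval_del, Finset.prod_congr rfl fun i _ => ht₀ i]
        exact eq_inv_of_mul_eq_one_left h1
    obtain ⟨V, hV, hVa⟩ := conj_alg g₀ hg₀d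
    refine ⟨t₀, V, fun i => ?_, hVa fun i j => ?_, ?_⟩
    · rw [ht₀]
      exact (y _).2
    · rw [hg₀, Matrix.of_apply]
      exact (y _).2
    · funext p
      apply Subtype.ext
      ext i j
      have h4 := hyz (Sum.inr (p, i, j))
      rw [hYμr, hpt, hYV g₀ V hV hg₀d t₀ (emb c₀) (X₀ t₀) (hX₀ t₀)] at h4
      have h5 := congrFun hq (p, i, j)
      exact h5.symm.trans h4.symm

end

end Vale.Agent.P002.R2.H426
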