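import Vale.Agent.P002.R2.H426.Defs

/-!
# Components dominated by a torus in `M_r`: definition
-/

namespace Vale.Agent.P002.R2

open Matrix Vale.Agent.P002R.Orb Vale.Agent.P002.H326J Vale.Agent.P002.H2

variable {ι : Type} {r : ℕ}

/-- The set `Z` of points of `M_r(X)(ℂ)` is dominated by a torus in `M_r(X)`: for some `n` there
are representations `X t`, `t ∈ (ℂˣ)ⁿ`, such that the traces of all words are Laurent polynomials
in `t` (the matrices may depend on `t` in an arbitrary way), `X t` is in `Z` for all `t` outside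
of a proper closed subset `h = 0` of the torus, and these points `X t` are Zariski dense in `Z` as
a set of points of `M_r(X)(ℂ)`. -/
def IsTorusDominatedM (R : Set (FreeGroup ι)) (Z : Set (ι → SpecialLinearGroup (Fin r) ℂ)) :
    Prop :=
  ∃ (n : ℕ) (X : (Fin n → ℂˣ) → ι → SpecialLinearGroup (Fin r) ℂ),
    (∀ x : FreeGroup ι, IsLaurent fun t => (FreeGroup.lift (X t) x).1.trace) ∧
    (∃ h : MvPolynomial (Fin n) ℂ, h ≠ 0 ∧
      ∀ t : Fin n → ℂˣ, MvPolynomial.eval (fun i => (t i : ℂ)) h ≠ 0 → X t ∈ Z) ∧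
    ∀ F : MvPolynomial (ι × Fin r × Fin r) ℂ, IsInvariant R F →
      (∀ t, X t ∈ Z → value F (X t) = 0) → ∀ Y ∈ Z, value F Y = 0

end Vale.Agent.P002.R2
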