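import Vale.Agent.P002.R2.H426.Inv

/-!
# Descent of the traces of all words
-/

namespace Vale.Agent.P002.R2.H426

open Matrix Module Vale.Agent.P002R.Orb Vale.Agent.P002.H326J Vale.Agent.P002.H2
  Vale.Agent.P002.H955 Vale.Agent.P002.R2

section

variable {ι : Type} {r m n : ℕ}

/-- the traces of the finitely many words, in terms of the coefficients -/
noncomputable def Af {T : Finset (Fin n ⊕ Fin n →₀ ℕ)} (c : (Wd m ι × T) ⊕ Unit → ℂ)
    (t : Fin n → ℂˣ) (x : Wd m ι) : ℂ :=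
  ∑ q : T, c (Sum.inl (x, q)) * ∏ k, tt t k ^ q.1 k

/-- the same over the polynomial ring in the coefficients -/
noncomputable def At (T : Finset (Fin n ⊕ Fin n →₀ ℕ)) (x : Wd m ι) :
    MvPolynomial (Fin n ⊕ Fin n) (MvPolynomial ((Wd m ι × T) ⊕ Unit) Kb) :=
  ∑ q : T, MvPolynomial.monomial q.1 (MvPolynomial.X (Sum.inl (x, q)))

/-- evaluation of the coefficients -/
noncomputable def evc {κ : Type} (c : κ → ℂ) : MvPolynomial κ Kb →+* ℂ :=
  ((MvPolynomial.aeval c : MvPolynomial κ Kb →ₐ[Kb] ℂ) : MvPolynomial κ Kb →+* ℂ)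

theorem evc_apply {κ : Type} (c : κ → ℂ) (P : MvPolynomial κ Kb) :
    evc c P = MvPolynomial.aeval c P := rfl

theorem eval_At (T : Finset (Fin n ⊕ Fin n →₀ ℕ)) (c : (Wd m ι × T) ⊕ Unit → ℂ)
    (t : Fin n → ℂˣ) (x : Wd m ι) :
    MvPolynomial.eval₂ (evc c) (tt t) (At T x) = Af c t x := by
  rw [At, Af, MvPolynomial.eval₂_sum]
  refine Finset.sum_congr rfl fun q _ => ?_
  rw [MvPolynomial.eval₂_monomial, evc_apply, MvPolynomial.aeval_X, Finsupp.prod_fintype]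
  intro k
  rw [pow_zero]

theorem eval_det_At (T : Finset (Fin n ⊕ Fin n →₀ ℕ)) (c : (Wd m ι × T) ⊕ Unit → ℂ)
    (t : Fin n → ℂˣ) : MvPolynomial.eval₂ (evc c) (tt t) (Gm (At (m := m) (ι := ι) T)).det =
      (Gm (Af c t)).det := by
  have h1 := map_det_Gm (MvPolynomial.eval₂Hom (evc c) (tt t)) (At (m := m) (ι := ι) T)
  rw [MvPolynomial.coe_eval₂Hom] at h1
  rw [← h1]
  congr 2
  funext x
  exact eval_At T c t x

theorem eval_Ph_At (T : Finset (Fin n ⊕ Fin n →₀ ℕ)) (c : (Wd m ι × T) ⊕ Unit → ℂ)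
    (t : Fin n → ℂˣ) (l : List (ι × Bool)) :
    MvPolynomial.eval₂ (evc c) (tt t) (Ph (At (m := m) (ι := ι) T) l) = Ph (Af c t) l := by
  have h1 := map_Ph (MvPolynomial.eval₂Hom (evc c) (tt t)) (At (m := m) (ι := ι) T) l
  rw [MvPolynomial.coe_eval₂Hom] at h1
  rw [← h1]
  congr 1
  funext x
  exact eval_At T c t x

theorem lc_prodX (N : ℕ) : (MonomialOrder.lex (σ := Fin n)).leadingCoeff
    ((∏ i, MvPolynomial.X i : MvPolynomial (Fin n) ℂ) ^ N) = 1 := by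
  rw [MonomialOrder.leadingCoeff_pow]
  have h1 : ∀ s : Finset (Fin n), (MonomialOrder.lex (σ := Fin n)).leadingCoeff
      (∏ i ∈ s, MvPolynomial.X i : MvPolynomial (Fin n) ℂ) = 1 := by
    classical
    intro s
    induction s using Finset.induction_on with
    | empty => simp
    | insert i s hi ih =>
      rw [Finset.prod_insert hi, MonomialOrder.leadingCoeff_mul, ih]
      simp
  rw [h1, one_pow]

/-- lifting of polynomials -/
theorem exists_lift_map {S : Type} [CommRing S] (φ : S →+* ℂ) (f : MvPolynomial (Fin n) ℂ)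
    (hf : ∀ k, ∃ s, φ s = f.coeff k) : ∃ F : MvPolynomial (Fin n) S, MvPolynomial.map φ F = f := by
  classical
  choose s hs using hf
  refine ⟨∑ k ∈ f.support, MvPolynomial.monomial k (s k), ?_⟩
  rw [map_sum]
  conv_rhs => rw [f.as_sum]
  refine Finset.sum_congr rfl fun k _ => ?_
  rw [MvPolynomial.map_monomial, hs]

/-- **Descent of the traces of all words.** -/
theorem exists_T (T : Finset (Fin n ⊕ Fin n →₀ ℕ)) (c₀ : Wd m ι × T → ℂ)
    (hne : ∃ t : Fin n → ℂˣ, (Gm (Af (Sum.elim c₀ fun _ => 0) t)).det ≠ 0)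
    (hT : ∀ l : List (ι × Bool), ∃ p : MvPolynomial (Fin n ⊕ Fin n) ℂ, ∀ t : Fin n → ℂˣ,
      MvPolynomial.eval (tt t) p * (Gm (Af (Sum.elim c₀ fun _ => 0) t)).det ^ (l.length + 1) =
        Ph (Af (Sum.elim c₀ fun _ => 0) t) l) :
    ∃ z : ℂ, ∀ c₁ : (Wd m ι × T) ⊕ Unit → Kb, Sp (Sum.elim c₀ fun _ => z) (emb c₁) →
      ∀ l : List (ι × Bool), ∃ p : MvPolynomial (Fin n ⊕ Fin n) Kb, ∀ t : Fin n → ℂˣ,
        MvPolynomial.aeval (tt t) p * (Gm (Af (emb c₁) t)).det ^ (l.length + 1) =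
          Ph (Af (emb c₁) t) l := by
  classical
  have hprod : ∀ t : Fin n → ℂˣ, ∏ i, (t i : ℂ) ≠ 0 := fun t =>
    Finset.prod_ne_zero_iff.2 fun i _ => (t i).ne_zero
  have hAz : ∀ z t, Af (Sum.elim c₀ fun _ => z) t = Af (Sum.elim c₀ fun _ => 0) t :=
    fun z t => rfl
  obtain ⟨N₂, P₂, hP₂⟩ := lev_numR (Gm (At (m := m) (ι := ι) T)).det
  have hP₂' : ∀ (c : (Wd m ι × T) ⊕ Unit → ℂ) (t : Fin n → ℂˣ),
      MvPolynomial.eval (fun i => (t i : ℂ)) (MvPolynomial.map (evc c) P₂) =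
        (∏ i, (t i : ℂ)) ^ N₂ * (Gm (Af c t)).det := by
    intro c t
    rw [MvPolynomial.eval_map, hP₂, eval_det_At]
  obtain ⟨g₂, hg₂⟩ : ∃ g₂, g₂ = MvPolynomial.map (evc (Sum.elim c₀ fun _ => 0)) P₂ := ⟨_, rfl⟩
  have hg₂0 : g₂ ≠ 0 := by
    obtain ⟨t, ht⟩ := hne
    intro h0
    have h1 := hP₂' (Sum.elim c₀ fun _ => 0) t
    rw [← hg₂, h0, map_zero] at h1
    exact mul_ne_zero (pow_ne_zero _ (hprod t)) ht h1.symm
  obtain ⟨z, hz⟩ : ∃ z : ℂ, z = ((MonomialOrder.lex (σ := Fin n)).leadingCoeff g₂)⁻¹ := ⟨_, rfl⟩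
  refine ⟨z, fun c₁ hc₁ l => ?_⟩
  obtain ⟨c, hc⟩ : ∃ c : (Wd m ι × T) ⊕ Unit → ℂ, c = Sum.elim c₀ fun _ => z := ⟨_, rfl⟩
  rw [← hc] at hc₁
  have hAc : ∀ t, Af c t = Af (Sum.elim c₀ fun _ => 0) t := by
    intro t
    rw [hc]
    exact hAz z t
  have hg₂c : MvPolynomial.map (evc c) P₂ = g₂ := by
    rw [← sub_eq_zero]
    apply torus_zero
    intro t
    rw [map_sub, hP₂', hg₂, hP₂', hAc, sub_self]
  obtain ⟨N₁, P₁, hP₁⟩ := lev_numR (Ph (At (m := m) (ι := ι) T) l)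
  have hP₁' : ∀ (c : (Wd m ι × T) ⊕ Unit → ℂ) (t : Fin n → ℂˣ),
      MvPolynomial.eval (fun i => (t i : ℂ)) (MvPolynomial.map (evc c) P₁) =
        (∏ i, (t i : ℂ)) ^ N₁ * Ph (Af c t) l := by
    intro c t
    rw [MvPolynomial.eval_map, hP₁, eval_Ph_At]
  obtain ⟨p, hp⟩ := hT l
  obtain ⟨N₃, P₃, hP₃⟩ := lev_numR p
  have hP₃' : ∀ t : Fin n → ℂˣ, MvPolynomial.eval (fun i => (t i : ℂ)) P₃ =
      (∏ i, (t i : ℂ)) ^ N₃ * MvPolynomial.eval (tt t) p := fun t => hP₃ (RingHom.id ℂ) t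
  obtain ⟨k, hk⟩ : ∃ k, k = l.length + 1 := ⟨_, rfl⟩
  rw [← hk] at hp ⊢
  have hXe : ∀ (t : Fin n → ℂˣ) (N : ℕ), MvPolynomial.eval (fun i => (t i : ℂ))
      ((∏ i, MvPolynomial.X i : MvPolynomial (Fin n) ℂ) ^ N) = (∏ i, (t i : ℂ)) ^ N := by
    intro t N
    rw [map_pow, map_prod]
    simp only [MvPolynomial.eval_X]
  -- the identity of polynomials
  have hid : P₃ * (g₂ ^ k * (∏ i, MvPolynomial.X i) ^ N₁) =
      MvPolynomial.map (evc c) P₁ * (∏ i, MvPolynomial.X i) ^ (N₃ + N₂ * k) := by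
    rw [← sub_eq_zero]
    apply torus_zero
    intro t
    rw [map_sub, map_mul, map_mul, map_mul, map_pow, hXe, hXe, hP₃', hP₁', ← hg₂c, hP₂', hAc,
      ← hp t]
    ring
  have hXmap : ∀ (N : ℕ), MvPolynomial.map (evc c)
      ((∏ i, MvPolynomial.X i : MvPolynomial (Fin n) (MvPolynomial ((Wd m ι × T) ⊕ Unit) Kb)) ^ N) =
        (∏ i, MvPolynomial.X i : MvPolynomial (Fin n) ℂ) ^ N := by
    intro N
    rw [map_pow, map_prod]
    simp only [MvPolynomial.map_X]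
  -- the coefficients of the numerator
  have hzmem : z ∈ (evc c).range := by
    refine ⟨MvPolynomial.X (Sum.inr ()), ?_⟩
    rw [evc_apply, MvPolynomial.aeval_X, hc]
    rfl
  have hcoef : ∀ e, P₃.coeff e ∈ (evc c).range := by
    refine div_mem (evc c).range (g₂ ^ k * (∏ i, MvPolynomial.X i) ^ N₁) (fun e => ?_) ?_ ?_ P₃
      fun e => ?_
    · rw [← hg₂c, ← hXmap, ← map_pow, ← map_mul, MvPolynomial.coeff_map]
      exact ⟨_, rfl⟩
    · rw [MonomialOrder.leadingCoeff_mul, lc_prodX, mul_one, MonomialOrder.leadingCoeff_pow,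
        ← inv_pow, ← hz]
      exact pow_mem hzmem _
    · refine mul_ne_zero (pow_ne_zero _ hg₂0) (pow_ne_zero _ ?_)
      exact Finset.prod_ne_zero_iff.2 fun i _ => MvPolynomial.X_ne_zero i
    · rw [hid, ← hXmap, ← map_mul, MvPolynomial.coeff_map]
      exact ⟨_, rfl⟩
  obtain ⟨Q₃, hQ₃⟩ := exists_lift_map (evc c) P₃ hcoef
  -- specialization
  have hspec : MvPolynomial.map (evc (emb c₁)) (Q₃ * (P₂ ^ k * (∏ i, MvPolynomial.X i) ^ N₁) -
      P₁ * (∏ i, MvPolynomial.X i) ^ (N₃ + N₂ * k)) = 0 := by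
    have h1 : MvPolynomial.map (evc c) (Q₃ * (P₂ ^ k * (∏ i, MvPolynomial.X i) ^ N₁) -
      P₁ * (∏ i, MvPolynomial.X i) ^ (N₃ + N₂ * k)) = 0 := by
      rw [map_sub, map_mul, map_mul, map_mul, map_pow, hQ₃, hg₂c, hXmap, hXmap, hid, sub_self]
    ext e
    have h2 := congrArg (MvPolynomial.coeff e) h1
    rw [MvPolynomial.coeff_map, MvPolynomial.coeff_zero] at h2 ⊢
    exact hc₁ _ h2
  have hXmap' : ∀ (N : ℕ), MvPolynomial.map (evc (emb c₁))
      ((∏ i, MvPolynomial.X i : MvPolynomial (Fin n) (MvPolynomial ((Wd m ι × T) ⊕ Unit) Kb)) ^ N) =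
        (∏ i, MvPolynomial.X i : MvPolynomial (Fin n) ℂ) ^ N := by
    intro N
    rw [map_pow, map_prod]
    simp only [MvPolynomial.map_X]
  refine ⟨(∏ i, MvPolynomial.X (Sum.inr i)) ^ N₃ *
    MvPolynomial.rename Sum.inl (MvPolynomial.map (MvPolynomial.eval c₁) Q₃), fun t => ?_⟩
  have h1 : MvPolynomial.aeval (tt t) (MvPolynomial.rename Sum.inl
      (MvPolynomial.map (MvPolynomial.eval c₁) Q₃) : MvPolynomial (Fin n ⊕ Fin n) Kb) =
        MvPolynomial.eval (fun i => (t i : ℂ)) (MvPolynomial.map (evc (emb c₁)) Q₃) := by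
    rw [MvPolynomial.aeval_rename, MvPolynomial.aeval_def, MvPolynomial.eval₂_map,
      MvPolynomial.eval_map]
    have h2 : (algebraMap Kb ℂ).comp (MvPolynomial.eval c₁) = evc (emb c₁) := by
      apply RingHom.ext
      intro P
      rw [evc_apply, aeval_emb]
      rfl
    rw [h2]
    rfl
  have h2 : MvPolynomial.aeval (tt t) ((∏ i, MvPolynomial.X (Sum.inr i)) ^ N₃ :
      MvPolynomial (Fin n ⊕ Fin n) Kb) = ((∏ i, (t i : ℂ)) ^ N₃)⁻¹ := by
    rw [map_pow, map_prod, ← inv_pow, ← Finset.prod_inv_distrib]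
    congr 1
    refine Finset.prod_congr rfl fun i _ => ?_
    rw [MvPolynomial.aeval_X]
    change (((t i)⁻¹ : ℂˣ) : ℂ) = _
    rw [Units.val_inv_eq_inv_val]
  have h3 := congrArg (MvPolynomial.eval fun i => (t i : ℂ)) hspec
  rw [map_sub, map_sub, map_mul, map_mul, map_mul, map_mul, map_mul, map_mul, map_pow, map_pow,
    hXmap', hXmap', hXe, hXe, hP₂', hP₁', map_zero, sub_eq_zero] at h3
  rw [map_mul, h1, h2]
  have h4 := pow_ne_zero N₃ (hprod t)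
  have h5 : (∏ i, (t i : ℂ)) ^ (N₁ + N₂ * k) ≠ 0 := pow_ne_zero _ (hprod t)
  rw [mul_assoc, inv_mul_eq_iff_eq_mul₀ h4]
  apply mul_left_cancel₀ h5
  calc _ = MvPolynomial.eval (fun i => (t i : ℂ)) (MvPolynomial.map (evc (emb c₁)) Q₃) *
      (((∏ i, (t i : ℂ)) ^ N₂ * (Gm (Af (emb c₁) t)).det) ^ k * (∏ i, (t i : ℂ)) ^ N₁) := by
        rw [pow_add, pow_mul, mul_pow]
        ring
    _ = _ := by
      rw [h3, pow_add, pow_add]
      ring

end

end Vale.Agent.P002.R2.H426
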