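import Vale.Agent.P002.R2.H426.One

/-!
# Components dominated by a torus: one field from one integral point
-/

namespace Vale.Agent.P002.R2.H426

open Matrix Module NumberField Vale.Agent.P002R.Orb Vale.Agent.P002.H326J Vale.Agent.P002.H2
  Vale.Agent.P002.H955 Vale.Agent.P002.R2

section

variable {ι : Type} {r n : ℕ}

/-- the data attached to a component dominated by a torus -/
theorem cover_data [Finite ι] {s : ℕ} {R : Set (FreeGroup ι)} {w : Fin s → FreeGroup ι}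
    {C : Fin s → SpecialLinearGroup (Fin r) ℂ} (hC : ∀ k i j, (C k).1 i j ∈ algebraicClosure ℚ ℂ)
    {Z : Set (ι → SpecialLinearGroup (Fin r) ℂ)} (hZ : IsComponentM R Z (YW R w C))
    (hT : IsTorusDominated R Z) :
    ∃ (n : ℕ) (A₀ : ι → Fin r → Fin r → MvPolynomial (Fin n ⊕ Fin n) Kb)
      (X₀ : (Fin n → ℂˣ) → ι → SpecialLinearGroup (Fin r) ℂ),
      (∀ t p i j, (X₀ t p).1 i j = MvPolynomial.aeval (tt t) (A₀ p i j)) ∧
      (∀ F ∈ idK Z, ∀ t, value F (X₀ t) = 0) ∧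
      ∃ a₀, a₀ ∉ idK Z ∧ ∀ Q : ι → SpecialLinearGroup (Fin r) ℂ,
        (∀ p i j, (Q p).1 i j ∈ algebraicClosure ℚ ℂ) → (∀ F ∈ idK Z, value F Q = 0) →
          value a₀ Q ≠ 0 → ∃ (t : Fin n → ℂˣ) (g : SpecialLinearGroup (Fin r) ℂ),
            (∀ i, (t i : ℂ) ∈ algebraicClosure ℚ ℂ) ∧
            (∀ i j, g.1 i j ∈ algebraicClosure ℚ ℂ) ∧ Q = fun p => g * X₀ t p * g⁻¹ := by
  obtain ⟨n, X, hLau, ⟨h, h0, hXh⟩, hdom⟩ := hT
  choose A hA using hLau
  have hconj := hZ.conj (fun X hX => hX.1.1) fun X hX g => YW_conj R w C X hX g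
  obtain ⟨A₀, X₀, h1, h2, h3⟩ := exists_cover hconj (alg_points R w C hC hZ.isComponent) X A
    (fun t p i j => hA p i j t) (fun F hF t => by
      rw [← value_map]
      refine fam_closure X A (fun t p i j => hA p i j t) h h0 hXh _ (fun Y hY => ?_) t
      rw [value_map]
      exact hF Y hY)
    (fun F hF => fam_dom (fun X hX => (hZ.1 hX).1.2) X hdom F hF)
  exact ⟨n, A₀, X₀, h1, h2, h3⟩

/-- one field, for classes of matrices with algebraic entries -/
theorem one_field_alg [Finite ι] {s : ℕ} {R : Set (FreeGroup ι)} {w : Fin s → FreeGroup ι}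
    {C : Fin s → SpecialLinearGroup (Fin r) ℂ} (hC : ∀ k i j, (C k).1 i j ∈ algebraicClosure ℚ ℂ)
    {Z : Set (ι → SpecialLinearGroup (Fin r) ℂ)} (hZ : IsComponentM R Z (YW R w C))
    (hT : IsTorusDominated R Z) (X₁ : ι → SpecialLinearGroup (Fin r) ℂ)
    (L₁ : IntermediateField ℚ ℂ) (hL₁ : FiniteDimensional ℚ L₁) (hX₁ : IsIntegralRep L₁ X₁)
    (h1Z : ∀ F ∈ idK Z, value F X₁ = 0) :
    ∃ L : IntermediateField ℚ ℂ, FiniteDimensional ℚ L ∧ IsDenseRep L Z := by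
  obtain ⟨n, A₀, X₀, hA₀, hX₀, a₀, ha₀, hcov⟩ := cover_data hC hZ hT
  have hconj := hZ.conj (fun X hX => hX.1.1) fun X hX g => YW_conj R w C X hX g
  obtain ⟨f, hf, hfZ⟩ := comp_open R w C hC hZ.isComponent
  obtain ⟨d, hd⟩ := exists_points hZ.isComponent.2.1 X₁ L₁ hL₁ hX₁ h1Z
  obtain ⟨Q, hQZ, hQa₀, hQa, L₂, -, -, hQL⟩ := hd a₀ ha₀
  obtain ⟨t₀, g₀, ht₀, hg₀, hQ⟩ := hcov Q hQa hQZ hQa₀
  refine dense_of_cover hZ.isComponent.2.1 hconj (alg_points R w C hC hZ.isComponent) f hf hfZ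
    A₀ X₀ hA₀ hX₀ a₀ ha₀ hcov t₀ ht₀ g₀ hg₀ fun p i j => ?_
  obtain ⟨a, ha⟩ := hQL p i j
  have h1 : (g₀ * X₀ t₀ p * g₀⁻¹).1 i j = (Q p).1 i j := by rw [hQ]
  rw [h1, ha]
  exact a.2.map (L₂.val.restrictScalars ℤ)

/-- **One field from one integral point**, for components dominated by a torus. -/
theorem one_field [Finite ι] {s : ℕ} {R : Set (FreeGroup ι)} {w : Fin s → FreeGroup ι}
    {C : Fin s → SpecialLinearGroup (Fin r) ℂ} {Z : Set (ι → SpecialLinearGroup (Fin r) ℂ)}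
    (hZ : IsComponentM R Z (YW R w C)) (hT : IsTorusDominated R Z)
    {X : ι → SpecialLinearGroup (Fin r) ℂ} (hX : InClosureM R Z X)
    (ht : ∀ x, IsIntegral ℤ (FreeGroup.lift X x).1.trace) :
    ∃ L : IntermediateField ℚ ℂ, FiniteDimensional ℚ L ∧ IsDenseRep L Z := by
  obtain ⟨L, -, hL⟩ := integralPoint_of_trace R X hX.1 ht
  have hC := algebraic_of_closure hZ.1 hX hL
  choose C' hCC' hC' using fun k => exists_algForm' (C k) (hC k)
  rw [YW_congr R w C C' hCC'] at hZ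
  have hconj := hZ.conj (fun X hX => hX.1.1) fun X hX g => YW_conj R w C' X hX g
  obtain ⟨L₁, X₁, hL₁, hX₁, g, hg⟩ := integral_form R X hX.1 ht
  have hXg : X₁ = fun p => g * X p * g⁻¹ := funext hg
  refine one_field_alg hC' hZ hT X₁ L₁ hL₁ hX₁ fun F hF => ?_
  obtain ⟨G, hG⟩ : ∃ G : MvPolynomial (ι × Fin r × Fin r) ℂ,
      ∀ X : ι → SpecialLinearGroup (Fin r) ℂ, value G X = value F X :=
    ⟨MvPolynomial.map (algebraMap Kb ℂ) F, fun X => value_map F X⟩
  rw [← hG, hXg]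
  refine value_conj_zero hconj (fun F' hF' => hX.value_eq_zero hconj F' hF') g G fun X' hX' => ?_
  rw [hG]
  exact hF X' hX'

/-- density passes to larger fields -/
theorem IsDenseRep.mono {Z : Set (ι → SpecialLinearGroup (Fin r) ℂ)}
    {L L' : IntermediateField ℚ ℂ} (hL : L ≤ L') (h : IsDenseRep L Z) : IsDenseRep L' Z := by
  intro F hF X hX
  refine h F (fun Y hY hint => hF Y hY fun p i j => ?_) X hX
  obtain ⟨a, ha⟩ := hint p i j
  have h1 : InO L ((Y p).1 i j) := ⟨a, ha⟩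
  exact h1.mono hL

theorem IsDenseRep.isDense {R : Set (FreeGroup ι)} {Z : Set (ι → SpecialLinearGroup (Fin r) ℂ)}
    {L : IntermediateField ℚ ℂ} (h : IsDenseRep L Z) : IsDense R L Z := by
  intro F _ hF X hX
  exact h F (fun Y hY hint => hF Y hY hint.isIntegralPoint) X hX

theorem IsDense.isDenseAll {R : Set (FreeGroup ι)} {Z : Set (ι → SpecialLinearGroup (Fin r) ℂ)}
    {L : IntermediateField ℚ ℂ} (hL : FiniteDimensional ℚ L) (h : IsDense R L Z) :
    IsDenseAll R Z := by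
  intro F hFi hF X hX
  exact h F hFi (fun Y hY hint => hF Y hY ⟨L, hL, hint⟩) X hX

/-- one field for all components -/
theorem one_field_union [Finite ι] {R : Set (FreeGroup ι)}
    {Y : Set (ι → SpecialLinearGroup (Fin r) ℂ)}
    (h : ∀ Z, IsComponentM R Z Y → ∃ L : IntermediateField ℚ ℂ, FiniteDimensional ℚ L ∧
      IsDenseRep L Z) :
    ∃ L : IntermediateField ℚ ℂ, FiniteDimensional ℚ L ∧ IsDenseRep L Y := by
  obtain ⟨n, Z, h1, h2, -, -⟩ := components_M R Y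
  choose L hL hd using fun i => h (Z i) (h1 i)
  obtain ⟨L', hL', hd'⟩ := exists_sup (Set.univ : Set (Fin n)) Set.finite_univ
    (fun i L' => L i ≤ L') (fun i L₁ L₂ h12 h3 => h3.trans h12)
    (fun i _ => ⟨L i, hL i, le_rfl⟩)
  refine ⟨L', hL', fun F hF X hX => ?_⟩
  rw [← h2] at hX
  obtain ⟨i, hi⟩ := Set.mem_iUnion.1 hX
  exact IsDenseRep.mono (hd' i trivial) (hd i) F
    (fun X' hX' hint => hF X' ((h1 i).1 hX') hint) X hi

end

end Vale.Agent.P002.R2.H426
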