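import Vale.Agent.P002.R2.H426.Fam
import Vale.Agent.P002.R2.H426.Two
import Vale.Agent.P002.R2.H955.FieldInv

/-!
# Density of the integral points of a family dominating a component in `M_r`
-/

namespace Vale.Agent.P002.R2.H426

open Matrix Module NumberField Vale.Agent.P002R.Orb Vale.Agent.P002.H326J Vale.Agent.P002.H2
  Vale.Agent.P002.H955 Vale.Agent.P002.R2

section

variable {ι : Type} {r m n : ℕ}

/-- algebraic points of a component with given traces, outside of a proper closed subset -/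
theorem exists_mem' [Finite ι] {s : ℕ} {R : Set (FreeGroup ι)} {w : Fin s → FreeGroup ι}
    {C : Fin s → SpecialLinearGroup (Fin r) ℂ} (hC : ∀ k i j, (C k).1 i j ∈ algebraicClosure ℚ ℂ)
    {Z : Set (ι → SpecialLinearGroup (Fin r) ℂ)} (hZ : IsComponentM R Z (YW R w C))
    (u : Fin m → FreeGroup ι) (g : MvPolynomial (ι × Fin r × Fin r) Kb) (hg : g ∉ idK Z) :
    ∃ b : MvPolynomial (Wd m ι) Kb, (∃ X ∈ Z, MvPolynomial.aeval (trv u X) b ≠ 0) ∧
      ∀ z : Wd m ι → Kb, (∀ P : MvPolynomial (Wd m ι) Kb,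
        (∀ X ∈ Z, MvPolynomial.aeval (trv u X) P = 0) → MvPolynomial.aeval (emb z) P = 0) →
        MvPolynomial.aeval (emb z) b ≠ 0 →
          ∃ X ∈ Z, (∀ p i j, (X p).1 i j ∈ algebraicClosure ℚ ℂ) ∧ value g X ≠ 0 ∧
            ∀ x, trv u X x = (z x : ℂ) := by
  have hpr := idK_prime hZ.isComponent.2.1
  obtain ⟨X, hX, hgen⟩ := component_generic R w C hZ.isComponent
  obtain ⟨f₀, hf₀, hfZ₀⟩ := comp_open R w C hC hZ.isComponent
  obtain ⟨f, hf⟩ : ∃ f, f = f₀ * g := ⟨_, rfl⟩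
  have hfX : value f X ≠ 0 := fun h => by
    have h1 := hgen f h
    rw [hf] at h1
    exact (hpr.mem_or_mem h1).elim hf₀ hg
  choose tp htp using fun x : Wd m ι => exists_invK (r := r) u (MvPolynomial.X x)
  have htp' : ∀ x (Q : ι → SpecialLinearGroup (Fin r) ℂ),
      MvPolynomial.aeval (H252.coords Q) (tp x) = trv u Q x := by
    intro x Q
    rw [← value_aeval, htp, MvPolynomial.aeval_X]
  have hren : ∀ (y : (ι × Fin r × Fin r) ⊕ Unit → ℂ) (P : MvPolynomial (ι × Fin r × Fin r) Kb),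
      MvPolynomial.aeval y (MvPolynomial.rename Sum.inl P) =
        MvPolynomial.aeval (fun q => y (Sum.inl q)) P := by
    intro y P
    rw [MvPolynomial.aeval_rename]
    rfl
  obtain ⟨b, hb, hlift⟩ := lift_spec (Sum.elim (H252.coords X) fun _ : Unit => (value f X)⁻¹)
    (fun x : Wd m ι => MvPolynomial.rename Sum.inl (tp x))
  have hYX : (fun x : Wd m ι => MvPolynomial.aeval
      (Sum.elim (H252.coords X) fun _ : Unit => (value f X)⁻¹)
        (MvPolynomial.rename Sum.inl (tp x))) = trv u X := by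
    funext x
    rw [hren]
    exact htp' x X
  rw [hYX] at hb hlift
  refine ⟨b, ⟨X, hX, hb⟩, fun z hz hzb => ?_⟩
  obtain ⟨y, hy, hyz⟩ := hlift z (fun P hP => hz P fun X' hX' => by
    obtain ⟨F, hF⟩ := exists_invK (r := r) u P
    have h1 : F ∈ idK Z := hgen F (by rw [hF]; exact hP)
    rw [← hF]
    exact h1 X' hX') hzb
  have hdet : ∀ p, (Matrix.of fun i j => (y (Sum.inl (p, i, j)) : ℂ)).det = 1 := by
    intro p
    have h2 : ∀ x : ι × Fin r × Fin r → ℂ, (Matrix.of fun i j => (MvPolynomial.X (p, i, j) :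
        MvPolynomial (ι × Fin r × Fin r) Kb)).map (MvPolynomial.aeval x) =
          Matrix.of fun i j => x (p, i, j) := by
      intro x
      ext i j
      rw [Matrix.map_apply, Matrix.of_apply, MvPolynomial.aeval_X]
      rfl
    have h1 := hy (MvPolynomial.rename Sum.inl ((Matrix.of fun i j => (MvPolynomial.X (p, i, j) :
      MvPolynomial (ι × Fin r × Fin r) Kb)).det - 1)) (by
        rw [hren, map_sub, map_one, aeval_det, h2, sub_eq_zero]
        exact (X p).2)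
    rw [hren, map_sub, map_one, aeval_det, h2, sub_eq_zero] at h1
    exact h1
  obtain ⟨Q, hQ⟩ : ∃ Q : ι → SpecialLinearGroup (Fin r) ℂ,
      H252.coords Q = fun q => emb y (Sum.inl q) := ⟨fun p => ⟨_, hdet p⟩, rfl⟩
  have hfQ : value f Q ≠ 0 := by
    have h1 := hy (MvPolynomial.X (Sum.inr ()) * MvPolynomial.rename Sum.inl f - 1) (by
      rw [map_sub, map_mul, MvPolynomial.aeval_X, hren, map_one, sub_eq_zero]
      exact inv_mul_cancel₀ hfX)
    rw [map_sub, map_mul, MvPolynomial.aeval_X, hren, map_one, sub_eq_zero] at h1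
    rw [value_aeval, hQ]
    exact right_ne_zero_of_mul (h1.symm ▸ one_ne_zero)
  rw [hf, value_evK, map_mul, ← value_evK, ← value_evK] at hfQ
  refine ⟨Q, hfZ₀ Q (fun F hF => ?_) (left_ne_zero_of_mul hfQ), fun p i j => ?_,
    right_ne_zero_of_mul hfQ, fun x => ?_⟩
  · rw [value_aeval, hQ, ← hren]
    refine hy _ ?_
    rw [hren]
    exact hF X hX
  · have h1 := congrFun hQ (p, i, j)
    have h2 : (Q p).1 i j = y (Sum.inl (p, i, j)) := h1
    rw [h2]
    exact (y _).2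
  · have h1 := hyz x
    rw [hren, ← hQ, htp'] at h1
    exact h1

/-- equality of the parts -/
theorem parts_eq {J : Type} (b : Basis J Kb ℂ) (S : Finset J)
    (G : J → MvPolynomial (ι × Fin r × Fin r) Kb) (X X' : ι → SpecialLinearGroup (Fin r) ℂ)
    (hX : ∀ p i j, (X p).1 i j ∈ algebraicClosure ℚ ℂ)
    (hX' : ∀ p i j, (X' p).1 i j ∈ algebraicClosure ℚ ℂ)
    (h0 : ∑ k ∈ S, b k * value (G k) X = ∑ k ∈ S, b k * value (G k) X') :
    ∀ k ∈ S, value (G k) X = value (G k) X' := by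
  have h1 : ∀ (X : ι → SpecialLinearGroup (Fin r) ℂ),
      (∀ p i j, (X p).1 i j ∈ algebraicClosure ℚ ℂ) →
      ∀ F : MvPolynomial (ι × Fin r × Fin r) Kb, value F X ∈ algebraicClosure ℚ ℂ := by
    intro X hX F
    have h2 : H252.coords X = emb fun q => ⟨_, hX q.1 q.2.1 q.2.2⟩ := rfl
    rw [value_aeval, h2, aeval_emb]
    exact SetLike.coe_mem _
  have h2 := (linearIndependent_iff'.1 b.linearIndependent) S
    (fun k => ⟨value (G k) X - value (G k) X', sub_mem (h1 X hX _) (h1 X' hX' _)⟩) (by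
    rw [← sub_eq_zero, ← Finset.sum_sub_distrib] at h0
    rw [← h0]
    refine Finset.sum_congr rfl fun k _ => ?_
    rw [Algebra.smul_def, ← mul_sub, mul_comm]
    rfl)
  intro k hk
  have h3 := congrArg (fun a : Kb => (a : ℂ)) (h2 k hk)
  exact sub_eq_zero.1 h3

/-- the traces at a point determine the traces of all words -/
theorem traces_eq {Z : Set (ι → SpecialLinearGroup (Fin r) ℂ)} (u : Fin m → FreeGroup ι)
    (hspan : ∀ X ∈ Z, (Gm (trv u X)).det ≠ 0 → ∀ x : FreeGroup ι, (FreeGroup.lift X x).1 ∈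
      Submodule.span ℂ (Set.range fun i => (FreeGroup.lift X (u i)).1))
    {X Y : ι → SpecialLinearGroup (Fin r) ℂ} (hX : X ∈ Z) (hY : Y ∈ Z)
    (hXd : (Gm (trv u X)).det ≠ 0) (h : trv u X = trv u Y) (x : FreeGroup ι) :
    (FreeGroup.lift X x).1.trace = (FreeGroup.lift Y x).1.trace := by
  classical
  obtain ⟨l, rfl⟩ : ∃ l, FreeGroup.mk l = x := ⟨x.toWord, FreeGroup.mk_toWord⟩
  have hYd : (Gm (trv u Y)).det ≠ 0 := h ▸ hXd
  have h1 := trace_eq_Ph u X (hspan X hX hXd) l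
  have h2 := trace_eq_Ph u Y (hspan Y hY hYd) l
  rw [h, ← h2] at h1
  exact mul_right_cancel₀ (pow_ne_zero _ hYd) h1

theorem Ph_mem (O : Subring ℂ) (τ : Wd m ι → ℂ) (hτ : ∀ x, τ x ∈ O) (l : List (ι × Bool)) :
    Ph τ l ∈ O := by
  have h1 := map_Ph O.subtype (fun x => (⟨τ x, hτ x⟩ : O)) l
  have h2 : (fun x => O.subtype (⟨τ x, hτ x⟩ : O)) = τ := rfl
  rw [h2] at h1
  rw [h1]
  exact SetLike.coe_mem _

theorem Gm_mem (O : Subring ℂ) (τ : Wd m ι → ℂ) (hτ : ∀ x, τ x ∈ O) : (Gm τ).det ∈ O := by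
  have h1 := map_det_Gm O.subtype (fun x => (⟨τ x, hτ x⟩ : O))
  have h2 : (fun x => O.subtype (⟨τ x, hτ x⟩ : O)) = τ := rfl
  rw [h2] at h1
  rw [h1]
  exact SetLike.coe_mem _

/-- the integral members of a family dominating `Z` are dense in `Z` -/
theorem dense_fam [Finite ι] {s : ℕ} {R : Set (FreeGroup ι)}
    {w : Fin s → FreeGroup ι} {C : Fin s → SpecialLinearGroup (Fin r) ℂ}
    (hC : ∀ k i j, (C k).1 i j ∈ algebraicClosure ℚ ℂ)
    {Z : Set (ι → SpecialLinearGroup (Fin r) ℂ)} (hZ : IsComponentM R Z (YW R w C))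
    (u : Fin m → FreeGroup ι) (hu : ∃ X ∈ Z, (Gm (trv u X)).det ≠ 0)
    (hspan : ∀ X ∈ Z, (Gm (trv u X)).det ≠ 0 → ∀ x : FreeGroup ι, (FreeGroup.lift X x).1 ∈
      Submodule.span ℂ (Set.range fun i => (FreeGroup.lift X (u i)).1))
    (A : Wd m ι → MvPolynomial (Fin n ⊕ Fin n) Kb) (hA : IsFam Z u A)
    (x₀ : Fin n → ℂˣ) (hx₀ : ∀ i, (x₀ i : ℂ) ∈ algebraicClosure ℚ ℂ) (M : ℕ) (hM : 0 < M)
    (hint : ∀ y : Fin n → ℂˣ, (∀ i, IsIntegral ℤ (y i : ℂ) ∧ IsIntegral ℤ (((y i)⁻¹ : ℂˣ) : ℂ) ∧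
      IsIntegral ℤ (((y i : ℂ) - 1) / M)) → ∀ X ∈ Z, (Gm (trv u X)).det ≠ 0 →
        (∀ v, trv u X v = MvPolynomial.aeval (tt fun i => y i * x₀ i) (A v)) →
          ∀ g, IsIntegral ℤ (FreeGroup.lift X g).1.trace) :
    ∃ L : IntermediateField ℚ ℂ, FiniteDimensional ℚ L ∧ IsDense R L Z := by
  classical
  have := Fintype.ofFinite ι
  have hpr := idK_prime hZ.isComponent.2.1
  have hdense := alg_points R w C hC hZ.isComponent
  have hss : ∀ X ∈ Z, ∀ W, IsInv X W → ∃ W', IsInv X W' ∧ IsCompl W W' :=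
    fun X hX => (hZ.1 hX).1.2
  obtain ⟨b₁, ⟨Xb, hXb, hXbv⟩, hmem⟩ := hA.mem
  obtain ⟨a, ⟨Xa, hXa, hXav⟩, hcov⟩ := hA.cov
  -- the field
  obtain ⟨v₀, hv1, hv2, hv3⟩ := exists_unit
  have hualg : ∀ x : ℂ, IsIntegral ℤ x → x ∈ algebraicClosure ℚ ℂ := by
    intro x hx
    rw [mem_algebraicClosure_iff]
    exact (hx.tower_top (A := ℚ)).isAlgebraic
  obtain ⟨L, hL, hLS⟩ := exists_field
    (((⋃ x : Wd m ι, (fun e => (((A x).coeff e : Kb) : ℂ)) ''
      ((A x).support : Set (Fin n ⊕ Fin n →₀ ℕ))) ∪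
      Set.range fun i => (x₀ i : ℂ)) ∪ {(v₀ : ℂ)})
    (((Set.finite_iUnion fun q => (Finset.finite_toSet _).image _).union
      (Set.finite_range _)).union (Set.finite_singleton _)) (by
    rintro x ((hx | ⟨i, rfl⟩) | hx)
    · obtain ⟨q, e, -, rfl⟩ := Set.mem_iUnion.1 hx
      exact SetLike.coe_mem _
    · exact hx₀ i
    · rw [Set.mem_singleton_iff.1 hx]
      exact hualg _ hv1)
  have hAL : ∀ x e, (((A x).coeff e : Kb) : ℂ) ∈ L := by
    intro x e
    by_cases he : e ∈ (A x).support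
    · exact hLS _ (Or.inl (Or.inl (Set.mem_iUnion.2 ⟨x, e, he, rfl⟩)))
    · rw [MvPolynomial.notMem_support_iff.1 he]
      exact zero_mem _
  have hxL : ∀ i, (x₀ i : ℂ) ∈ L := fun i => hLS _ (Or.inl (Or.inr ⟨i, rfl⟩))
  have hvL : (v₀ : ℂ) ∈ L := hLS _ (Or.inr rfl)
  have hvO : InO L (v₀ : ℂ) := InO.of_mem hvL hv1
  have hvO' : InO L ((v₀⁻¹ : ℂˣ) : ℂ) := InO.of_mem (by
    rw [Units.val_inv_eq_inv_val]
    exact inv_mem hvL) hv2
  obtain ⟨U, hU⟩ : ∃ U : Set ℂˣ, U = {x : ℂˣ | Cong L M (x : ℂ) ∧ InO L ((x⁻¹ : ℂˣ) : ℂ)} :=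
    ⟨_, rfl⟩
  have hUinf : U.Infinite := hU ▸ infinite_cong hvO hvO' hv3 M hM
  have hint' : ∀ z : ℂ, InO L z → IsIntegral ℤ z := by
    rintro _ ⟨a, rfl⟩
    exact a.2.map (L.val.restrictScalars ℤ)
  have hUp : ∀ x ∈ U, (x : ℂ) ∈ L ∧ IsIntegral ℤ (x : ℂ) ∧ IsIntegral ℤ ((x⁻¹ : ℂˣ) : ℂ) ∧
      IsIntegral ℤ (((x : ℂ) - 1) / M) := by
    intro x hx
    rw [hU] at hx
    refine ⟨?_, hint' _ hx.1.inO, hint' _ hx.2, ?_⟩
    · obtain ⟨a, ha⟩ := hx.1.inO
      rw [ha]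
      exact SetLike.coe_mem _
    · obtain ⟨z, hz, h1⟩ := hx.1
      rw [h1, mul_div_cancel_left₀ _ (Nat.cast_ne_zero.2 hM.ne')]
      exact hint' _ hz
  refine ⟨L, hL, fun F hF hF0 => ?_⟩
  obtain ⟨J, bs⟩ : ∃ J : Type, Nonempty (Basis J Kb ℂ) :=
    ⟨_, ⟨Module.Basis.ofVectorSpace Kb ℂ⟩⟩
  obtain ⟨bs⟩ := bs
  obtain ⟨S, G, hG⟩ := decomp bs F
  suffices hGk : ∀ k ∈ S, G k ∈ idK Z by
    intro X hX
    rw [hG]
    exact Finset.sum_eq_zero fun k hk => by rw [hGk k hk X hX, mul_zero]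
  intro k hk
  by_contra hGkZ
  obtain ⟨Dd, hDd⟩ := exists_invK (r := r) u (Dp m ι Kb)
  have hDdZ : Dd ∉ idK Z := by
    obtain ⟨X, hX, hXd⟩ := hu
    intro h
    apply hXd
    rw [← aeval_Dp, ← hDd]
    exact h X hX
  obtain ⟨b₂, ⟨Xc, hXc, hXcv⟩, hmem'⟩ := exists_mem' hC hZ u (G k) hGkZ
  -- vanishing at the integral members
  obtain ⟨p, hp⟩ : ∃ p : MvPolynomial (Fin n ⊕ Fin n) ℂ, ∀ t : Fin n → ℂˣ,
      MvPolynomial.eval (tt t) p =
        MvPolynomial.aeval (fun x => MvPolynomial.aeval (tt t) (A x)) (b₂ * (b₁ * Dp m ι Kb)) := by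
    refine ⟨MvPolynomial.map (algebraMap Kb ℂ) (MvPolynomial.aeval A (b₂ * (b₁ * Dp m ι Kb))),
      fun t => ?_⟩
    rw [← aeval_bind, MvPolynomial.eval_map]
    rfl
  have hvan : ∀ y : Fin n → ℂˣ, (∀ i, y i ∈ U) →
      MvPolynomial.eval (tt fun i => y i * x₀ i) p = 0 := by
    intro y hy
    rw [hp, map_mul, map_mul]
    by_cases h1 : MvPolynomial.aeval
        (fun x => MvPolynomial.aeval (tt fun i => y i * x₀ i) (A x)) b₁ = 0
    · rw [h1, zero_mul, mul_zero]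
    by_cases h2 : MvPolynomial.aeval
        (fun x => MvPolynomial.aeval (tt fun i => y i * x₀ i) (A x)) (Dp m ι Kb) = 0
    · rw [h2, mul_zero, mul_zero]
    obtain ⟨X, hX, hXalg, hXt⟩ := hmem (fun i => y i * x₀ i) (fun i => by
      change (y i : ℂ) * (x₀ i : ℂ) ∈ _
      exact mul_mem (hualg _ (hUp _ (hy i)).2.1) (hx₀ i)) h1
    have hXt' : (fun x => MvPolynomial.aeval (tt fun i => y i * x₀ i) (A x)) = trv u X :=
      funext fun x => (hXt x).symm
    rw [hXt'] at h2 ⊢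
    rw [aeval_Dp] at h2
    have h3 := hint y (fun i => (hUp _ (hy i)).2) X hX h2 hXt
    -- the traces are in `L`
    have htL : ∀ x, trv u X x ∈ L := by
      intro x
      rw [hXt, MvPolynomial.aeval_def, MvPolynomial.eval₂_eq']
      refine sum_mem fun e _ => mul_mem (hAL x e) (prod_mem fun q _ => pow_mem ?_ _)
      have h4 : ∀ i, (y i : ℂ) * (x₀ i : ℂ) ∈ L := fun i => mul_mem (hUp _ (hy i)).1 (hxL i)
      rcases q with i | i
      · exact h4 i
      · change (((y i * x₀ i)⁻¹ : ℂˣ) : ℂ) ∈ L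
        rw [Units.val_inv_eq_inv_val]
        exact inv_mem (h4 i)
    have htr : ∀ g, (FreeGroup.lift X g).1.trace ∈ L := by
      intro g
      obtain ⟨l, rfl⟩ : ∃ l, FreeGroup.mk l = g := ⟨g.toWord, FreeGroup.mk_toWord⟩
      have h4 := trace_eq_Ph u X (hspan X hX h2) l
      have h5 : (FreeGroup.lift X (FreeGroup.mk l)).1.trace =
          Ph (trv u X) l * ((Gm (trv u X)).det ^ (l.length + 1))⁻¹ := by
        rw [← h4, mul_assoc, mul_inv_cancel₀ (pow_ne_zero _ h2), mul_one]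
      rw [h5]
      exact mul_mem (Ph_mem L.toSubring _ htL l)
        (inv_mem (pow_mem (Gm_mem L.toSubring _ htL) _))
    have h4 := P002.R2.H955.integralPoint_of_trace_mem R L X (hZ.1 hX).1 fun g => ⟨h3 g, htr g⟩
    have h5 := hF0 X hX h4
    rw [hG] at h5
    have h6 := parts_zero bs S G X hXalg h5 k hk
    by_contra hne
    obtain ⟨z, hz⟩ : ∃ z : Wd m ι → Kb, emb z = trv u X := by
      have h7 : ∀ x, trv u X x ∈ algebraicClosure ℚ ℂ := by
        intro x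
        obtain ⟨F, hF⟩ := exists_invK (r := r) u (MvPolynomial.X x)
        have h2 : H252.coords X = emb fun q => ⟨_, hXalg q.1 q.2.1 q.2.2⟩ := rfl
        have h3 := hF X
        rw [MvPolynomial.aeval_X, value_aeval, h2, aeval_emb] at h3
        rw [← h3]
        exact SetLike.coe_mem _
      exact ⟨fun x => ⟨_, h7 x⟩, rfl⟩
    obtain ⟨X', hX', hX'alg, hX'G, hX't⟩ := hmem' z (fun P hP => by
      rw [hz]
      exact hP X hX) (by
      rw [hz]
      exact left_ne_zero_of_mul hne)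
    have h8 : trv u X = trv u X' := by
      funext x
      rw [hX't, ← hz]
      rfl
    obtain ⟨g, hg⟩ := P002.R2.H955.conj_of_traces (hss X hX) (hss X' hX')
      (traces_eq u hspan hX hX' h2 h8)
    have h9 : value F X' = value F X := by
      rw [hg]
      exact IsInvariant.value_conj hF (hZ.1 hX).1.1 g
    rw [hG, hG] at h9
    have h10 := parts_eq bs S G X' X hX'alg hXalg h9 k hk
    exact hX'G (h10.trans h6)
  have hvan' : ∀ t : Fin n → ℂˣ, MvPolynomial.eval (tt t) p = 0 := by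
    intro t
    have h1 := H306.multi_Lau (fun y : Fin n → ℂˣ => MvPolynomial.eval
      (tt fun j => y j * x₀ j) p) (fun y i => lev_Lau p x₀ y i) U hUinf hvan
      (fun i => t i * (x₀ i)⁻¹)
    have h2 : (fun j => t j * (x₀ j)⁻¹ * x₀ j) = t := by
      funext i
      rw [inv_mul_cancel_right]
    change MvPolynomial.eval (tt fun j => t j * (x₀ j)⁻¹ * x₀ j) p = 0 at h1
    rwa [h2] at h1
  -- conclusion
  obtain ⟨E, hE⟩ := exists_invK (r := r) u b₁
  obtain ⟨E', hE'⟩ := exists_invK (r := r) u a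
  have hEZ : E ∉ idK Z := by
    intro h
    apply hXbv
    rw [← hE]
    exact h Xb hXb
  have hEZ' : E' ∉ idK Z := by
    intro h
    apply hXav
    rw [← hE']
    exact h Xa hXa
  obtain ⟨E₂, hE₂⟩ := exists_invK (r := r) u b₂
  have hEZ₂ : E₂ ∉ idK Z := by
    intro h
    apply hXcv
    rw [← hE₂]
    exact h Xc hXc
  have hall : E₂ * (E * Dd) * E' ∈ idK Z := by
    by_contra hne
    obtain ⟨Q, hQ, hQa, hQv⟩ := hdense _ hne
    rw [value_evK, map_mul, map_mul, map_mul, ← value_evK, ← value_evK, ← value_evK,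
      ← value_evK, hE₂, hE, hE', hDd] at hQv
    obtain ⟨t, -, ht⟩ := hcov Q hQa (fun F hF => hF Q hQ) (right_ne_zero_of_mul hQv)
    have h1 := hp t
    have h2 : (fun x => MvPolynomial.aeval (tt t) (A x)) = trv u Q := funext fun x => (ht x).symm
    rw [hvan', h2, map_mul, map_mul] at h1
    exact (left_ne_zero_of_mul hQv) h1.symm
  rcases hpr.mem_or_mem hall with h | h
  · rcases hpr.mem_or_mem h with h | h
    · exact hEZ₂ h
    · exact (hpr.mem_or_mem h).elim hEZ hDdZ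
  · exact hEZ' h

end

end Vale.Agent.P002.R2.H426
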