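import Vale.Agent.P002.R2.H426.Des
import Vale.Agent.P002.R2.H426.DefsM

/-!
# Families dominating a component in `M_r`: descent to the algebraic numbers
-/

namespace Vale.Agent.P002.R2.H426

open Matrix Module Vale.Agent.P002R.Orb Vale.Agent.P002.H326J Vale.Agent.P002.H2
  Vale.Agent.P002.H955 Vale.Agent.P002.R2

section

variable {ι : Type} {r m n : ℕ}

/-- a family over a torus of vectors of traces, dominating `Z` -/
structure IsFam (Z : Set (ι → SpecialLinearGroup (Fin r) ℂ)) (u : Fin m → FreeGroup ι)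
    (A : Wd m ι → MvPolynomial (Fin n ⊕ Fin n) Kb) : Prop where
  T : ∀ l : List (ι × Bool), ∃ p : MvPolynomial (Fin n ⊕ Fin n) Kb, ∀ t : Fin n → ℂˣ,
    MvPolynomial.aeval (tt t) p *
      (Gm fun x => MvPolynomial.aeval (tt t) (A x)).det ^ (l.length + 1) =
        Ph (fun x => MvPolynomial.aeval (tt t) (A x)) l
  mem : ∃ h : MvPolynomial (Wd m ι) Kb, (∃ X ∈ Z, MvPolynomial.aeval (trv u X) h ≠ 0) ∧
    ∀ t : Fin n → ℂˣ, (∀ i, (t i : ℂ) ∈ algebraicClosure ℚ ℂ) →
      MvPolynomial.aeval (fun x => MvPolynomial.aeval (tt t) (A x)) h ≠ 0 →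
        ∃ X ∈ Z, (∀ p i j, (X p).1 i j ∈ algebraicClosure ℚ ℂ) ∧
          ∀ x, trv u X x = MvPolynomial.aeval (tt t) (A x)
  cov : ∃ a : MvPolynomial (Wd m ι) Kb, (∃ X ∈ Z, MvPolynomial.aeval (trv u X) a ≠ 0) ∧
    ∀ Q : ι → SpecialLinearGroup (Fin r) ℂ, (∀ p i j, (Q p).1 i j ∈ algebraicClosure ℚ ℂ) →
      (∀ F ∈ idK Z, value F Q = 0) → MvPolynomial.aeval (trv u Q) a ≠ 0 →
        ∃ t : Fin n → ℂˣ, (∀ i, (t i : ℂ) ∈ algebraicClosure ℚ ℂ) ∧
          ∀ x, trv u Q x = MvPolynomial.aeval (tt t) (A x)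

/-- the product of the coordinates -/
noncomputable def dl (n : ℕ) : MvPolynomial (Fin n) Kb := ∏ i, MvPolynomial.X i

/-- the coordinates -/
noncomputable def tc (t : Fin n → ℂˣ) : Fin n → ℂ := fun i => (t i : ℂ)

theorem aeval_dl (t : Fin n → ℂˣ) : MvPolynomial.aeval (tc t) (dl n) = ∏ i, (t i : ℂ) := by
  unfold dl
  rw [map_prod]
  refine Finset.prod_congr rfl fun i _ => ?_
  rw [MvPolynomial.aeval_X]
  rfl

theorem dl_ne : dl n ≠ 0 := Finset.prod_ne_zero_iff.2 fun i _ => MvPolynomial.X_ne_zero i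

theorem dl_ne' (t : Fin n → ℂˣ) : MvPolynomial.aeval (tc t) (dl n) ≠ 0 := by
  rw [aeval_dl]
  exact Finset.prod_ne_zero_iff.2 fun i _ => (t i).ne_zero

/-- the traces as polynomials on the parameter space -/
theorem exists_Yt (T : Finset (Fin n ⊕ Fin n →₀ ℕ)) :
    ∃ Y : Wd m ι → MvPolynomial ((Fin n ⊕ ((Wd m ι × T) ⊕ Unit)) ⊕ Unit) Kb,
      ∀ (t : Fin n → ℂˣ) (c : (Wd m ι × T) ⊕ Unit → ℂ) x,
        MvPolynomial.aeval (pnt (dl n) (tc t) c) (Y x) = Af c t x := by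
  classical
  obtain ⟨τ, hτ⟩ : ∃ τ : Fin n ⊕ Fin n →
      MvPolynomial ((Fin n ⊕ ((Wd m ι × T) ⊕ Unit)) ⊕ Unit) Kb, ∀ (t : Fin n → ℂˣ)
        (c : (Wd m ι × T) ⊕ Unit → ℂ) k,
          MvPolynomial.aeval (pnt (dl n) (tc t) c) (τ k) = tt t k := by
    refine ⟨Sum.elim (fun i => MvPolynomial.X (Sum.inl (Sum.inl i))) fun i =>
      MvPolynomial.X (Sum.inr ()) * ∏ j ∈ Finset.univ.erase i,
        MvPolynomial.X (Sum.inl (Sum.inl j)), fun t c k => ?_⟩
    rcases k with i | i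
    · rw [Sum.elim_inl, MvPolynomial.aeval_X]
      rfl
    · rw [Sum.elim_inr, map_mul, map_prod, MvPolynomial.aeval_X]
      change (MvPolynomial.aeval (tc t) (dl n))⁻¹ * _ = ((t i)⁻¹ : ℂˣ)
      have h1 : ∏ j ∈ Finset.univ.erase i, MvPolynomial.aeval (pnt (dl n) (tc t) c)
          (MvPolynomial.X (Sum.inl (Sum.inl j)) : MvPolynomial _ Kb) =
          ∏ j ∈ Finset.univ.erase i, (t j : ℂ) := by
        refine Finset.prod_congr rfl fun j _ => ?_
        rw [MvPolynomial.aeval_X]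
        rfl
      rw [h1, aeval_dl, ← Finset.mul_prod_erase _ _ (Finset.mem_univ i),
        Units.val_inv_eq_inv_val]
      have h2 : ∏ j ∈ Finset.univ.erase i, (t j : ℂ) ≠ 0 :=
        Finset.prod_ne_zero_iff.2 fun i _ => (t i).ne_zero
      have h3 := (t i).ne_zero
      field_simp
  refine ⟨fun x => ∑ q : T, MvPolynomial.X (Sum.inl (Sum.inr (Sum.inl (x, q)))) *
    ∏ k, τ k ^ q.1 k, fun t c x => ?_⟩
  rw [map_sum]
  refine Finset.sum_congr rfl fun q _ => ?_
  rw [map_mul, map_prod, MvPolynomial.aeval_X]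
  congr 1
  refine Finset.prod_congr rfl fun k _ => ?_
  rw [map_pow, hτ t c]

/-- the Gram determinant -/
noncomputable def Dp (m : ℕ) (ι : Type) (S : Type) [CommRing S] : MvPolynomial (Wd m ι) S :=
  (Gm MvPolynomial.X).det

theorem eval_Dp (τ : Wd m ι → ℂ) : MvPolynomial.eval τ (Dp m ι ℂ) = (Gm τ).det := by
  have h1 := map_det_Gm (MvPolynomial.eval τ) (MvPolynomial.X : Wd m ι → MvPolynomial _ ℂ)
  rw [Dp, ← h1]
  congr 2
  funext x
  exact MvPolynomial.eval_X x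

theorem aeval_Dp (τ : Wd m ι → ℂ) : MvPolynomial.aeval τ (Dp m ι Kb) = (Gm τ).det := by
  have h1 := map_det_Gm ((MvPolynomial.aeval τ : MvPolynomial (Wd m ι) Kb →ₐ[Kb] ℂ) :
    MvPolynomial (Wd m ι) Kb →+* ℂ) (MvPolynomial.X : Wd m ι → MvPolynomial _ Kb)
  have h2 : (fun x => ((MvPolynomial.aeval τ : MvPolynomial (Wd m ι) Kb →ₐ[Kb] ℂ) :
      MvPolynomial (Wd m ι) Kb →+* ℂ) (MvPolynomial.X x)) = τ := by
    funext x
    exact MvPolynomial.aeval_X _ x
  rw [h2] at h1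
  exact h1.symm

theorem emb_elim {κ σ : Type} (c : κ → Kb) (q : σ → Kb) :
    emb (Sum.elim c q) = Sum.elim (emb c) (emb q) := by
  funext k
  rcases k with k | k
  · rfl
  · rfl

/-- algebraic points of a component with given traces -/
theorem exists_mem [Finite ι] {s : ℕ} {R : Set (FreeGroup ι)} {w : Fin s → FreeGroup ι}
    {C : Fin s → SpecialLinearGroup (Fin r) ℂ} (hC : ∀ k i j, (C k).1 i j ∈ algebraicClosure ℚ ℂ)
    {Z : Set (ι → SpecialLinearGroup (Fin r) ℂ)} (hZ : IsComponentM R Z (YW R w C))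
    (u : Fin m → FreeGroup ι) :
    ∃ b : MvPolynomial (Wd m ι) Kb, (∃ X ∈ Z, MvPolynomial.aeval (trv u X) b ≠ 0) ∧
      ∀ z : Wd m ι → Kb, (∀ P : MvPolynomial (Wd m ι) Kb,
        (∀ X ∈ Z, MvPolynomial.aeval (trv u X) P = 0) → MvPolynomial.aeval (emb z) P = 0) →
        MvPolynomial.aeval (emb z) b ≠ 0 →
          ∃ X ∈ Z, (∀ p i j, (X p).1 i j ∈ algebraicClosure ℚ ℂ) ∧ ∀ x, trv u X x = (z x : ℂ) := by
  obtain ⟨X, hX, hgen⟩ := component_generic R w C hZ.isComponent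
  obtain ⟨f, hf, hfZ⟩ := comp_open R w C hC hZ.isComponent
  have hfX : value f X ≠ 0 := fun h => hf (hgen f h)
  choose tp htp using fun x : Wd m ι => exists_invK (r := r) u (MvPolynomial.X x)
  have htp' : ∀ x (Q : ι → SpecialLinearGroup (Fin r) ℂ),
      MvPolynomial.aeval (H252.coords Q) (tp x) = trv u Q x := by
    intro x Q
    rw [← value_aeval, htp, MvPolynomial.aeval_X]
  have hren : ∀ (y : (ι × Fin r × Fin r) ⊕ Unit → ℂ) (P : MvPolynomial (ι × Fin r × Fin r) Kb),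
      MvPolynomial.aeval y (MvPolynomial.rename Sum.inl P) =
        MvPolynomial.aeval (fun q => y (Sum.inl q)) P := by
    intro y P
    rw [MvPolynomial.aeval_rename]
    rfl
  obtain ⟨b, hb, hlift⟩ := lift_spec (Sum.elim (H252.coords X) fun _ : Unit => (value f X)⁻¹)
    (fun x : Wd m ι => MvPolynomial.rename Sum.inl (tp x))
  have hYX : (fun x : Wd m ι => MvPolynomial.aeval
      (Sum.elim (H252.coords X) fun _ : Unit => (value f X)⁻¹)
        (MvPolynomial.rename Sum.inl (tp x))) = trv u X := by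
    funext x
    rw [hren]
    exact htp' x X
  rw [hYX] at hb hlift
  refine ⟨b, ⟨X, hX, hb⟩, fun z hz hzb => ?_⟩
  obtain ⟨y, hy, hyz⟩ := hlift z (fun P hP => hz P fun X' hX' => by
    obtain ⟨F, hF⟩ := exists_invK (r := r) u P
    have h1 : F ∈ idK Z := hgen F (by rw [hF]; exact hP)
    rw [← hF]
    exact h1 X' hX') hzb
  have hdet : ∀ p, (Matrix.of fun i j => (y (Sum.inl (p, i, j)) : ℂ)).det = 1 := by
    intro p
    have h2 : ∀ x : ι × Fin r × Fin r → ℂ, (Matrix.of fun i j => (MvPolynomial.X (p, i, j) :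
        MvPolynomial (ι × Fin r × Fin r) Kb)).map (MvPolynomial.aeval x) =
          Matrix.of fun i j => x (p, i, j) := by
      intro x
      ext i j
      rw [Matrix.map_apply, Matrix.of_apply, MvPolynomial.aeval_X]
      rfl
    have h1 := hy (MvPolynomial.rename Sum.inl ((Matrix.of fun i j => (MvPolynomial.X (p, i, j) :
      MvPolynomial (ι × Fin r × Fin r) Kb)).det - 1)) (by
        rw [hren, map_sub, map_one, aeval_det, h2, sub_eq_zero]
        exact (X p).2)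
    rw [hren, map_sub, map_one, aeval_det, h2, sub_eq_zero] at h1
    exact h1
  obtain ⟨Q, hQ⟩ : ∃ Q : ι → SpecialLinearGroup (Fin r) ℂ,
      H252.coords Q = fun q => emb y (Sum.inl q) := ⟨fun p => ⟨_, hdet p⟩, rfl⟩
  refine ⟨Q, hfZ Q (fun F hF => ?_) ?_, fun p i j => ?_, fun x => ?_⟩
  · rw [value_aeval, hQ, ← hren]
    refine hy _ ?_
    rw [hren]
    exact hF X hX
  · have h1 := hy (MvPolynomial.X (Sum.inr ()) * MvPolynomial.rename Sum.inl f - 1) (by
      rw [map_sub, map_mul, MvPolynomial.aeval_X, hren, map_one, sub_eq_zero]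
      exact inv_mul_cancel₀ hfX)
    rw [map_sub, map_mul, MvPolynomial.aeval_X, hren, map_one, sub_eq_zero] at h1
    rw [value_aeval, hQ]
    exact right_ne_zero_of_mul (h1.symm ▸ one_ne_zero)
  · have h1 := congrFun hQ (p, i, j)
    have h2 : (Q p).1 i j = y (Sum.inl (p, i, j)) := h1
    rw [h2]
    exact (y _).2
  · have h1 := hyz x
    rw [hren, ← hQ, htp'] at h1
    exact h1

/-- **Descent of families dominating a component in `M_r`.** -/
theorem exists_fam [Finite ι] {s : ℕ} {R : Set (FreeGroup ι)} {w : Fin s → FreeGroup ι}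
    {C : Fin s → SpecialLinearGroup (Fin r) ℂ} (hC : ∀ k i j, (C k).1 i j ∈ algebraicClosure ℚ ℂ)
    {Z : Set (ι → SpecialLinearGroup (Fin r) ℂ)} (hZ : IsComponentM R Z (YW R w C))
    (hT : IsTorusDominatedM R Z) (u : Fin m → FreeGroup ι)
    (hu : ∃ X ∈ Z, (Gm (trv u X)).det ≠ 0)
    (hspan : ∀ X ∈ Z, (Gm (trv u X)).det ≠ 0 → ∀ x : FreeGroup ι, (FreeGroup.lift X x).1 ∈
      Submodule.span ℂ (Set.range fun i => (FreeGroup.lift X (u i)).1)) :
    ∃ (n : ℕ) (A : Wd m ι → MvPolynomial (Fin n ⊕ Fin n) Kb), IsFam Z u A := by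
  classical
  have := Fintype.ofFinite ι
  obtain ⟨n, X, hLau, ⟨h, h0, hXh⟩, hdom⟩ := hT
  choose Tc hTc using hLau
  have hTc' : ∀ x t, (FreeGroup.lift (X t) x).1.trace = MvPolynomial.eval (tt t) (Tc x) :=
    fun x t => hTc x t
  have hconj := hZ.conj (fun X hX => hX.1.1) fun X hX g => YW_conj R w C X hX g
  have hdense := alg_points R w C hC hZ.isComponent
  -- the coefficients
  obtain ⟨T, hT⟩ : ∃ T : Finset (Fin n ⊕ Fin n →₀ ℕ), ∀ x : Wd m ι,
      (Tc (wrd u x)).support ⊆ T :=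
    ⟨Finset.univ.biUnion fun x : Wd m ι => (Tc (wrd u x)).support, fun x =>
      Finset.subset_biUnion_of_mem
        (fun x : Wd m ι => (Tc (wrd u x)).support) (Finset.mem_univ x)⟩
  obtain ⟨c₀, hc₀⟩ : ∃ c₀ : Wd m ι × T → ℂ, ∀ x q, c₀ (x, q) = (Tc (wrd u x)).coeff q.1 :=
    ⟨fun k => (Tc (wrd u k.1)).coeff k.2.1, fun x q => rfl⟩
  have hAf : ∀ z t, Af (Sum.elim c₀ fun _ => z) t = trv u (X t) := by
    intro z t
    funext x
    rw [trv, hTc', MvPolynomial.eval_eq', Af]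
    have h1 : ∑ q : T, Sum.elim c₀ (fun _ => z) (Sum.inl (x, q) : (Wd m ι × T) ⊕ Unit) *
        ∏ k, tt t k ^ q.1 k =
        ∑ q ∈ T, (Tc (wrd u x)).coeff q * ∏ k, tt t k ^ q k := by
      rw [← Finset.sum_coe_sort T]
      exact Finset.sum_congr rfl fun q _ => by rw [Sum.elim_inl, hc₀]
    rw [h1]
    symm
    refine Finset.sum_subset (hT x) fun q _ hq => ?_
    rw [MvPolynomial.notMem_support_iff.1 hq, zero_mul]
  -- polynomials vanishing on `Z` vanish on the family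
  have hlev : ∀ (F : MvPolynomial (Wd m ι) ℂ), ∃ p : MvPolynomial (Fin n ⊕ Fin n) ℂ,
      ∀ t, MvPolynomial.eval (trv u (X t)) F = MvPolynomial.eval (tt t) p := by
    intro F
    refine ⟨MvPolynomial.bind₁ (fun x => Tc (wrd u x)) F, fun t => ?_⟩
    rw [← MvPolynomial.coe_aeval_eq_eval, ← MvPolynomial.coe_aeval_eq_eval]
    change MvPolynomial.aeval _ F = MvPolynomial.aeval _ (MvPolynomial.bind₁ _ F)
    rw [MvPolynomial.aeval_bind₁]
    congr 2
    funext x
    exact hTc' (wrd u x) t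
  have hren : ∀ t : Fin n → ℂˣ, MvPolynomial.eval (tt t) (MvPolynomial.rename Sum.inl h) =
      MvPolynomial.eval (fun i => (t i : ℂ)) h := by
    intro t
    rw [MvPolynomial.eval_rename]
    rfl
  have hgent : ∀ p : MvPolynomial (Fin n ⊕ Fin n) ℂ, (∀ t, X t ∈ Z →
      MvPolynomial.eval (tt t) p = 0) → ∀ t, MvPolynomial.eval (tt t) p = 0 := by
    intro p hp
    rcases lev_domain (MvPolynomial.rename Sum.inl h) p (fun t => by
      by_cases h1 : MvPolynomial.eval (fun i => (t i : ℂ)) h = 0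
      · left
        rw [hren, h1]
      · right
        exact hp t (hXh t h1)) with h1 | h1
    · exfalso
      apply h0
      apply torus_zero
      intro t
      rw [← hren]
      exact h1 t
    · exact h1
  have hcl : ∀ F : MvPolynomial (Wd m ι) ℂ, (∀ Y ∈ Z, MvPolynomial.eval (trv u Y) F = 0) →
      ∀ t, MvPolynomial.eval (trv u (X t)) F = 0 := by
    intro F hF t
    obtain ⟨p, hp⟩ := hlev F
    rw [hp]
    exact hgent p (fun t ht => by
      rw [← hp]
      exact hF _ ht) t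
  have hdm : ∀ F : MvPolynomial (Wd m ι) ℂ, (∀ t, MvPolynomial.eval (trv u (X t)) F = 0) →
      ∀ Y ∈ Z, MvPolynomial.eval (trv u Y) F = 0 := by
    intro F hF Y hY
    obtain ⟨G, hG, hG'⟩ := exists_inv (r := r) R u F
    rw [← hG']
    exact hdom G hG (fun t _ => by
      rw [hG']
      exact hF t) Y hY
  have hne : ∃ t : Fin n → ℂˣ, (Gm (trv u (X t))).det ≠ 0 := by
    by_contra hcon
    push Not at hcon
    obtain ⟨Y, hY, hYd⟩ := hu
    apply hYd
    rw [← eval_Dp]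
    refine hdm _ (fun t => ?_) Y hY
    rw [eval_Dp, hcon t]
  have hTl : ∀ l : List (ι × Bool), ∃ p : MvPolynomial (Fin n ⊕ Fin n) ℂ, ∀ t : Fin n → ℂˣ,
      MvPolynomial.eval (tt t) p * (Gm (trv u (X t))).det ^ (l.length + 1) =
        Ph (trv u (X t)) l := by
    intro l
    refine ⟨Tc (FreeGroup.mk l), fun t => ?_⟩
    obtain ⟨pd, hpd⟩ := hlev (Dp m ι ℂ)
    obtain ⟨pp, hpp⟩ := hlev (Ph MvPolynomial.X l)
    have hPe : ∀ τ : Wd m ι → ℂ, MvPolynomial.eval τ (Ph MvPolynomial.X l) = Ph τ l := by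
      intro τ
      have h1 := map_Ph (MvPolynomial.eval τ) (MvPolynomial.X : Wd m ι → MvPolynomial _ ℂ) l
      rw [← h1]
      congr 1
      funext x
      exact MvPolynomial.eval_X x
    rcases lev_domain pd (MvPolynomial.rename Sum.inl h *
      (Tc (FreeGroup.mk l) * pd ^ (l.length + 1) - pp)) (fun t => by
        by_cases h1 : MvPolynomial.eval (tt t) pd = 0
        · exact Or.inl h1
        right
        rw [map_mul]
        by_cases h2 : MvPolynomial.eval (fun i => (t i : ℂ)) h = 0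
        · rw [hren, h2, zero_mul]
        rw [← hpd, eval_Dp] at h1
        have h3 := trace_eq_Ph u (X t) (hspan _ (hXh t h2) h1) l
        rw [hTc'] at h3
        rw [map_sub, map_mul, map_pow, ← hpd, ← hpp, eval_Dp, hPe, h3, sub_self, mul_zero])
      with h1 | h1
    · obtain ⟨t', ht'⟩ := hne
      exfalso
      apply ht'
      rw [← eval_Dp, hpd]
      exact h1 t'
    · have h2 : MvPolynomial.eval (tt t) (Tc (FreeGroup.mk l) * pd ^ (l.length + 1) - pp) = 0 := by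
        rcases lev_domain (MvPolynomial.rename Sum.inl h)
          (Tc (FreeGroup.mk l) * pd ^ (l.length + 1) - pp) (fun t => by
            have h4 := h1 t
            rw [map_mul] at h4
            exact mul_eq_zero.1 h4) with h5 | h5
        · exfalso
          apply h0
          apply torus_zero
          intro t
          rw [← hren]
          exact h5 t
        · exact h5 t
      rw [map_sub, map_mul, map_pow, ← hpd, ← hpp, eval_Dp, hPe, sub_eq_zero] at h2
      exact h2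
  obtain ⟨z, hz⟩ := exists_T T c₀ (by
    obtain ⟨t, ht⟩ := hne
    exact ⟨t, by rw [hAf]; exact ht⟩) (fun l => by
    obtain ⟨p, hp⟩ := hTl l
    exact ⟨p, fun t => by rw [hAf]; exact hp t⟩)
  obtain ⟨c, hc⟩ : ∃ c : (Wd m ι × T) ⊕ Unit → ℂ, c = Sum.elim c₀ fun _ => z := ⟨_, rfl⟩
  rw [← hc] at hz
  have hAfc : ∀ t, Af c t = trv u (X t) := fun t => hc ▸ hAf z t
  -- the generic point
  obtain ⟨x₁, hx₁, hgen⟩ := exists_gen c (dl n) dl_ne
  have hx₁' : ∀ i, x₁ i ≠ 0 := by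
    intro i
    unfold dl at hx₁
    rw [map_prod] at hx₁
    have h2 := Finset.prod_ne_zero_iff.1 hx₁ i (Finset.mem_univ i)
    rwa [MvPolynomial.aeval_X] at h2
  obtain ⟨t₁, ht₁⟩ : ∃ t₁ : Fin n → ℂˣ, tc t₁ = x₁ :=
    ⟨fun i => Units.mk0 _ (hx₁' i), funext fun i => rfl⟩
  rw [← ht₁] at hgen
  obtain ⟨Y, hY⟩ := exists_Yt (m := m) (ι := ι) T
  obtain ⟨Yμ, hYμl, hYμr⟩ : ∃ Yμ : ((Wd m ι × T) ⊕ Unit) ⊕ Wd m ι →
      MvPolynomial ((Fin n ⊕ ((Wd m ι × T) ⊕ Unit)) ⊕ Unit) Kb,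
      (∀ k, Yμ (Sum.inl k) = MvPolynomial.X (Sum.inl (Sum.inr k))) ∧
      ∀ q, Yμ (Sum.inr q) = Y q := ⟨Sum.elim (fun k => MvPolynomial.X (Sum.inl (Sum.inr k))) Y,
        fun k => rfl, fun q => rfl⟩
  have hYμe : ∀ t c', (fun q => MvPolynomial.aeval (pnt (dl n) (tc t) c') (Yμ q)) =
      Sum.elim c' (Af c' t) := by
    intro t c'
    funext q
    rcases q with k | q
    · rw [hYμl, MvPolynomial.aeval_X]
      rfl
    · rw [hYμr, hY]
      rfl
  obtain ⟨a, ha, hlift⟩ := lift_spec (pnt (dl n) (tc t₁) c) Yμ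
  rw [hYμe] at ha hlift
  -- relations at the generic point
  have claim0 : ∀ F : MvPolynomial (Wd m ι) ℂ, (∀ Y ∈ Z,
      (∀ p i j, (Y p).1 i j ∈ algebraicClosure ℚ ℂ) → MvPolynomial.eval (trv u Y) F = 0) →
      ∀ Q : ι → SpecialLinearGroup (Fin r) ℂ, (∀ G ∈ idK Z, value G Q = 0) →
        MvPolynomial.eval (trv u Q) F = 0 := by
    intro F hF Q hQ
    obtain ⟨G, -, hG⟩ := exists_inv (r := r) R u F
    rw [← hG]
    exact value_of_idK hdense G (fun Y hY hYa => by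
      rw [hG]
      exact hF Y hY hYa) Q hQ
  have claim1 : ∀ P : MvPolynomial (((Wd m ι × T) ⊕ Unit) ⊕ Wd m ι) Kb,
      MvPolynomial.aeval (Sum.elim c (Af c t₁)) P = 0 →
      ∀ Q : ι → SpecialLinearGroup (Fin r) ℂ, (∀ F ∈ idK Z, value F Q = 0) →
        MvPolynomial.aeval (Sum.elim c (trv u Q)) P = 0 := by
    intro P hP Q hQ
    obtain ⟨F, hF⟩ := exists_partial c P
    rw [← hF]
    refine claim0 F (fun Y hY _ => hdm F (fun t => ?_) Y hY) Q hQ
    have h2 := hgen (MvPolynomial.aeval Yμ P) (by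
      rw [aeval_bind, hYμe]
      exact hP) c (fun P hP => hP) (tc t) (dl_ne' t)
    rw [aeval_bind, hYμe] at h2
    rw [hF, ← hAfc]
    exact h2
  -- an algebraic point of `Z`
  obtain ⟨Q₁, hQ₁, hQ₁a, hQ₁v⟩ : ∃ Q₁ ∈ Z, (∀ p i j, (Q₁ p).1 i j ∈ algebraicClosure ℚ ℂ) ∧
      MvPolynomial.aeval (Sum.elim c (trv u Q₁)) a ≠ 0 := by
    by_contra hcon
    push Not at hcon
    obtain ⟨F, hF⟩ := exists_partial c a
    have h2 := hcl F (fun Y hY => claim0 F (fun Y hY hYa => by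
      rw [hF]
      exact hcon Y hY hYa) Y fun G hG => hG Y hY) t₁
    rw [hF, ← hAfc] at h2
    exact ha h2
  have hemb : ∀ Q : ι → SpecialLinearGroup (Fin r) ℂ,
      (∀ p i j, (Q p).1 i j ∈ algebraicClosure ℚ ℂ) → ∃ q : Wd m ι → Kb, emb q = trv u Q := by
    intro Q hQ
    have h1 : ∀ x, trv u Q x ∈ algebraicClosure ℚ ℂ := by
      intro x
      obtain ⟨F, hF⟩ := exists_invK (r := r) u (MvPolynomial.X x)
      have h2 : H252.coords Q = emb fun q => ⟨_, hQ q.1 q.2.1 q.2.2⟩ := rfl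
      have h3 := hF Q
      rw [MvPolynomial.aeval_X, value_aeval, h2, aeval_emb] at h3
      rw [← h3]
      exact SetLike.coe_mem _
    exact ⟨fun x => ⟨_, h1 x⟩, rfl⟩
  obtain ⟨q₁, hq₁⟩ := hemb Q₁ hQ₁a
  obtain ⟨p₁, hp₁⟩ := exists_partial₂ q₁ a
  obtain ⟨c₁, hc₁, hc₁p⟩ := exists_spec c p₁ (by
    rw [hp₁, hq₁]
    exact hQ₁v)
  obtain ⟨a₀, ha₀⟩ := exists_partial₁ c₁ a
  obtain ⟨b, hb, hbZ⟩ := exists_mem hC hZ u
  -- the algebraic family
  have hA : ∀ t x, MvPolynomial.aeval (tt t) (∑ q : T, MvPolynomial.monomial q.1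
      (c₁ (Sum.inl (x, q))) : MvPolynomial (Fin n ⊕ Fin n) Kb) = Af (emb c₁) t x := by
    intro t x
    rw [map_sum, Af]
    refine Finset.sum_congr rfl fun q _ => ?_
    rw [MvPolynomial.aeval_monomial, Finsupp.prod_fintype]
    · rfl
    · intro k
      rw [pow_zero]
  have hA' : ∀ t, (fun x => MvPolynomial.aeval (tt t) (∑ q : T, MvPolynomial.monomial q.1
      (c₁ (Sum.inl (x, q))) : MvPolynomial (Fin n ⊕ Fin n) Kb)) = Af (emb c₁) t :=
    fun t => funext fun x => hA t x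
  refine ⟨n, fun x => ∑ q : T, MvPolynomial.monomial q.1 (c₁ (Sum.inl (x, q))),
    fun l => ?_, ⟨b, hb, fun t hta ht => ?_⟩, ⟨a₀, ⟨Q₁, hQ₁, ?_⟩, fun Q hQa hQZ hQv => ?_⟩⟩
  · obtain ⟨p, hp⟩ := hz c₁ hc₁ l
    refine ⟨p, fun t => ?_⟩
    rw [hA']
    exact hp t
  · rw [hA'] at ht
    have htt : ∀ k, tt t k ∈ algebraicClosure ℚ ℂ := by
      intro k
      rcases k with i | i
      · exact hta i
      · change (((t i)⁻¹ : ℂˣ) : ℂ) ∈ _
        rw [Units.val_inv_eq_inv_val]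
        exact inv_mem (hta i)
    obtain ⟨z', hz'⟩ : ∃ z' : Wd m ι → Kb, emb z' = Af (emb c₁) t := by
      refine ⟨fun x => ⟨Af (emb c₁) t x, ?_⟩, rfl⟩
      unfold Af
      exact sum_mem fun q _ => mul_mem (c₁ _).2 (prod_mem fun k _ => pow_mem (htt k) _)
    obtain ⟨X', hX', hX'a, hX't⟩ := hbZ z' (fun P hP => by
      rw [hz']
      have h1 : ∀ t, MvPolynomial.aeval (Af c t) P = 0 := by
        intro t
        have h2 := hcl (MvPolynomial.map (algebraMap Kb ℂ) P) (fun Y hY => by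
          rw [MvPolynomial.eval_map]
          exact hP Y hY) t
        rw [MvPolynomial.eval_map] at h2
        rw [hAfc]
        exact h2
      have hYe : ∀ t c', (fun x => MvPolynomial.aeval (pnt (dl n) (tc t) c') (Y x)) =
          Af c' t := fun t c' => funext fun x => hY t c' x
      have h2 := hgen (MvPolynomial.aeval Y P) (by
        rw [aeval_bind, hYe]
        exact h1 t₁) (emb c₁) hc₁ (tc t) (dl_ne' t)
      rw [aeval_bind, hYe] at h2
      exact h2) (by rw [hz']; exact ht)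
    refine ⟨X', hX', hX'a, fun x => ?_⟩
    rw [hX't, hA, ← hz']
    rfl
  · rw [ha₀, ← hq₁, ← hp₁]
    exact hc₁p
  · obtain ⟨q, hq⟩ := hemb Q hQa
    obtain ⟨y, hy, hyz⟩ := hlift (Sum.elim c₁ q) (by
      intro P hP
      have h1 := claim1 P hP Q hQZ
      obtain ⟨P', hP'⟩ := exists_partial₂ q P
      rw [← hq, ← hP'] at h1
      have h2 := hc₁ P' h1
      rw [hP'] at h2
      rw [emb_elim]
      exact h2) (by
      rw [emb_elim, hq, ← ha₀]
      exact hQv)
    -- the last coordinate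
    have h1 := hy (MvPolynomial.X (Sum.inr ()) *
      MvPolynomial.rename (fun k => Sum.inl (Sum.inl k)) (dl n) - 1) (by
      rw [map_sub, map_mul, MvPolynomial.aeval_X, MvPolynomial.aeval_rename, map_one, sub_eq_zero]
      exact inv_mul_cancel₀ (dl_ne' t₁))
    rw [map_sub, map_mul, MvPolynomial.aeval_X, MvPolynomial.aeval_rename, map_one,
      sub_eq_zero] at h1
    have h2 : MvPolynomial.aeval ((emb y) ∘ fun k => Sum.inl (Sum.inl k)) (dl n) =
        ∏ i, (y (Sum.inl (Sum.inl i)) : ℂ) := by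
      unfold dl
      rw [map_prod]
      refine Finset.prod_congr rfl fun i _ => ?_
      rw [MvPolynomial.aeval_X]
      rfl
    rw [h2] at h1
    have h3 : ∏ i, (y (Sum.inl (Sum.inl i)) : ℂ) ≠ 0 :=
      right_ne_zero_of_mul (h1.symm ▸ one_ne_zero)
    obtain ⟨t₀, ht₀⟩ : ∃ t₀ : Fin n → ℂˣ, ∀ i, (t₀ i : ℂ) = (y (Sum.inl (Sum.inl i)) : ℂ) :=
      ⟨fun i => Units.mk0 _ (Finset.prod_ne_zero_iff.1 h3 i (Finset.mem_univ i)), fun i => rfl⟩
    have hyc : ∀ k, (y (Sum.inl (Sum.inr k)) : ℂ) = emb c₁ k := by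
      intro k
      have h4 := hyz (Sum.inl k)
      rw [hYμl, MvPolynomial.aeval_X] at h4
      exact h4
    have hpt : emb y = pnt (dl n) (tc t₀) (emb c₁) := by
      funext k
      rcases k with (i | k) | k
      · change (y (Sum.inl (Sum.inl i)) : ℂ) = (t₀ i : ℂ)
        rw [ht₀]
      · exact hyc k
      · change (y (Sum.inr ()) : ℂ) = (MvPolynomial.aeval (tc t₀) (dl n))⁻¹
        rw [aeval_dl, Finset.prod_congr rfl fun i _ => ht₀ i]
        exact eq_inv_of_mul_eq_one_left h1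
    refine ⟨t₀, fun i => ?_, fun x => ?_⟩
    · rw [ht₀]
      exact (y _).2
    · have h4 := hyz (Sum.inr x)
      rw [hYμr, hpt, hY] at h4
      have h5 := congrFun hq x
      rw [hA, h4]
      exact h5.symm

end

end Vale.Agent.P002.R2.H426
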