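import Vale.Agent.P002.R2.H426.Comp

/-!
# One integral point in a component dominated by a torus: density over one field
-/

namespace Vale.Agent.P002.R2.H426

open Matrix Module NumberField Vale.Agent.P002R.Orb Vale.Agent.P002.H326J Vale.Agent.P002.H2
  Vale.Agent.P002.H955 Vale.Agent.P002.R2

section

variable {ι : Type} {r n : ℕ}

/-- a number field containing finitely many algebraic numbers -/
theorem exists_field (S : Set ℂ) (hS : S.Finite) (h : ∀ x ∈ S, x ∈ algebraicClosure ℚ ℂ) :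
    ∃ L : IntermediateField ℚ ℂ, FiniteDimensional ℚ L ∧ ∀ x ∈ S, x ∈ L := by
  have : Finite S := hS
  refine ⟨IntermediateField.adjoin ℚ S, IntermediateField.finiteDimensional_adjoin fun x hx => ?_,
    fun x hx => IntermediateField.subset_adjoin ℚ S hx⟩
  exact (mem_algebraicClosure_iff.1 (h x hx)).isIntegral

/-- the conjugate of a Laurent family -/
theorem conj_fam (A₀ : ι → Fin r → Fin r → MvPolynomial (Fin n ⊕ Fin n) Kb)
    (X₀ : (Fin n → ℂˣ) → ι → SpecialLinearGroup (Fin r) ℂ)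
    (hA₀ : ∀ t p i j, (X₀ t p).1 i j = MvPolynomial.aeval (tt t) (A₀ p i j))
    (g : SpecialLinearGroup (Fin r) ℂ) (hg : ∀ i j, g.1 i j ∈ algebraicClosure ℚ ℂ) :
    ∃ P : ι → Fin r → Fin r → MvPolynomial (Fin n ⊕ Fin n) ℂ,
      (∀ t p i j, (g * X₀ t p * g⁻¹).1 i j = MvPolynomial.eval (tt t) (P p i j)) ∧
      ∀ p i j m, (P p i j).coeff m ∈ algebraicClosure ℚ ℂ := by
  have hg' : ∀ i j, (g⁻¹).1 i j ∈ algebraicClosure ℚ ℂ := by
    intro i j
    have h1 : (g⁻¹).1 = g.1.adjugate := rfl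
    rw [h1, Matrix.adjugate_apply, Matrix.det_apply]
    refine sum_mem fun σ _ => ?_
    rw [Units.smul_def, zsmul_eq_mul]
    refine mul_mem (intCast_mem _ _) (prod_mem fun k _ => ?_)
    rw [Matrix.updateRow_apply]
    split_ifs
    · rw [Pi.single_apply]
      split_ifs
      · exact one_mem _
      · exact zero_mem _
    · exact hg _ _
  refine ⟨fun p i j => ∑ b, (∑ a, MvPolynomial.C (g.1 i a) *
    MvPolynomial.map (algebraMap Kb ℂ) (A₀ p a b)) * MvPolynomial.C ((g⁻¹).1 b j),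
    fun t p i j => ?_, fun p i j m => ?_⟩
  · have h1 : (g * X₀ t p * g⁻¹).1 = g.1 * (X₀ t p).1 * (g⁻¹).1 := rfl
    rw [h1, Matrix.mul_apply, map_sum]
    refine Finset.sum_congr rfl fun b _ => ?_
    rw [Matrix.mul_apply, map_mul, map_sum, MvPolynomial.eval_C]
    congr 1
    refine Finset.sum_congr rfl fun a _ => ?_
    rw [map_mul, MvPolynomial.eval_C, hA₀, MvPolynomial.eval_map]
    rfl
  · rw [MvPolynomial.coeff_sum]
    refine sum_mem fun b _ => ?_
    rw [mul_comm, MvPolynomial.coeff_C_mul, MvPolynomial.coeff_sum]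
    refine mul_mem (hg' _ _) (sum_mem fun a _ => ?_)
    rw [MvPolynomial.coeff_C_mul, MvPolynomial.coeff_map]
    exact mul_mem (hg _ _) (SetLike.coe_mem _)

/-- density from one integral point of a dominating family -/
theorem dense_of_cover [Finite ι] {Z : Set (ι → SpecialLinearGroup (Fin r) ℂ)}
    (hZ : IsIrredSet Z)
    (hconj : ∀ X ∈ Z, ∀ g : SpecialLinearGroup (Fin r) ℂ, (fun p => g * X p * g⁻¹) ∈ Z)
    (hdense : ∀ f, f ∉ idK Z → ∃ Q ∈ Z, (∀ p i j, (Q p).1 i j ∈ algebraicClosure ℚ ℂ) ∧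
      value f Q ≠ 0)
    (f : MvPolynomial (ι × Fin r × Fin r) Kb) (hf : f ∉ idK Z)
    (hfZ : ∀ Q : ι → SpecialLinearGroup (Fin r) ℂ, (∀ F ∈ idK Z, value F Q = 0) →
      value f Q ≠ 0 → Q ∈ Z)
    (A₀ : ι → Fin r → Fin r → MvPolynomial (Fin n ⊕ Fin n) Kb)
    (X₀ : (Fin n → ℂˣ) → ι → SpecialLinearGroup (Fin r) ℂ)
    (hA₀ : ∀ t p i j, (X₀ t p).1 i j = MvPolynomial.aeval (tt t) (A₀ p i j))
    (hX₀ : ∀ F ∈ idK Z, ∀ t, value F (X₀ t) = 0)
    (a₀ : MvPolynomial (ι × Fin r × Fin r) Kb) (ha₀ : a₀ ∉ idK Z)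
    (hcov : ∀ Q : ι → SpecialLinearGroup (Fin r) ℂ,
      (∀ p i j, (Q p).1 i j ∈ algebraicClosure ℚ ℂ) → (∀ F ∈ idK Z, value F Q = 0) →
        value a₀ Q ≠ 0 → ∃ (t : Fin n → ℂˣ) (g : SpecialLinearGroup (Fin r) ℂ),
          (∀ i, (t i : ℂ) ∈ algebraicClosure ℚ ℂ) ∧
          (∀ i j, g.1 i j ∈ algebraicClosure ℚ ℂ) ∧ Q = fun p => g * X₀ t p * g⁻¹)
    (t₀ : Fin n → ℂˣ) (ht₀ : ∀ i, (t₀ i : ℂ) ∈ algebraicClosure ℚ ℂ)
    (g₀ : SpecialLinearGroup (Fin r) ℂ) (hg₀ : ∀ i j, g₀.1 i j ∈ algebraicClosure ℚ ℂ)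
    (hint : ∀ p i j, IsIntegral ℤ ((g₀ * X₀ t₀ p * g₀⁻¹).1 i j)) :
    ∃ L : IntermediateField ℚ ℂ, FiniteDimensional ℚ L ∧ IsDenseRep L Z := by
  classical
  have := Fintype.ofFinite ι
  have hpr := idK_prime hZ
  obtain ⟨P, hP, hPc⟩ := conj_fam A₀ X₀ hA₀ g₀ hg₀
  obtain ⟨u, hu1, hu2, hu3⟩ := exists_unit
  have hualg : ∀ x : ℂ, IsIntegral ℤ x → x ∈ algebraicClosure ℚ ℂ := by
    intro x hx
    rw [mem_algebraicClosure_iff]
    exact (hx.tower_top (A := ℚ)).isAlgebraic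
  obtain ⟨L, hL, hLS⟩ := exists_field
    (((⋃ q : ι × Fin r × Fin r, (fun m => (P q.1 q.2.1 q.2.2).coeff m) ''
      ((P q.1 q.2.1 q.2.2).support : Set (Fin n ⊕ Fin n →₀ ℕ))) ∪
      Set.range fun i => (t₀ i : ℂ)) ∪ {(u : ℂ)})
    (((Set.finite_iUnion fun q => (Finset.finite_toSet _).image _).union
      (Set.finite_range _)).union (Set.finite_singleton _)) (by
    rintro x ((hx | ⟨i, rfl⟩) | hx)
    · obtain ⟨q, m, -, rfl⟩ := Set.mem_iUnion.1 hx
      exact hPc _ _ _ _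
    · exact ht₀ i
    · rw [Set.mem_singleton_iff.1 hx]
      exact hualg _ hu1)
  have hPL : ∀ p i j m, (P p i j).coeff m ∈ L := by
    intro p i j m
    by_cases hm : m ∈ (P p i j).support
    · exact hLS _ (Or.inl (Or.inl (Set.mem_iUnion.2 ⟨(p, i, j), m, hm, rfl⟩)))
    · rw [MvPolynomial.notMem_support_iff.1 hm]
      exact zero_mem _
  have htL : ∀ i, (t₀ i : ℂ) ∈ L := fun i => hLS _ (Or.inl (Or.inr ⟨i, rfl⟩))
  have huL : (u : ℂ) ∈ L := hLS _ (Or.inr rfl)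
  have huO : InO L (u : ℂ) := InO.of_mem huL hu1
  have huO' : InO L ((u⁻¹ : ℂˣ) : ℂ) := InO.of_mem (by
    rw [Units.val_inv_eq_inv_val]
    exact inv_mem huL) hu2
  have hbase : ∀ p i j, InO L (MvPolynomial.eval (tt t₀) (P p i j)) := by
    intro p i j
    refine InO.of_mem ?_ ?_
    · rw [MvPolynomial.eval_eq']
      refine sum_mem fun m _ => mul_mem (hPL p i j m) (prod_mem fun k _ => pow_mem ?_ _)
      rcases k with k | k
      · exact htL k
      · change (((t₀ k)⁻¹ : ℂˣ) : ℂ) ∈ L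
        rw [Units.val_inv_eq_inv_val]
        exact inv_mem (htL k)
    · rw [← hP]
      exact hint p i j
  choose M hM0 hM using fun q : ι × Fin r × Fin r =>
    lev_integral (L := L) (P q.1 q.2.1 q.2.2) (hPL q.1 q.2.1 q.2.2) t₀ htL
  obtain ⟨M', hM'⟩ : ∃ M' : ℕ, M' = ∏ q, M q := ⟨_, rfl⟩
  have hM'0 : 0 < M' := by
    rw [hM']
    exact Finset.prod_pos fun q _ => hM0 q
  obtain ⟨U, hU⟩ : ∃ U : Set ℂˣ, U = {x : ℂˣ | Cong L M' (x : ℂ) ∧ InO L ((x⁻¹ : ℂˣ) : ℂ)} :=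
    ⟨_, rfl⟩
  have hUinf : U.Infinite := hU ▸ infinite_cong huO huO' hu3 M' hM'0
  have hval : ∀ y : Fin n → ℂˣ, (∀ i, y i ∈ U) → ∀ p i j,
      InO L ((g₀ * X₀ (fun i => y i * t₀ i) p * g₀⁻¹).1 i j) := by
    intro y hy p i j
    rw [hU] at hy
    have h1 := hM (p, i, j) M' (hM' ▸ Finset.dvd_prod_of_mem M (Finset.mem_univ (p, i, j))) y
      (fun i => (hy i).1) (fun i => (hy i).2)
    rw [hP]
    have h2 := InO.add h1 (hbase p i j)
    have h3 : lev (P p i j) (fun i => y i * t₀ i) - lev (P p i j) t₀ +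
        MvPolynomial.eval (tt t₀) (P p i j) =
        MvPolynomial.eval (tt fun i => y i * t₀ i) (P p i j) := by
      change _ - MvPolynomial.eval (tt t₀) (P p i j) + _ = _
      rw [sub_add_cancel]
      rfl
    rw [h3] at h2
    exact h2
  refine ⟨L, hL, fun F hF => ?_⟩
  -- conjugates of members of the family
  have hconjK : ∀ Q : ι → SpecialLinearGroup (Fin r) ℂ, (∀ F ∈ idK Z, value F Q = 0) →
      ∀ g : SpecialLinearGroup (Fin r) ℂ, ∀ F ∈ idK Z, (value F fun p => g * Q p * g⁻¹) = 0 := by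
    intro Q hQ g F hF
    obtain ⟨G, hG⟩ := exists_conj_poly g (MvPolynomial.map (algebraMap Kb ℂ) F)
    have h1 := value_of_idK hdense G (fun Y hY _ => by
      rw [hG, value_map]
      exact hF _ (hconj Y hY g)) Q hQ
    rwa [hG, value_map] at h1
  obtain ⟨F', hF'⟩ : ∃ F' : MvPolynomial (ι × Fin r × Fin r) ℂ,
      ∀ Q : ι → SpecialLinearGroup (Fin r) ℂ, value F' Q = value F Q * value f Q := by
    refine ⟨F * MvPolynomial.map (algebraMap Kb ℂ) f, fun Q => ?_⟩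
    rw [H252.value_eq, map_mul, ← H252.value_eq, ← H252.value_eq, value_map]
  have key : ∀ (T : (Matrix (Fin r) (Fin r) ℂ)ˣ) (y : Fin n → ℂˣ),
      MvPolynomial.eval (fun q : ι × Fin r × Fin r =>
        (T.1 * (g₀ * X₀ (fun i => y i * t₀ i) q.1 * g₀⁻¹).1 * T⁻¹.1) q.2.1 q.2.2) F' = 0 := by
    refine H306.dens (fun y p => (g₀ * X₀ (fun i => y i * t₀ i) p * g₀⁻¹).1) ?_ U hUinf F' ?_
    · intro y i p a b
      have h1 : (fun c => (g₀ * X₀ (fun j => Function.update y i c j * t₀ j) p * g₀⁻¹).1 a b) =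
          fun c => MvPolynomial.eval (tt fun j => Function.update y i c j * t₀ j) (P p a b) := by
        funext c
        rw [hP]
      rw [h1]
      exact lev_Lau (P p a b) t₀ y i
    · intro S y hy
      obtain ⟨S', hS'⟩ : ∃ S' : SpecialLinearGroup (Fin r) ℂ,
          S' = SpecialLinearGroup.map (Int.castRingHom ℂ) S := ⟨_, rfl⟩
      obtain ⟨Q, hQ⟩ : ∃ Q : ι → SpecialLinearGroup (Fin r) ℂ, Q = fun p =>
          S' * (g₀ * X₀ (fun i => y i * t₀ i) p * g₀⁻¹) * S'⁻¹ := ⟨_, rfl⟩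
      have hS1 : S'.1 = S.1.map (Int.castRingHom ℂ) := by
        rw [hS']
        rfl
      have hS2 : (S'⁻¹).1 = S⁻¹.1.map (Int.castRingHom ℂ) := by
        rw [hS', ← map_inv]
        rfl
      have h1 : (fun q : ι × Fin r × Fin r => (S.1.map (Int.castRingHom ℂ) *
          (g₀ * X₀ (fun i => y i * t₀ i) q.1 * g₀⁻¹).1 * S⁻¹.1.map (Int.castRingHom ℂ))
            q.2.1 q.2.2) = H252.coords Q := by
        funext q
        rw [hQ, ← hS1, ← hS2]
        rfl
      rw [h1, ← H252.value_eq, hF']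
      by_cases hfQ : value f Q = 0
      · rw [hfQ, mul_zero]
      · have hQK : ∀ F ∈ idK Z, value F Q = 0 := by
          rw [hQ]
          exact hconjK _ (hconjK _ (fun F hF => hX₀ F hF _) g₀) S'
        have hQint : IsIntegralRep L Q := by
          intro p i j
          have h2 : (Q p).1 i j = ∑ b, (∑ a, S'.1 i a *
              (g₀ * X₀ (fun i => y i * t₀ i) p * g₀⁻¹).1 a b) * (S'⁻¹).1 b j := by
            rw [hQ]
            rfl
          have h3 : ∀ z : ℤ, InO L ((Int.castRingHom ℂ) z) := by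
            intro z
            refine InO.of_mem ?_ ?_
            · exact intCast_mem L z
            · exact isIntegral_algebraMap (R := ℤ) (A := ℂ) (x := z)
          have h4 : InO L ((Q p).1 i j) := by
            rw [h2]
            refine InO.sum _ _ fun b _ => InO.mul (InO.sum _ _ fun a _ => InO.mul ?_ ?_) ?_
            · rw [hS1]
              exact h3 _
            · exact hval y hy p a b
            · rw [hS2]
              exact h3 _
          exact h4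
        rw [hF Q (hfZ Q hQK hfQ) hQint, zero_mul]
  -- the dominated points
  have hdom : ∀ Q ∈ Z, (∀ p i j, (Q p).1 i j ∈ algebraicClosure ℚ ℂ) →
      value a₀ Q ≠ 0 → value F' Q = 0 := by
    intro Q hQ hQa hQv
    obtain ⟨t, g, -, -, rfl⟩ := hcov Q hQa (fun F hF => hF Q hQ) hQv
    obtain ⟨T, hT⟩ : ∃ T : (Matrix (Fin r) (Fin r) ℂ)ˣ, T.1 = (g * g₀⁻¹).1 ∧
        T⁻¹.1 = ((g * g₀⁻¹)⁻¹).1 :=
      ⟨⟨(g * g₀⁻¹).1, ((g * g₀⁻¹)⁻¹).1, congrArg Subtype.val (mul_inv_cancel (g * g₀⁻¹)),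
        congrArg Subtype.val (inv_mul_cancel (g * g₀⁻¹))⟩, rfl, rfl⟩
    have h1 := key T fun i => t i * (t₀ i)⁻¹
    have h2 : (fun q : ι × Fin r × Fin r => (T.1 * (g₀ * X₀ (fun i => t i * (t₀ i)⁻¹ * t₀ i) q.1 *
        g₀⁻¹).1 * T⁻¹.1) q.2.1 q.2.2) = H252.coords (fun p => g * X₀ t p * g⁻¹) := by
      funext q
      have h3 : (fun i => t i * (t₀ i)⁻¹ * t₀ i) = t := by
        funext i
        rw [inv_mul_cancel_right]
      rw [h3, hT.1, hT.2]
      have h4 : g * X₀ t q.1 * g⁻¹ =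
          g * g₀⁻¹ * (g₀ * X₀ t q.1 * g₀⁻¹) * (g * g₀⁻¹)⁻¹ := by group
      change _ = (g * X₀ t q.1 * g⁻¹).1 q.2.1 q.2.2
      rw [h4]
      rfl
    rw [h2, ← H252.value_eq] at h1
    exact h1
  -- conclusion
  intro X hX
  obtain ⟨F'', hF''⟩ : ∃ F'' : MvPolynomial (ι × Fin r × Fin r) ℂ,
      ∀ Q : ι → SpecialLinearGroup (Fin r) ℂ, value F'' Q = value F' Q * value a₀ Q := by
    refine ⟨F' * MvPolynomial.map (algebraMap Kb ℂ) a₀, fun Q => ?_⟩
    rw [H252.value_eq, map_mul, ← H252.value_eq, ← H252.value_eq, value_map]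
  have h1 : ∀ Y ∈ Z, value F'' Y = 0 := by
    intro Y hY
    refine value_of_idK hdense F'' (fun Q hQ hQa => ?_) Y fun G hG => hG Y hY
    rw [hF'']
    by_cases h2 : value a₀ Q = 0
    · rw [h2, mul_zero]
    · rw [hdom Q hQ hQa h2, zero_mul]
  have hfa : f * a₀ ∉ idK Z := fun h => (hpr.mem_or_mem h).elim hf ha₀
  rcases hZ.2 F (MvPolynomial.map (algebraMap Kb ℂ) (f * a₀)) (fun Y hY => by
    rw [value_map, value_evK, map_mul, ← value_evK, ← value_evK]
    have h2 := h1 Y hY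
    rw [hF'', hF', mul_assoc] at h2
    exact mul_eq_zero.1 h2) with h2 | h2
  · exact h2 X hX
  · exfalso
    apply hfa
    intro Y hY
    rw [← value_map]
    exact h2 Y hY

end

end Vale.Agent.P002.R2.H426
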