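import Vale.Agent.P002.R2.H426.Three
import Vale.Agent.P002.R2.H524.Glob

/-!
# Components dominated by a torus: the equivalences
-/

namespace Vale.Agent.P002.R2.H426

open Matrix Module NumberField Vale.Agent.P002R.Orb Vale.Agent.P002.H326J Vale.Agent.P002.H2
  Vale.Agent.P002.H955 Vale.Agent.P002.R2

section

variable {ι : Type} {r n : ℕ}

theorem globalStep : GlobalStep := fun _ _ _ _ A₀ X₀ hA₀ hloc =>
  H524.exists_int_family A₀ X₀ hA₀ hloc

theorem isIntegralAt_alg {P : Ideal (integralClosure ℤ ℂ)} {z : ℂ} (h : IsIntegralAt P z) :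
    z ∈ algebraicClosure ℚ ℂ := by
  obtain ⟨b, hb, hbz⟩ := h
  have hb0 : (b : ℂ) ≠ 0 := by
    intro h
    apply hb
    have h2 : b = 0 := Subtype.ext h
    rw [h2]
    exact P.zero_mem
  have hualg : ∀ x : ℂ, IsIntegral ℤ x → x ∈ algebraicClosure ℚ ℂ := by
    intro x hx
    rw [mem_algebraicClosure_iff]
    exact (hx.tower_top (A := ℚ)).isAlgebraic
  have h4 : z = (b : ℂ)⁻¹ * ((b : ℂ) * z) := by
    rw [← mul_assoc, inv_mul_cancel₀ hb0, one_mul]
  rw [h4]
  exact mul_mem (inv_mem (hualg _ b.2)) (hualg _ hbz)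

/-- one point with integral traces from local points -/
theorem exists_point_of_local [Finite ι] {s : ℕ} {R : Set (FreeGroup ι)}
    {w : Fin s → FreeGroup ι} {C : Fin s → SpecialLinearGroup (Fin r) ℂ}
    {Z : Set (ι → SpecialLinearGroup (Fin r) ℂ)} (hZ : IsComponentM R Z (YW R w C))
    (hT : IsTorusDominated R Z)
    (hloc : ∀ P : Ideal (integralClosure ℤ ℂ), P.IsMaximal →
      ∃ X : ι → SpecialLinearGroup (Fin r) ℂ, InClosureRep Z X ∧
        ∀ p i j, IsIntegralAt P ((X p).1 i j)) :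
    ∃ X, InClosureM R Z X ∧ ∀ x, IsIntegral ℤ (FreeGroup.lift X x).1.trace := by
  obtain ⟨P₀, hP₀⟩ := Ideal.exists_maximal (integralClosure ℤ ℂ)
  obtain ⟨X₀, hX₀, hX₀P⟩ := hloc P₀ hP₀
  have hC := algebraic_of_closureRep hZ.1 hX₀ fun p i j => isIntegralAt_alg (hX₀P p i j)
  choose C' hCC' hC' using fun k => exists_algForm' (C k) (hC k)
  rw [YW_congr R w C C' hCC'] at hZ
  obtain ⟨X, hX, hXi⟩ := point_of_local globalStep hC' hZ hT (fun P hP => by
    obtain ⟨X, hX, hXP⟩ := hloc P hP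
    refine ⟨X, fun F hF => ?_, hXP⟩
    rw [← value_map]
    refine hX _ fun Y hY => ?_
    rw [value_map]
    exact hF Y hY)
  exact ⟨X, ⟨(hZ.1 hX).1, fun F _ hF => hF X hX⟩, hXi⟩

/-- integral representations are integral everywhere -/
theorem local_of_dense {Z : Set (ι → SpecialLinearGroup (Fin r) ℂ)} (hZ : Z.Nonempty)
    {L : IntermediateField ℚ ℂ} (h : IsDenseRep L Z) (P : Ideal (integralClosure ℤ ℂ))
    (hP : P.IsMaximal) :
    ∃ X : ι → SpecialLinearGroup (Fin r) ℂ, InClosureRep Z X ∧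
      ∀ p i j, IsIntegralAt P ((X p).1 i j) := by
  obtain ⟨X, hX, hXL⟩ : ∃ X ∈ Z, IsIntegralRep L X := by
    by_contra hcon
    push Not at hcon
    obtain ⟨X, hX⟩ := hZ
    have h1 := h 1 (fun Y hY hYL => absurd hYL (hcon Y hY)) X hX
    rw [H252.value_eq, map_one] at h1
    exact one_ne_zero h1
  refine ⟨X, fun F hF => hF X hX, fun p i j => ⟨1, fun h1 => hP.ne_top
    ((Ideal.eq_top_iff_one P).2 h1), ?_⟩⟩
  obtain ⟨a, ha⟩ := hXL p i j
  rw [OneMemClass.coe_one, one_mul, ha]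
  exact a.2.map (L.val.restrictScalars ℤ)

/-- exchange of conditions at the elements of a component -/
theorem exists_of_denseAll' [Finite ι] {R : Set (FreeGroup ι)}
    {Z : Set (ι → SpecialLinearGroup (Fin r) ℂ)} (hne : Z.Nonempty) (hZR : Z ⊆ YNone R r)
    (h : IsDenseAll R Z) :
    ∃ X, InClosureM R Z X ∧ ∀ x, IsIntegral ℤ (FreeGroup.lift X x).1.trace := by
  by_contra hcon
  push Not at hcon
  obtain ⟨X, hX⟩ := hne
  have hinv : IsInvariant R (1 : MvPolynomial (ι × Fin r × Fin r) ℂ) := by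
    intro A _ _ X P _
    unfold value
    rw [MvPolynomial.eval₂_one, MvPolynomial.eval₂_one]
  have h2 := h 1 hinv (fun X hX hint => by
    obtain ⟨L, -, hL⟩ := hint
    obtain ⟨x, hx⟩ := hcon X ⟨hZR hX, fun F _ hF => hF X hX⟩
    exact absurd (integral_trace hL x) hx) X hX
  rw [H252.value_eq, map_one] at h2
  exact one_ne_zero h2

/-- **The equivalences for a component.** -/
theorem tfae_component [Finite ι] {s : ℕ} {R : Set (FreeGroup ι)}
    {w : Fin s → FreeGroup ι} {C : Fin s → SpecialLinearGroup (Fin r) ℂ}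
    {Z : Set (ι → SpecialLinearGroup (Fin r) ℂ)} (hZ : IsComponentM R Z (YW R w C))
    (hT : IsTorusDominated R Z) : List.TFAE [
      ∃ L : IntermediateField ℚ ℂ, FiniteDimensional ℚ L ∧ IsDense R L Z,
      ∃ L : IntermediateField ℚ ℂ, FiniteDimensional ℚ L ∧ IsDenseRep L Z,
      IsDenseAll R Z,
      ∃ X, InClosureM R Z X ∧ ∀ x, IsIntegral ℤ (FreeGroup.lift X x).1.trace,
      ∀ P : Ideal (integralClosure ℤ ℂ), P.IsMaximal →
        ∃ X, InClosureRep Z X ∧ ∀ p i j, IsIntegralAt P ((X p).1 i j)] := by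
  tfae_have 1 → 3 := fun ⟨L, hL, h⟩ => IsDense.isDenseAll hL h
  tfae_have 3 → 4 := exists_of_denseAll' hZ.2.1.1 fun X hX => (hZ.1 hX).1
  tfae_have 4 → 2 := fun ⟨X, hX, ht⟩ => one_field hZ hT hX ht
  tfae_have 2 → 1 := fun ⟨L, hL, h⟩ => ⟨L, hL, h.isDense⟩
  tfae_have 2 → 5 := fun ⟨L, hL, h⟩ P hP => local_of_dense hZ.2.1.1 h P hP
  tfae_have 5 → 4 := exists_point_of_local hZ hT
  tfae_finish

/-- **The equivalences for `YW`.** -/
theorem tfae_YW [Finite ι] {s : ℕ} {R : Set (FreeGroup ι)}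
    {w : Fin s → FreeGroup ι} {C : Fin s → SpecialLinearGroup (Fin r) ℂ}
    (hT : ∀ Z, IsComponentM R Z (YW R w C) → IsTorusDominated R Z) : List.TFAE [
      ∃ L : IntermediateField ℚ ℂ, FiniteDimensional ℚ L ∧ IsDense R L (YW R w C),
      ∃ L : IntermediateField ℚ ℂ, FiniteDimensional ℚ L ∧ IsDenseRep L (YW R w C),
      IsDenseAll R (YW R w C),
      ∀ Z, IsComponentM R Z (YW R w C) →
        ∃ X, InClosureM R Z X ∧ ∀ x, IsIntegral ℤ (FreeGroup.lift X x).1.trace,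
      ∀ Z, IsComponentM R Z (YW R w C) → ∀ P : Ideal (integralClosure ℤ ℂ), P.IsMaximal →
        ∃ X, InClosureRep Z X ∧ ∀ p i j, IsIntegralAt P ((X p).1 i j)] := by
  tfae_have 1 → 3 := fun ⟨L, hL, h⟩ => IsDense.isDenseAll hL h
  tfae_have 3 → 4 := by
    intro h Z hZ
    obtain ⟨X, hX, L, hL, hint⟩ := exists_of_denseAll h hZ
    exact ⟨X, ⟨(hZ.1 hX).1, fun F _ hF => hF X hX⟩, integral_trace hint⟩
  tfae_have 4 → 2 := by
    intro h
    refine one_field_union (R := R) fun Z hZ => ?_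
    obtain ⟨X, hX, ht⟩ := h Z hZ
    exact one_field hZ (hT Z hZ) hX ht
  tfae_have 2 → 1 := fun ⟨L, hL, h⟩ => ⟨L, hL, h.isDense⟩
  tfae_have 4 → 5 := by
    intro h Z hZ P hP
    obtain ⟨X, hX, ht⟩ := h Z hZ
    obtain ⟨L, hL, h1⟩ := one_field hZ (hT Z hZ) hX ht
    exact local_of_dense hZ.2.1.1 h1 P hP
  tfae_have 5 → 4 := fun h Z hZ => exists_point_of_local hZ (hT Z hZ) (h Z hZ)
  tfae_finish

end

end Vale.Agent.P002.R2.H426
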