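import Vale.Agent.P002.R2.H426.Dns
import Vale.Agent.P002.R2.H426.Four
import Vale.Agent.P002.R2.H955.Form

/-!
# Components dominated by a torus in `M_r`: one field, local-global principle
-/

namespace Vale.Agent.P002.R2.H426

open Matrix Module NumberField Vale.Agent.P002R.Orb Vale.Agent.P002.H326J Vale.Agent.P002.H2
  Vale.Agent.P002.H955 Vale.Agent.P002.R2

section

variable {ι : Type} {r : ℕ}

/-- the statement of the global step -/
def IntFam : Prop := ∀ (ι : Type) [Finite ι] (r m n : ℕ)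
    (Z : Set (ι → SpecialLinearGroup (Fin r) ℂ)) (u : Fin m → FreeGroup ι)
    (_ : ∀ X ∈ Z, (Gm (trv u X)).det ≠ 0 → ∀ x : FreeGroup ι, (FreeGroup.lift X x).1 ∈
      Submodule.span ℂ (Set.range fun i => (FreeGroup.lift X (u i)).1))
    (A : Wd m ι → MvPolynomial (Fin n ⊕ Fin n) Kb)
    (_ : ∀ l : List (ι × Bool), ∃ p : MvPolynomial (Fin n ⊕ Fin n) Kb, ∀ t : Fin n → ℂˣ,
      MvPolynomial.aeval (tt t) p *
        (Gm fun x => MvPolynomial.aeval (tt t) (A x)).det ^ (l.length + 1) =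
          Ph (fun x => MvPolynomial.aeval (tt t) (A x)) l)
    (_ : ∀ P : Ideal (integralClosure ℤ ℂ), P.IsMaximal →
      ∃ (t : Fin n → ℂˣ) (Q : ι → SpecialLinearGroup (Fin r) ℂ),
        (∀ i, (t i : ℂ) ∈ algebraicClosure ℚ ℂ) ∧ Q ∈ Z ∧ (Gm (trv u Q)).det ≠ 0 ∧
        (∀ p i j, IsIntegralAt P ((Q p).1 i j)) ∧
          ∀ v, trv u Q v = MvPolynomial.aeval (tt t) (A v)),
    ∃ (x : Fin n → ℂˣ) (M : ℕ), 0 < M ∧ (∀ i, (x i : ℂ) ∈ algebraicClosure ℚ ℂ) ∧
      ∀ y : Fin n → ℂˣ, (∀ i, IsIntegral ℤ (y i : ℂ) ∧ IsIntegral ℤ (((y i)⁻¹ : ℂˣ) : ℂ) ∧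
        IsIntegral ℤ (((y i : ℂ) - 1) / M)) → ∀ X ∈ Z, (Gm (trv u X)).det ≠ 0 →
          (∀ v, trv u X v = MvPolynomial.aeval (tt fun i => y i * x i) (A v)) →
            ∀ g, IsIntegral ℤ (FreeGroup.lift X g).1.trace

/-- **One field from local points**, for components dominated by a torus in `M_r`. -/
theorem one_field_M (hI : IntFam) [Finite ι] {s : ℕ} {R : Set (FreeGroup ι)}
    {w : Fin s → FreeGroup ι} {C : Fin s → SpecialLinearGroup (Fin r) ℂ}
    {Z : Set (ι → SpecialLinearGroup (Fin r) ℂ)} (hZ : IsComponentM R Z (YW R w C))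
    (hT : IsTorusDominatedM R Z)
    (hloc : ∀ P : Ideal (integralClosure ℤ ℂ), P.IsMaximal →
      ∃ X : ι → SpecialLinearGroup (Fin r) ℂ, InClosureM R Z X ∧
        ∀ x, IsIntegralAt P (FreeGroup.lift X x).1.trace) :
    ∃ L : IntermediateField ℚ ℂ, FiniteDimensional ℚ L ∧ IsDense R L Z := by
  -- integral forms
  have hconj₀ := hZ.conj (fun X hX => hX.1.1) fun X hX g => YW_conj R w C X hX g
  have hform : ∀ P : Ideal (integralClosure ℤ ℂ), P.IsMaximal →
      ∃ X : ι → SpecialLinearGroup (Fin r) ℂ, InClosureRep Z X ∧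
        ∀ p i j, IsIntegralAt P ((X p).1 i j) := by
    intro P hP
    obtain ⟨X, hX, ht⟩ := hloc P hP
    obtain ⟨g, hg⟩ := P002.R2.H955.integral_form_at R P hP X hX.1 ht
    exact ⟨fun p => g * X p * g⁻¹, fun F hF =>
      value_conj_zero hconj₀ (fun F' hF' => hX.value_eq_zero hconj₀ F' hF') g F hF, hg⟩
  obtain ⟨P₀, hP₀⟩ := Ideal.exists_maximal (integralClosure ℤ ℂ)
  obtain ⟨X₀, hX₀, hX₀P⟩ := hform P₀ hP₀
  have hC := algebraic_of_closureRep hZ.1 hX₀ fun p i j => isIntegralAt_alg (hX₀P p i j)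
  choose C' hCC' hC' using fun k => exists_algForm' (C k) (hC k)
  rw [YW_congr R w C C' hCC'] at hZ
  have hpr := idK_prime hZ.isComponent.2.1
  have hss : ∀ X ∈ Z, ∀ W, IsInv X W → ∃ W', IsInv X W' ∧ IsCompl W W' :=
    fun X hX => (hZ.1 hX).1.2
  obtain ⟨m, u, hu, hspan⟩ := exists_words hZ.2.1.1 hss
  obtain ⟨n, A, hA⟩ := exists_fam hC' hZ hT u hu hspan
  obtain ⟨f, hf, hfZ⟩ := comp_open R w C' hC' hZ.isComponent
  obtain ⟨a, ⟨Xa, hXa, hXav⟩, hcov⟩ := hA.cov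
  obtain ⟨E, hE⟩ := exists_invK (r := r) u a
  obtain ⟨Dd, hDd⟩ := exists_invK (r := r) u (Dp m ι Kb)
  have hEZ : E ∉ idK Z := by
    intro h
    apply hXav
    rw [← hE]
    exact h Xa hXa
  have hDdZ : Dd ∉ idK Z := by
    obtain ⟨X, hX, hXd⟩ := hu
    intro h
    apply hXd
    rw [← aeval_Dp, ← hDd]
    exact h X hX
  obtain ⟨x, M, hM, hx, hint⟩ := hI ι r m n Z u hspan A hA.T (by
    intro P hP
    obtain ⟨X, hX, hXP⟩ := hform P hP
    obtain ⟨Q, hQZ, hQf, hQa, hQP⟩ := H955.local_points hZ.isComponent.2.1 P hP X hXP (by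
      intro F hF
      rw [← value_map]
      refine hX _ fun Y hY => ?_
      rw [value_map]
      exact hF Y hY) (f * (E * Dd))
      (fun h => (hpr.mem_or_mem h).elim hf fun h => (hpr.mem_or_mem h).elim hEZ hDdZ)
    rw [value_evK, map_mul, map_mul, ← value_evK, ← value_evK, ← value_evK, hE, hDd,
      aeval_Dp] at hQf
    obtain ⟨t, hta, ht⟩ := hcov Q hQa hQZ (left_ne_zero_of_mul (right_ne_zero_of_mul hQf))
    exact ⟨t, Q, hta, hfZ Q hQZ (left_ne_zero_of_mul hQf),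
      right_ne_zero_of_mul (right_ne_zero_of_mul hQf), hQP, ht⟩)
  exact dense_fam hC' hZ u hu hspan A hA x hx M hM hint

/-- an integral number is integral at every `P` -/
theorem isIntegralAt_of_isIntegral {P : Ideal (integralClosure ℤ ℂ)} (hP : P.IsMaximal) {z : ℂ}
    (hz : IsIntegral ℤ z) : IsIntegralAt P z :=
  ⟨1, fun h1 => hP.ne_top ((Ideal.eq_top_iff_one P).2 h1), by
    rw [OneMemClass.coe_one, one_mul]
    exact hz⟩

/-- density passes to larger fields -/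
theorem IsDense.mono {R : Set (FreeGroup ι)} {Z : Set (ι → SpecialLinearGroup (Fin r) ℂ)}
    {L L' : IntermediateField ℚ ℂ} (hL : L ≤ L') (h : IsDense R L Z) : IsDense R L' Z := by
  intro F hF hF0 X hX
  refine h F hF (fun Y hY hint => hF0 Y hY fun G hG => ?_) X hX
  obtain ⟨a, ha⟩ := hint G hG
  have h1 : InO L (value G Y) := ⟨a, ha⟩
  exact h1.mono hL

/-- one field for all components -/
theorem one_field_union_M [Finite ι] {R : Set (FreeGroup ι)}
    {Y : Set (ι → SpecialLinearGroup (Fin r) ℂ)}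
    (h : ∀ Z, IsComponentM R Z Y → ∃ L : IntermediateField ℚ ℂ, FiniteDimensional ℚ L ∧
      IsDense R L Z) :
    ∃ L : IntermediateField ℚ ℂ, FiniteDimensional ℚ L ∧ IsDense R L Y := by
  obtain ⟨n, Z, h1, h2, -, -⟩ := components_M R Y
  choose L hL hd using fun i => h (Z i) (h1 i)
  obtain ⟨L', hL', hd'⟩ := exists_sup (Set.univ : Set (Fin n)) Set.finite_univ
    (fun i L' => L i ≤ L') (fun i L₁ L₂ h12 h3 => h3.trans h12)
    (fun i _ => ⟨L i, hL i, le_rfl⟩)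
  refine ⟨L', hL', fun F hF hF0 X hX => ?_⟩
  rw [← h2] at hX
  obtain ⟨i, hi⟩ := Set.mem_iUnion.1 hX
  exact IsDense.mono (hd' i trivial) (hd i) F hF
    (fun X' hX' hint => hF0 X' ((h1 i).1 hX') hint) X hi

/-- **The equivalences for a component.** -/
theorem tfae_component_M (hI : IntFam) [Finite ι] {s : ℕ} {R : Set (FreeGroup ι)}
    {w : Fin s → FreeGroup ι} {C : Fin s → SpecialLinearGroup (Fin r) ℂ}
    {Z : Set (ι → SpecialLinearGroup (Fin r) ℂ)} (hZ : IsComponentM R Z (YW R w C))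
    (hT : IsTorusDominatedM R Z) : List.TFAE [
      ∃ L : IntermediateField ℚ ℂ, FiniteDimensional ℚ L ∧ IsDense R L Z,
      IsDenseAll R Z,
      ∃ X, InClosureM R Z X ∧ ∀ x, IsIntegral ℤ (FreeGroup.lift X x).1.trace,
      ∀ P : Ideal (integralClosure ℤ ℂ), P.IsMaximal →
        ∃ X, InClosureM R Z X ∧ ∀ x, IsIntegralAt P (FreeGroup.lift X x).1.trace] := by
  tfae_have 1 → 2 := fun ⟨L, hL, h⟩ => IsDense.isDenseAll hL h
  tfae_have 2 → 3 := exists_of_denseAll' hZ.2.1.1 fun X hX => (hZ.1 hX).1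
  tfae_have 3 → 4 := fun ⟨X, hX, ht⟩ P hP => ⟨X, hX, fun x => isIntegralAt_of_isIntegral hP (ht x)⟩
  tfae_have 4 → 1 := one_field_M hI hZ hT
  tfae_finish

/-- **The equivalences for `YW`.** -/
theorem tfae_YW_M (hI : IntFam) [Finite ι] {s : ℕ} {R : Set (FreeGroup ι)}
    {w : Fin s → FreeGroup ι} {C : Fin s → SpecialLinearGroup (Fin r) ℂ}
    (hT : ∀ Z, IsComponentM R Z (YW R w C) → IsTorusDominatedM R Z) : List.TFAE [
      ∃ L : IntermediateField ℚ ℂ, FiniteDimensional ℚ L ∧ IsDense R L (YW R w C),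
      IsDenseAll R (YW R w C),
      ∀ Z, IsComponentM R Z (YW R w C) →
        ∃ X, InClosureM R Z X ∧ ∀ x, IsIntegral ℤ (FreeGroup.lift X x).1.trace,
      ∀ Z, IsComponentM R Z (YW R w C) → ∀ P : Ideal (integralClosure ℤ ℂ), P.IsMaximal →
        ∃ X, InClosureM R Z X ∧ ∀ x, IsIntegralAt P (FreeGroup.lift X x).1.trace] := by
  tfae_have 1 → 2 := fun ⟨L, hL, h⟩ => IsDense.isDenseAll hL h
  tfae_have 2 → 3 := by
    intro h Z hZ
    obtain ⟨X, hX, L, hL, hint⟩ := exists_of_denseAll h hZ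
    exact ⟨X, ⟨(hZ.1 hX).1, fun F _ hF => hF X hX⟩, integral_trace hint⟩
  tfae_have 3 → 4 := fun h Z hZ P hP => by
    obtain ⟨X, hX, ht⟩ := h Z hZ
    exact ⟨X, hX, fun x => isIntegralAt_of_isIntegral hP (ht x)⟩
  tfae_have 4 → 1 := fun h => one_field_union_M fun Z hZ => one_field_M hI hZ (hT Z hZ) (h Z hZ)
  tfae_finish

end

end Vale.Agent.P002.R2.H426
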