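import Vale.Agent.P002.R2.H426.Sp

/-!
# Generic points of parameter spaces
-/

namespace Vale.Agent.P002.R2.H426

open Matrix Module Vale.Agent.P002.H2

section

variable {τ κ : Type}

/-- separation of the variables -/
theorem exists_sep (P : MvPolynomial (τ ⊕ κ) Kb) :
    ∃ Q : MvPolynomial τ (MvPolynomial κ Kb), ∀ (x : τ → ℂ) (c : κ → ℂ),
      MvPolynomial.aeval (Sum.elim x c) P =
        MvPolynomial.eval₂ ((MvPolynomial.aeval c : MvPolynomial κ Kb →ₐ[Kb] ℂ) :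
          MvPolynomial κ Kb →+* ℂ) x Q := by
  induction P using MvPolynomial.induction_on with
  | C a =>
    refine ⟨MvPolynomial.C (MvPolynomial.C a), fun x c => ?_⟩
    rw [MvPolynomial.eval₂_C, ← MvPolynomial.algebraMap_eq, AlgHom.commutes]
    change _ = MvPolynomial.aeval c (MvPolynomial.C a)
    rw [← MvPolynomial.algebraMap_eq, AlgHom.commutes]
  | add p q hp hq =>
    obtain ⟨P', hP'⟩ := hp
    obtain ⟨Q', hQ'⟩ := hq
    exact ⟨P' + Q', fun x c => by rw [map_add, hP', hQ', MvPolynomial.eval₂_add]⟩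
  | mul_X p i hp =>
    obtain ⟨P', hP'⟩ := hp
    rcases i with i | k
    · exact ⟨P' * MvPolynomial.X i, fun x c => by
        rw [map_mul, hP', MvPolynomial.eval₂_mul, MvPolynomial.aeval_X, MvPolynomial.eval₂_X]
        rfl⟩
    · refine ⟨P' * MvPolynomial.C (MvPolynomial.X k), fun x c => ?_⟩
      rw [map_mul, hP', MvPolynomial.eval₂_mul, MvPolynomial.aeval_X, MvPolynomial.eval₂_C]
      change _ = _ * MvPolynomial.aeval c (MvPolynomial.X k)
      rw [MvPolynomial.aeval_X]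
      rfl

/-- the point with last coordinate `1 / δ` -/
noncomputable def pnt (δ : MvPolynomial τ Kb) (x : τ → ℂ) (c : κ → ℂ) : (τ ⊕ κ) ⊕ Unit → ℂ :=
  Sum.elim (Sum.elim x c) fun _ => (MvPolynomial.aeval x δ)⁻¹

/-- clearing the denominators -/
theorem exists_num (δ : MvPolynomial τ Kb) (P : MvPolynomial ((τ ⊕ κ) ⊕ Unit) Kb) :
    ∃ (M : ℕ) (Q : MvPolynomial (τ ⊕ κ) Kb), ∀ (x : τ → ℂ) (c : κ → ℂ),
      MvPolynomial.aeval x δ ≠ 0 → MvPolynomial.aeval (Sum.elim x c) Q =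
        MvPolynomial.aeval x δ ^ M * MvPolynomial.aeval (pnt δ x c) P := by
  obtain ⟨δ', hδ'⟩ : ∃ δ' : MvPolynomial (τ ⊕ κ) Kb, ∀ (x : τ → ℂ) (c : κ → ℂ),
      MvPolynomial.aeval (Sum.elim x c) δ' = MvPolynomial.aeval x δ := by
    refine ⟨MvPolynomial.rename Sum.inl δ, fun x c => ?_⟩
    rw [MvPolynomial.aeval_rename]
    rfl
  induction P using MvPolynomial.induction_on with
  | C a =>
    refine ⟨0, MvPolynomial.C a, fun x c _ => ?_⟩
    rw [pow_zero, one_mul, ← MvPolynomial.algebraMap_eq, ← MvPolynomial.algebraMap_eq,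
      AlgHom.commutes, AlgHom.commutes]
  | add p q hp hq =>
    obtain ⟨M, P', hP'⟩ := hp
    obtain ⟨M', Q', hQ'⟩ := hq
    refine ⟨M + M', δ' ^ M' * P' + δ' ^ M * Q', fun x c h => ?_⟩
    rw [map_add, map_mul, map_mul, map_pow, map_pow, hδ', hP' x c h, hQ' x c h, map_add]
    ring
  | mul_X p i hp =>
    obtain ⟨M, P', hP'⟩ := hp
    rcases i with i | k
    · refine ⟨M, P' * MvPolynomial.X i, fun x c h => ?_⟩
      rw [map_mul, hP' x c h, MvPolynomial.aeval_X, map_mul, MvPolynomial.aeval_X]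
      change _ = _ * (_ * Sum.elim x c i)
      ring
    · refine ⟨M + 1, P', fun x c h => ?_⟩
      rw [hP' x c h, map_mul, MvPolynomial.aeval_X]
      change _ = _ * (_ * (MvPolynomial.aeval x δ)⁻¹)
      rw [pow_succ]
      field_simp

/-- generic points -/
theorem exists_gen [Finite τ] [Finite κ] (c : κ → ℂ) (δ : MvPolynomial τ Kb) (hδ : δ ≠ 0) :
    ∃ x₁ : τ → ℂ, MvPolynomial.aeval x₁ δ ≠ 0 ∧
      ∀ P : MvPolynomial ((τ ⊕ κ) ⊕ Unit) Kb, MvPolynomial.aeval (pnt δ x₁ c) P = 0 →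
        ∀ c', Sp c c' → ∀ x, MvPolynomial.aeval x δ ≠ 0 →
          MvPolynomial.aeval (pnt δ x c') P = 0 := by
  classical
  have hK := countable_Kb
  have hc : Countable (MvPolynomial (τ ⊕ κ) Kb) := by
    rw [← Cardinal.mk_le_aleph0_iff]
    refine MvPolynomial.cardinalMk_le_max.trans ?_
    simp only [max_le_iff, le_refl, and_true]
    exact ⟨Cardinal.mk_le_aleph0_iff.2 inferInstance, Cardinal.mk_le_aleph0_iff.2 inferInstance⟩
  choose Q hQ using fun P : MvPolynomial (τ ⊕ κ) Kb => exists_sep P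
  -- the countable set of polynomials over `ℂ`
  obtain ⟨φ, hφ⟩ : ∃ φ : (κ → ℂ) → MvPolynomial κ Kb →+* ℂ, ∀ c P,
      φ c P = MvPolynomial.aeval c P :=
    ⟨fun c => ((MvPolynomial.aeval c : MvPolynomial κ Kb →ₐ[Kb] ℂ) :
      MvPolynomial κ Kb →+* ℂ), fun c P => rfl⟩
  have hq : ∀ P c x, MvPolynomial.eval x (MvPolynomial.map (φ c) (Q P)) =
      MvPolynomial.aeval (Sum.elim x c) P := by
    intro P c x
    rw [MvPolynomial.eval_map, hQ]
    congr 1
    exact RingHom.ext (hφ c)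
  have hδ' : MvPolynomial.map (algebraMap Kb ℂ) δ ≠ 0 := by
    intro h
    exact hδ (MvPolynomial.map_injective (algebraMap Kb ℂ) (algebraMap Kb ℂ).injective
      (h.trans (map_zero _).symm))
  have hδe : ∀ x, MvPolynomial.eval x (MvPolynomial.map (algebraMap Kb ℂ) δ) =
      MvPolynomial.aeval x δ := by
    intro x
    rw [MvPolynomial.eval_map]
    rfl
  obtain ⟨S, hS⟩ : ∃ S : Set (MvPolynomial τ ℂ), S = insert (MvPolynomial.map (algebraMap Kb ℂ) δ)
      (Set.range fun P => MvPolynomial.map (φ c) (Q P)) \ {0} := ⟨_, rfl⟩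
  have hSc : S.Countable := by
    rw [hS]
    exact ((Set.countable_range _).insert _).mono Set.sdiff_subset
  have hSn : S.Nonempty := by
    rw [hS]
    exact ⟨_, Set.mem_insert _ _, hδ'⟩
  obtain ⟨a, ha⟩ := hSc.exists_eq_range hSn
  obtain ⟨x₁, -, hx₁⟩ := H252.exists_point (⊥ : Ideal (MvPolynomial τ ℂ)) a (fun n h => by
    have h1 : a n ∈ S := ha ▸ ⟨n, rfl⟩
    rw [hS] at h1
    exact h1.2 h)
  have hx : ∀ p ∈ S, MvPolynomial.eval x₁ p ≠ 0 := by
    intro p hp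
    rw [ha] at hp
    obtain ⟨n, rfl⟩ := hp
    exact hx₁ n
  have hx₁δ : MvPolynomial.aeval x₁ δ ≠ 0 := by
    rw [← hδe]
    refine hx _ ?_
    rw [hS]
    exact ⟨Set.mem_insert _ _, hδ'⟩
  refine ⟨x₁, hx₁δ, fun P hP c' hc' x hxδ => ?_⟩
  obtain ⟨M, P', hP'⟩ := exists_num (κ := κ) δ P
  have h1 : MvPolynomial.aeval (Sum.elim x₁ c) P' = 0 := by
    rw [hP' x₁ c hx₁δ, hP, mul_zero]
  have h2 : MvPolynomial.map (φ c) (Q P') = 0 := by
    by_contra hne
    refine hx _ ?_ ((hq P' c x₁).trans h1)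
    rw [hS]
    exact ⟨Set.mem_insert_of_mem _ ⟨P', rfl⟩, hne⟩
  have h3 : MvPolynomial.map (φ c') (Q P') = 0 := by
    ext m
    rw [MvPolynomial.coeff_map, MvPolynomial.coeff_zero, hφ]
    apply hc'
    have h4 := congrArg (MvPolynomial.coeff m) h2
    rw [MvPolynomial.coeff_map, MvPolynomial.coeff_zero, hφ] at h4
    exact h4
  have h4 : MvPolynomial.aeval (Sum.elim x c') P' = 0 := by
    rw [← hq, h3, map_zero]
  rw [hP' x c' hxδ] at h4
  exact (mul_eq_zero.1 h4).resolve_left (pow_ne_zero _ hxδ)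

end

end Vale.Agent.P002.R2.H426
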