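import Vale.Agent.P002.R2.H426.Wd
import Vale.Agent.P002.R2.H426.Comp

/-!
# Polynomials in the traces of words as invariants; division of polynomials
-/

namespace Vale.Agent.P002.R2.H426

open Matrix Module Vale.Agent.P002R.Orb Vale.Agent.P002.H326J Vale.Agent.P002.H2
  Vale.Agent.P002.H955 Vale.Agent.P002.R2

section

variable {ι : Type} {r m n : ℕ}

theorem exists_trI (r : ℕ) (x : FreeGroup ι) : ∃ F : MvPolynomial (ι × Fin r × Fin r) ℤ,
    ∀ (A : Type) [CommRing A] (X : ι → SpecialLinearGroup (Fin r) A),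
      value F X = (FreeGroup.lift X x).1.trace := by
  obtain ⟨M, hM⟩ := exists_word_int r x
  refine ⟨M.trace, fun A _ X => ?_⟩
  obtain ⟨φ, hφ⟩ : ∃ φ : MvPolynomial (ι × Fin r × Fin r) ℤ →+* A, ∀ F, φ F = value F X :=
    ⟨MvPolynomial.eval₂Hom (algebraMap ℤ A) (fun p => (X p.1).1 p.2.1 p.2.2), fun F => rfl⟩
  have h2 : (fun F => value F X) = φ := (funext hφ).symm
  have h3 := hM A X
  rw [h2] at h3
  rw [← hφ, ← h3, Matrix.trace, Matrix.trace, map_sum]
  rfl

theorem exists_poly (S : Type) [CommRing S] (u : Fin m → FreeGroup ι)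
    (P : MvPolynomial (Wd m ι) S) : ∃ F : MvPolynomial (ι × Fin r × Fin r) S,
      ∀ (A : Type) [CommRing A] [Algebra S A] (X : ι → SpecialLinearGroup (Fin r) A),
        value F X = MvPolynomial.eval₂ (algebraMap S A)
          (fun x => (FreeGroup.lift X (wrd u x)).1.trace) P := by
  choose G hG using exists_trI (ι := ι) r
  refine ⟨MvPolynomial.aeval (fun x => MvPolynomial.map (algebraMap ℤ S) (G (wrd u x))) P,
    fun A _ _ X => ?_⟩
  obtain ⟨co, hco⟩ : ∃ co : ι × Fin r × Fin r → A, co = fun p => (X p.1).1 p.2.1 p.2.2 := ⟨_, rfl⟩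
  have h1 : ∀ F : MvPolynomial (ι × Fin r × Fin r) S, value F X = MvPolynomial.aeval co F := by
    intro F
    rw [hco]
    rfl
  have h2 : ∀ x, MvPolynomial.aeval co (MvPolynomial.map (algebraMap ℤ S) (G x)) =
      (FreeGroup.lift X x).1.trace := by
    intro x
    rw [← hG x A X, MvPolynomial.aeval_def, MvPolynomial.eval₂_map, hco]
    unfold value
    congr 1
    exact RingHom.ext_int _ _
  have h3 : (MvPolynomial.aeval co).comp
      (MvPolynomial.aeval (fun x => MvPolynomial.map (algebraMap ℤ S) (G (wrd u x)))) =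
      (MvPolynomial.aeval (fun x => (FreeGroup.lift X (wrd u x)).1.trace) :
        MvPolynomial (Wd m ι) S →ₐ[S] A) := by
    apply MvPolynomial.algHom_ext
    intro x
    rw [AlgHom.comp_apply, MvPolynomial.aeval_X, MvPolynomial.aeval_X, h2]
  rw [h1]
  exact DFunLike.congr_fun h3 P

/-- polynomials in the traces are invariants -/
theorem exists_inv (R : Set (FreeGroup ι)) (u : Fin m → FreeGroup ι)
    (P : MvPolynomial (Wd m ι) ℂ) : ∃ F : MvPolynomial (ι × Fin r × Fin r) ℂ,
      IsInvariant R F ∧ ∀ X : ι → SpecialLinearGroup (Fin r) ℂ,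
        value F X = MvPolynomial.eval (trv u X) P := by
  obtain ⟨F, hF⟩ := exists_poly (r := r) ℂ u P
  refine ⟨F, ?_, fun X => hF ℂ X⟩
  intro A _ _ X g _
  rw [hF, hF]
  congr 1
  funext x
  rw [lift_conj']
  obtain ⟨Q, hQ⟩ : ∃ Q : SpecialLinearGroup (Fin r) A, Q = g⁻¹ := ⟨_, rfl⟩
  have h5 : Q.1 * g.1 = 1 := by
    have h6 : Q * g = 1 := by rw [hQ, inv_mul_cancel]
    exact congrArg Subtype.val h6
  have h7 : (g * FreeGroup.lift X (wrd u x) * Q).1 =
      g.1 * (FreeGroup.lift X (wrd u x)).1 * Q.1 := rfl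
  rw [← hQ, h7, Matrix.trace_mul_comm, ← Matrix.mul_assoc, h5, Matrix.one_mul]

theorem exists_invK (u : Fin m → FreeGroup ι) (P : MvPolynomial (Wd m ι) Kb) :
    ∃ F : MvPolynomial (ι × Fin r × Fin r) Kb, ∀ X : ι → SpecialLinearGroup (Fin r) ℂ,
      value F X = MvPolynomial.aeval (trv u X) P := by
  obtain ⟨F, hF⟩ := exists_poly (r := r) Kb u P
  exact ⟨F, fun X => hF ℂ X⟩

/-- numerators of Laurent polynomials, over any ring -/
theorem lev_numR {S : Type} [CommRing S] (p : MvPolynomial (Fin n ⊕ Fin n) S) :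
    ∃ (N : ℕ) (P : MvPolynomial (Fin n) S), ∀ (φ : S →+* ℂ) (t : Fin n → ℂˣ),
      MvPolynomial.eval₂ φ (fun i => (t i : ℂ)) P =
        (∏ i, (t i : ℂ)) ^ N * MvPolynomial.eval₂ φ (tt t) p := by
  have hX : ∀ (φ : S →+* ℂ) (t : Fin n → ℂˣ) (s : Finset (Fin n)),
      MvPolynomial.eval₂ φ (fun i => (t i : ℂ)) (∏ i ∈ s, MvPolynomial.X i) =
        ∏ i ∈ s, (t i : ℂ) := by
    intro φ t s
    rw [← MvPolynomial.coe_eval₂Hom, map_prod]
    exact Finset.prod_congr rfl fun i _ => by
      rw [MvPolynomial.coe_eval₂Hom, MvPolynomial.eval₂_X]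
  induction p using MvPolynomial.induction_on with
  | C a => exact ⟨0, MvPolynomial.C a, fun φ t => by
      rw [MvPolynomial.eval₂_C, MvPolynomial.eval₂_C, pow_zero, one_mul]⟩
  | add p q hp hq =>
    obtain ⟨M, P', hP'⟩ := hp
    obtain ⟨M', Q', hQ'⟩ := hq
    refine ⟨M + M', (∏ i, MvPolynomial.X i) ^ M' * P' + (∏ i, MvPolynomial.X i) ^ M * Q',
      fun φ t => ?_⟩
    rw [MvPolynomial.eval₂_add, MvPolynomial.eval₂_mul, MvPolynomial.eval₂_mul, hP', hQ',
      MvPolynomial.eval₂_add, MvPolynomial.eval₂_pow, MvPolynomial.eval₂_pow, hX]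
    ring
  | mul_X p i hp =>
    obtain ⟨M, P', hP'⟩ := hp
    rcases i with i | i
    · refine ⟨M, P' * MvPolynomial.X i, fun φ t => ?_⟩
      rw [MvPolynomial.eval₂_mul, hP', MvPolynomial.eval₂_mul, MvPolynomial.eval₂_X,
        MvPolynomial.eval₂_X]
      change _ = _ * (_ * (t i : ℂ))
      ring
    · refine ⟨M + 1, P' * ∏ j ∈ Finset.univ.erase i, MvPolynomial.X j, fun φ t => ?_⟩
      rw [MvPolynomial.eval₂_mul, hP', MvPolynomial.eval₂_mul, hX, MvPolynomial.eval₂_X]
      change _ = _ * (_ * (((t i)⁻¹ : ℂˣ) : ℂ))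
      rw [pow_succ, ← Finset.mul_prod_erase _ (fun j => (t j : ℂ)) (Finset.mem_univ i),
        Units.val_inv_eq_inv_val]
      have h1 := (t i).ne_zero
      field_simp

/-- **Division.** A quotient by a polynomial whose leading coefficient is invertible has
coefficients in the same ring. -/
theorem div_mem (O : Subring ℂ) (g : MvPolynomial (Fin n) ℂ) (hg : ∀ k, g.coeff k ∈ O)
    (hlc : ((MonomialOrder.lex (σ := Fin n)).leadingCoeff g)⁻¹ ∈ O) (hg0 : g ≠ 0)
    (f : MvPolynomial (Fin n) ℂ) (hfg : ∀ k, (f * g).coeff k ∈ O) : ∀ k, f.coeff k ∈ O := by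
  classical
  obtain ⟨mo, hmo⟩ : ∃ mo : MonomialOrder (Fin n), mo = MonomialOrder.lex (σ := Fin n) := ⟨_, rfl⟩
  rw [← hmo] at hlc
  suffices h : ∀ (d : mo.syn) (f : MvPolynomial (Fin n) ℂ), mo.toSyn (mo.degree f) = d →
      (∀ k, (f * g).coeff k ∈ O) → ∀ k, f.coeff k ∈ O from h _ f rfl hfg
  intro d
  induction d using WellFoundedLT.induction with
  | ind d ih =>
    intro f hd hfg k
    by_cases hf : f = 0
    · rw [hf, MvPolynomial.coeff_zero]
      exact zero_mem _
    have hlf : mo.leadingCoeff f ∈ O := by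
      have h1 := hfg (mo.degree (f * g))
      have h2 : (f * g).coeff (mo.degree (f * g)) = mo.leadingCoeff f * mo.leadingCoeff g :=
        mo.leadingCoeff_mul
      rw [h2] at h1
      have h3 : mo.leadingCoeff g ≠ 0 := mo.leadingCoeff_ne_zero_iff.2 hg0
      have h4 := mul_mem h1 hlc
      rwa [mul_assoc, mul_inv_cancel₀ h3, mul_one] at h4
    have hlt : ∀ k, (MvPolynomial.monomial (mo.degree f) (mo.leadingCoeff f)).coeff k ∈ O := by
      intro k
      rw [MvPolynomial.coeff_monomial]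
      split_ifs
      · exact hlf
      · exact zero_mem _
    by_cases hf' : f - MvPolynomial.monomial (mo.degree f) (mo.leadingCoeff f) = 0
    · rw [sub_eq_zero.1 hf']
      exact hlt k
    · have h1 : mo.toSyn (mo.degree (f - MvPolynomial.monomial (mo.degree f)
          (mo.leadingCoeff f))) < d := by
        rw [← hd]
        refine mo.degree_sub_leadingTerm_lt_degree ?_
        intro h0
        apply hf'
        have h2 := mo.eq_C_of_degree_eq_zero h0
        rw [h0]
        rw [h2]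
        simp
      have h2 := ih _ h1 _ rfl (fun k => by
        rw [sub_mul, MvPolynomial.coeff_sub]
        refine sub_mem (hfg k) ?_
        rw [MvPolynomial.coeff_mul]
        exact sum_mem fun x _ => mul_mem (hlt _) (hg _)) k
      rw [MvPolynomial.coeff_sub] at h2
      have h3 := add_mem h2 (hlt k)
      rwa [sub_add_cancel] at h3

end

end Vale.Agent.P002.R2.H426
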