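import Vale.Agent.P002.R2.H426.FiveM
import Vale.Agent.P002.R2.H955.IntFam

/-!
# Families of matrices and families of points of `M_r`
-/

namespace Vale.Agent.P002.R2.H426

open Matrix Module NumberField Vale.Agent.P002R.Orb Vale.Agent.P002.H326J Vale.Agent.P002.H2
  Vale.Agent.P002.H955 Vale.Agent.P002.R2

section

variable {ι : Type} {r : ℕ}

theorem intFam : IntFam := by
  intro ι _ r m n Z u hspan A hT hloc
  exact P002.R2.H955.int_fam u hspan A hT hloc

/-- a set dominated by a Laurent family of matrices is dominated by a torus in `M_r` -/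
theorem isTorusDominatedM {R : Set (FreeGroup ι)} {Z : Set (ι → SpecialLinearGroup (Fin r) ℂ)}
    (h : IsTorusDominated R Z) : IsTorusDominatedM R Z := by
  obtain ⟨n, X, hLau, hh, hdom⟩ := h
  refine ⟨n, X, fun x => ?_, hh, hdom⟩
  choose A hA using hLau
  obtain ⟨F, hF⟩ := exists_trI r x
  have h1 : ∀ Y : ι → SpecialLinearGroup (Fin r) ℂ,
      value (MvPolynomial.map (algebraMap ℤ ℂ) F) Y = (FreeGroup.lift Y x).1.trace := by
    intro Y
    rw [← hF ℂ Y]
    unfold value
    rw [MvPolynomial.eval₂_map]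
    congr 1
  obtain ⟨p, hp⟩ := lev_value X A (fun t p i j => hA p i j t)
    (MvPolynomial.map (algebraMap ℤ ℂ) F)
  exact ⟨p, fun t => (h1 (X t)).symm.trans (hp t)⟩

end

end Vale.Agent.P002.R2.H426
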