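import Vale.Agent.P002.R2.H426.Two
import Vale.Agent.P002.R2.H955.Loc

/-!
# Components dominated by a torus: the local-global principle
-/

namespace Vale.Agent.P002.R2.H426

open Matrix Module NumberField Vale.Agent.P002R.Orb Vale.Agent.P002.H326J Vale.Agent.P002.H2
  Vale.Agent.P002.H955 Vale.Agent.P002.R2

section

variable {ι : Type} {r n : ℕ}

/-- infinitely many units congruent to one -/
theorem exists_units (M : ℕ) (hM : 0 < M) :
    ∃ U : Set ℂˣ, U.Infinite ∧ ∀ x ∈ U, IsIntegral ℤ (x : ℂ) ∧ IsIntegral ℤ ((x⁻¹ : ℂˣ) : ℂ) ∧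
      IsIntegral ℤ (((x : ℂ) - 1) / M) := by
  obtain ⟨u, hu1, hu2, hu3⟩ := exists_unit
  have hualg : ∀ x : ℂ, IsIntegral ℤ x → x ∈ algebraicClosure ℚ ℂ := by
    intro x hx
    rw [mem_algebraicClosure_iff]
    exact (hx.tower_top (A := ℚ)).isAlgebraic
  obtain ⟨L, hL, hLS⟩ := exists_field {(u : ℂ)} (Set.finite_singleton _) (by
    rintro x rfl
    exact hualg _ hu1)
  have huL : (u : ℂ) ∈ L := hLS _ rfl
  have huO : InO L (u : ℂ) := InO.of_mem huL hu1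
  have huO' : InO L ((u⁻¹ : ℂˣ) : ℂ) := InO.of_mem (by
    rw [Units.val_inv_eq_inv_val]
    exact inv_mem huL) hu2
  have hint : ∀ z : ℂ, InO L z → IsIntegral ℤ z := by
    rintro _ ⟨a, rfl⟩
    exact a.2.map (L.val.restrictScalars ℤ)
  refine ⟨_, infinite_cong huO huO' hu3 M hM, fun x hx => ⟨hint _ hx.1.inO, hint _ hx.2, ?_⟩⟩
  obtain ⟨z, hz, h1⟩ := hx.1
  rw [h1, mul_div_cancel_left₀ _ (Nat.cast_ne_zero.2 hM.ne')]
  exact hint _ hz

/-- the statement of the global step -/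
def GlobalStep : Prop := ∀ (ι : Type) [Finite ι] (r n : ℕ)
    (A₀ : ι → Fin r → Fin r → MvPolynomial (Fin n ⊕ Fin n) Kb)
    (X₀ : (Fin n → ℂˣ) → ι → SpecialLinearGroup (Fin r) ℂ)
    (_ : ∀ t p i j, (X₀ t p).1 i j = MvPolynomial.aeval (tt t) (A₀ p i j))
    (_ : ∀ P : Ideal (integralClosure ℤ ℂ), P.IsMaximal →
      ∃ (t : Fin n → ℂˣ) (g : SpecialLinearGroup (Fin r) ℂ),
        (∀ i, (t i : ℂ) ∈ algebraicClosure ℚ ℂ) ∧ (∀ i j, g.1 i j ∈ algebraicClosure ℚ ℂ) ∧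
          ∀ p i j, IsIntegralAt P ((g * X₀ t p * g⁻¹).1 i j)),
    ∃ (x : Fin n → ℂˣ) (M : ℕ), 0 < M ∧ (∀ i, (x i : ℂ) ∈ algebraicClosure ℚ ℂ) ∧
      ∀ u : Fin n → ℂˣ, (∀ i, IsIntegral ℤ ((u i : ℂ)) ∧ IsIntegral ℤ (((u i)⁻¹ : ℂˣ) : ℂ) ∧
        IsIntegral ℤ (((u i : ℂ) - 1) / M)) →
          ∀ w : FreeGroup ι, IsIntegral ℤ (FreeGroup.lift (X₀ fun i => u i * x i) w).1.trace

/-- **The local-global principle.** -/
theorem point_of_local (hGS : GlobalStep) [Finite ι] {s : ℕ} {R : Set (FreeGroup ι)}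
    {w : Fin s → FreeGroup ι} {C : Fin s → SpecialLinearGroup (Fin r) ℂ}
    (hC : ∀ k i j, (C k).1 i j ∈ algebraicClosure ℚ ℂ)
    {Z : Set (ι → SpecialLinearGroup (Fin r) ℂ)} (hZ : IsComponentM R Z (YW R w C))
    (hT : IsTorusDominated R Z)
    (hloc : ∀ P : Ideal (integralClosure ℤ ℂ), P.IsMaximal →
      ∃ X : ι → SpecialLinearGroup (Fin r) ℂ, (∀ F ∈ idK Z, value F X = 0) ∧
        ∀ p i j, IsIntegralAt P ((X p).1 i j)) :
    ∃ X ∈ Z, ∀ x, IsIntegral ℤ (FreeGroup.lift X x).1.trace := by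
  obtain ⟨n, A₀, X₀, hA₀, hX₀, a₀, ha₀, hcov⟩ := cover_data hC hZ hT
  have hconj := hZ.conj (fun X hX => hX.1.1) fun X hX g => YW_conj R w C X hX g
  have hdense := alg_points R w C hC hZ.isComponent
  have hpr := idK_prime hZ.isComponent.2.1
  obtain ⟨f, hf, hfZ⟩ := comp_open R w C hC hZ.isComponent
  obtain ⟨x, M, hM, -, hx⟩ := hGS ι r n A₀ X₀ hA₀ (by
    intro P hP
    obtain ⟨X, hXZ, hXP⟩ := hloc P hP
    obtain ⟨Q, hQZ, hQa₀, hQa, hQP⟩ := H955.local_points hZ.isComponent.2.1 P hP X hXP hXZ a₀ ha₀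
    obtain ⟨t, g, ht, hg, rfl⟩ := hcov Q hQa hQZ hQa₀
    exact ⟨t, g, ht, hg, hQP⟩)
  -- a conjugate of a member of the family in `Z`
  obtain ⟨Q, hQ, hQa, hQf⟩ := hdense (f * a₀) (fun h => (hpr.mem_or_mem h).elim hf ha₀)
  rw [value_evK, map_mul] at hQf
  obtain ⟨t₁, g₁, -, hg₁, hQ₁⟩ := hcov Q hQa (fun F hF => hF Q hQ) (right_ne_zero_of_mul hQf)
  have hfQ : value f Q ≠ 0 := left_ne_zero_of_mul hQf
  obtain ⟨P, hP, -⟩ := conj_fam A₀ X₀ hA₀ g₁ hg₁
  obtain ⟨p, hp⟩ := lev_value (fun t p => g₁ * X₀ t p * g₁⁻¹) P hP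
    (MvPolynomial.map (algebraMap Kb ℂ) f)
  obtain ⟨U, hU, hUi⟩ := exists_units M hM
  obtain ⟨u, hu, huf⟩ : ∃ u : Fin n → ℂˣ, (∀ i, u i ∈ U) ∧
      value f (fun p => g₁ * X₀ (fun i => u i * x i) p * g₁⁻¹) ≠ 0 := by
    by_contra hcon
    push Not at hcon
    apply hfQ
    have h1 := H306.multi_Lau (fun u : Fin n → ℂˣ => MvPolynomial.eval
      (tt fun j => u j * x j) p) (fun y i => lev_Lau p x y i) U hU (fun u hu => by
        rw [← hp, value_map]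
        exact hcon u hu) (fun i => t₁ i * (x i)⁻¹)
    have h2 : (fun j => t₁ j * (x j)⁻¹ * x j) = t₁ := by
      funext i
      rw [inv_mul_cancel_right]
    change MvPolynomial.eval (tt fun j => t₁ j * (x j)⁻¹ * x j) p = 0 at h1
    rw [h2, ← hp, value_map] at h1
    rw [hQ₁]
    exact h1
  have hconjK : ∀ Q : ι → SpecialLinearGroup (Fin r) ℂ, (∀ F ∈ idK Z, value F Q = 0) →
      ∀ g : SpecialLinearGroup (Fin r) ℂ, ∀ F ∈ idK Z, (value F fun p => g * Q p * g⁻¹) = 0 := by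
    intro Q hQ g F hF
    obtain ⟨G, hG⟩ := exists_conj_poly g (MvPolynomial.map (algebraMap Kb ℂ) F)
    have h1 := value_of_idK hdense G (fun Y hY _ => by
      rw [hG, value_map]
      exact hF _ (hconj Y hY g)) Q hQ
    rwa [hG, value_map] at h1
  refine ⟨_, hfZ _ (hconjK _ (fun F hF => hX₀ F hF _) g₁) huf, fun v => ?_⟩
  have h1 := hx u (fun i => hUi _ (hu i)) v
  rw [lift_conj']
  have h2 : (g₁ * FreeGroup.lift (X₀ fun i => u i * x i) v * g₁⁻¹).1 =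
      g₁.1 * (FreeGroup.lift (X₀ fun i => u i * x i) v).1 * (g₁⁻¹).1 := rfl
  have h3 : (g₁⁻¹).1 * g₁.1 = 1 := congrArg Subtype.val (inv_mul_cancel g₁)
  rw [h2, Matrix.trace_mul_comm, ← Matrix.mul_assoc, h3, Matrix.one_mul]
  exact h1

/-- eigenvalues of the classes are algebraic if there is a point with algebraic entries in the
closure -/
theorem algebraic_of_closureRep {s : ℕ} {R : Set (FreeGroup ι)} {w : Fin s → FreeGroup ι}
    {C : Fin s → SpecialLinearGroup (Fin r) ℂ} {Z : Set (ι → SpecialLinearGroup (Fin r) ℂ)}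
    (hZ : Z ⊆ YW R w C) {X : ι → SpecialLinearGroup (Fin r) ℂ} (hX : InClosureRep Z X)
    (hXa : ∀ p i j, (X p).1 i j ∈ algebraicClosure ℚ ℂ) (k : Fin s) (z : ℂ)
    (hz : IsEigenvalue (C k) z) : IsAlgebraic ℚ z := by
  have h1 : (FreeGroup.lift X (w k)).1.charpoly = (C k).1.charpoly := by
    ext m
    obtain ⟨F, hF'⟩ := exists_charpoly_int₀ r (w k) m
    obtain ⟨G, hval⟩ := value_map_int F ((C k).1.charpoly.coeff m)
    have h2 := hX G (by
      intro X' hX'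
      rw [hval, hF' ℂ X']
      obtain ⟨c, hc⟩ := isConj_iff.1 ((hZ hX').2 k)
      rw [← hc, Vale.Agent.P002.H2.charpoly_conj]
      exact sub_self _)
    rw [hval, hF' ℂ X, sub_eq_zero] at h2
    exact h2
  obtain ⟨q, hq⟩ : ∃ q : Polynomial ℂ, q = (C k).1.charpoly := ⟨_, rfl⟩
  have hqm : q.Monic := hq ▸ Matrix.charpoly_monic _
  have hqa : ∀ m, q.coeff m ∈ algebraicClosure ℚ ℂ := by
    intro m
    rw [hq, ← h1]
    obtain ⟨F, hF'⟩ := exists_charpoly_int₀ r (w k) m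
    rw [← hF' ℂ X]
    clear hF'
    unfold value
    induction F using MvPolynomial.induction_on with
    | C a =>
      rw [MvPolynomial.eval₂_C]
      exact intCast_mem _ _
    | add p q hp hq =>
      rw [MvPolynomial.eval₂_add]
      exact add_mem hp hq
    | mul_X p i hp =>
      rw [MvPolynomial.eval₂_mul, MvPolynomial.eval₂_X]
      exact mul_mem hp (hXa _ _ _)
  have hqz : q.eval z = 0 := by
    rw [hq]
    exact hz
  obtain ⟨p, hp, hpm⟩ : ∃ p : Polynomial (algebraicClosure ℚ ℂ),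
      p.map (algebraMap _ ℂ) = q ∧ p.Monic := by
    have h5 : q ∈ Polynomial.lifts (algebraMap (algebraicClosure ℚ ℂ) ℂ) := by
      rw [Polynomial.lifts_iff_coeff_lifts]
      intro m
      exact ⟨⟨_, hqa m⟩, rfl⟩
    obtain ⟨p, hp, -, hpm⟩ := Polynomial.lifts_and_natDegree_eq_and_monic h5 hqm
    exact ⟨p, hp, hpm⟩
  have h6 : IsIntegral (algebraicClosure ℚ ℂ) z := ⟨p, hpm, by
    rw [← Polynomial.eval_map, hp]
    exact hqz⟩
  have halg : Algebra.IsAlgebraic ℚ (algebraicClosure ℚ ℂ) :=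
    (algebraicClosure.isAlgClosure ℚ ℂ).2
  have hint : Algebra.IsIntegral ℚ (algebraicClosure ℚ ℂ) :=
    ⟨fun x => (halg.isAlgebraic x).isIntegral⟩
  have h2 : IsIntegral ℚ z := isIntegral_trans z h6
  exact h2.isAlgebraic

end

end Vale.Agent.P002.R2.H426
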