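import Vale.Agent.P002.R2.H426.Defs
import Vale.Agent.P002.H252.Ba6

/-!
# Traces of all words in terms of finitely many
-/

namespace Vale.Agent.P002.R2.H426

open Matrix Module Vale.Agent.P002R.Orb Vale.Agent.P002.H252

section poly

variable {ι : Type} {m : ℕ}

/-- the indices of the words `u i * u j`, `u i`, `u i * p ^ (±1) * u j` -/
abbrev Wd (m : ℕ) (ι : Type) : Type := (Fin m × Fin m) ⊕ (Fin m ⊕ (Fin m × (ι × Bool) × Fin m))

/-- a letter -/
def ltr (a : ι × Bool) : FreeGroup ι := FreeGroup.mk [a]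

/-- the words `u i * u j`, `u i`, `u i * p ^ (±1) * u j` -/
def wrd (u : Fin m → FreeGroup ι) : Wd m ι → FreeGroup ι :=
  Sum.elim (fun q => u q.1 * u q.2) (Sum.elim u fun q => u q.1 * ltr q.2.1 * u q.2.2)

variable {A : Type*} [CommRing A]

/-- the Gram matrix -/
def Gm (τ : Wd m ι → A) : Matrix (Fin m) (Fin m) A := Matrix.of fun i j => τ (Sum.inl (i, j))

/-- the traces of the basis -/
def Tv (τ : Wd m ι → A) : Fin m → A := fun i => τ (Sum.inr (Sum.inl i))

/-- the matrix of the multiplication by a letter, with respect to the dual basis -/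
def Mp (τ : Wd m ι → A) (a : ι × Bool) : Matrix (Fin m) (Fin m) A :=
  Matrix.of fun i j => τ (Sum.inr (Sum.inr (i, a, j)))

/-- the coordinates of a word -/
def Pw (τ : Wd m ι → A) : List (ι × Bool) → Fin m → A
  | [] => (Gm τ).adjugate *ᵥ Tv τ
  | a :: l => (Gm τ).adjugate *ᵥ (Mp τ a *ᵥ Pw τ l)

/-- the numerator of the trace of a word -/
def Ph (τ : Wd m ι → A) (l : List (ι × Bool)) : A := Tv τ ⬝ᵥ Pw τ l

theorem map_Gm {B : Type*} [CommRing B] (φ : A →+* B) (τ : Wd m ι → A) :
    Gm (fun x => φ (τ x)) = φ.mapMatrix (Gm τ) := by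
  ext i j
  rfl

theorem map_det_Gm {B : Type*} [CommRing B] (φ : A →+* B) (τ : Wd m ι → A) :
    (Gm (fun x => φ (τ x))).det = φ (Gm τ).det := by
  rw [map_Gm, ← RingHom.map_det]

theorem map_Pw {B : Type*} [CommRing B] (φ : A →+* B) (τ : Wd m ι → A) (l : List (ι × Bool)) :
    Pw (fun x => φ (τ x)) l = fun i => φ (Pw τ l i) := by
  induction l with
  | nil =>
    have h1 : Tv (fun x => φ (τ x)) = φ ∘ Tv τ := rfl
    rw [Pw, Pw, map_Gm, ← RingHom.map_adjugate, h1]
    exact funext fun i => (RingHom.map_mulVec φ _ _ i).symm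
  | cons a l ih =>
    have h1 : Mp (fun x => φ (τ x)) a = φ.mapMatrix (Mp τ a) := by
      ext i j
      rfl
    have h2 : (fun i => φ (Pw τ l i)) = φ ∘ Pw τ l := rfl
    rw [Pw, Pw, map_Gm, ← RingHom.map_adjugate, ih, h1, h2]
    have h3 : (φ.mapMatrix (Mp τ a)) *ᵥ (φ ∘ Pw τ l) = φ ∘ (Mp τ a *ᵥ Pw τ l) :=
      funext fun i => (RingHom.map_mulVec φ _ _ i).symm
    rw [h3]
    funext i
    exact (RingHom.map_mulVec φ _ _ i).symm

theorem map_Ph {B : Type*} [CommRing B] (φ : A →+* B) (τ : Wd m ι → A) (l : List (ι × Bool)) :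
    Ph (fun x => φ (τ x)) l = φ (Ph τ l) := by
  unfold Ph dotProduct
  rw [map_Pw, map_sum]
  exact Finset.sum_congr rfl fun i _ => (map_mul φ _ _).symm

end poly

section

variable {ι : Type} {r m : ℕ}

/-- the traces of the words -/
def trv (u : Fin m → FreeGroup ι) (X : ι → SpecialLinearGroup (Fin r) ℂ) (x : Wd m ι) : ℂ :=
  (FreeGroup.lift X (wrd u x)).1.trace

theorem Gm_trv (u : Fin m → FreeGroup ι) (X : ι → SpecialLinearGroup (Fin r) ℂ) :
    Gm (trv u X) = gramW (matHom X) u := rfl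

/-- the traces of words -/
theorem trace_eq_Ph (u : Fin m → FreeGroup ι) (X : ι → SpecialLinearGroup (Fin r) ℂ)
    (hspan : ∀ x : FreeGroup ι, (FreeGroup.lift X x).1 ∈
      Submodule.span ℂ (Set.range fun i => (FreeGroup.lift X (u i)).1)) (l : List (ι × Bool)) :
    (FreeGroup.lift X (FreeGroup.mk l)).1.trace * (Gm (trv u X)).det ^ (l.length + 1) =
      Ph (trv u X) l := by
  -- coordinates
  have key : ∀ (x : FreeGroup ι) (c : Fin m → ℂ),
      ∑ i, c i • (FreeGroup.lift X (u i)).1 = (FreeGroup.lift X x).1 →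
        (Gm (trv u X)).adjugate *ᵥ (fun i => (FreeGroup.lift X (u i * x)).1.trace) =
          (Gm (trv u X)).det • c := by
    intro x c hc
    have h1 : (fun i => (FreeGroup.lift X (u i * x)).1.trace) = Gm (trv u X) *ᵥ c := by
      funext i
      have h2 : (FreeGroup.lift X (u i * x)).1 = (FreeGroup.lift X (u i)).1 *
          (FreeGroup.lift X x).1 := by rw [map_mul]; rfl
      rw [h2, ← hc, Finset.mul_sum, Matrix.trace_sum]
      change _ = ∑ j, Gm (trv u X) i j * c j
      refine Finset.sum_congr rfl fun j _ => ?_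
      rw [mul_smul_comm, Matrix.trace_smul, smul_eq_mul, mul_comm]
      congr 1
      change _ = (FreeGroup.lift X (u i * u j)).1.trace
      rw [map_mul]
      rfl
    rw [h1, Matrix.mulVec_mulVec, Matrix.adjugate_mul, Matrix.smul_mulVec, Matrix.one_mulVec]
  have hcoord : ∀ l : List (ι × Bool), ∃ c : Fin m → ℂ,
      ∑ i, c i • (FreeGroup.lift X (u i)).1 = (FreeGroup.lift X (FreeGroup.mk l)).1 ∧
        Pw (trv u X) l = (Gm (trv u X)).det ^ (l.length + 1) • c := by
    intro l
    induction l with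
    | nil =>
      obtain ⟨c, hc⟩ := (Submodule.mem_span_range_iff_exists_fun ℂ).1 (hspan (FreeGroup.mk []))
      refine ⟨c, hc, ?_⟩
      rw [List.length_nil, zero_add, pow_one, ← key _ c hc]
      rw [Pw]
      congr 1
      funext i
      change (FreeGroup.lift X (u i)).1.trace = _
      rw [← FreeGroup.one_eq_mk, mul_one]
    | cons a l ih =>
      obtain ⟨c, hc, hP⟩ := ih
      obtain ⟨c', hc'⟩ := (Submodule.mem_span_range_iff_exists_fun ℂ).1
        (hspan (FreeGroup.mk (a :: l)))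
      refine ⟨c', hc', ?_⟩
      have h1 : FreeGroup.mk (a :: l) = ltr a * FreeGroup.mk l := by
        rw [ltr, FreeGroup.mul_mk]
        rfl
      have h2 : Mp (trv u X) a *ᵥ c = fun i =>
          (FreeGroup.lift X (u i * FreeGroup.mk (a :: l))).1.trace := by
        funext i
        have h3 : (FreeGroup.lift X (u i * FreeGroup.mk (a :: l))).1 =
            (FreeGroup.lift X (u i * ltr a)).1 * (FreeGroup.lift X (FreeGroup.mk l)).1 := by
          rw [h1, ← mul_assoc, map_mul (FreeGroup.lift X) (u i * ltr a)]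
          rfl
        rw [h3, ← hc, Finset.mul_sum, Matrix.trace_sum]
        change ∑ j, Mp (trv u X) a i j * c j = _
        refine Finset.sum_congr rfl fun j _ => ?_
        rw [mul_smul_comm, Matrix.trace_smul, smul_eq_mul, mul_comm]
        congr 1
        change (FreeGroup.lift X (u i * ltr a * u j)).1.trace = _
        rw [map_mul (FreeGroup.lift X) (u i * ltr a)]
        rfl
      rw [Pw, hP, Matrix.mulVec_smul, Matrix.mulVec_smul, h2, key _ c' hc', smul_smul,
        List.length_cons, ← pow_succ]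
  obtain ⟨c, hc, hP⟩ := hcoord l
  rw [Ph, hP, ← hc, Matrix.trace_sum, Finset.sum_mul]
  change _ = ∑ i, Tv (trv u X) i * _
  refine Finset.sum_congr rfl fun i _ => ?_
  rw [Matrix.trace_smul, Pi.smul_apply]
  change c i * (trv u X (Sum.inr (Sum.inl i))) * _ = trv u X (Sum.inr (Sum.inl i)) * _
  ring

/-- **A basis of the algebra spanned by the words**, generically. -/
theorem exists_words {Z : Set (ι → SpecialLinearGroup (Fin r) ℂ)} (hne : Z.Nonempty)
    (hss : ∀ X ∈ Z, ∀ W, IsInv X W → ∃ W', IsInv X W' ∧ IsCompl W W') :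
    ∃ (m : ℕ) (u : Fin m → FreeGroup ι),
      (∃ X ∈ Z, (Gm (trv u X)).det ≠ 0) ∧
      ∀ X ∈ Z, (Gm (trv u X)).det ≠ 0 → ∀ x : FreeGroup ι, (FreeGroup.lift X x).1 ∈
        Submodule.span ℂ (Set.range fun i => (FreeGroup.lift X (u i)).1) := by
  classical
  have hcrit : ∀ X ∈ Z, ∃ d ≤ r * r,
      (∀ v : Fin (d + 1) → FreeGroup ι, ¬ LinearIndependent ℂ fun i => matHom X (v i)) ∧
      ∃ u : Fin d → FreeGroup ι, (gramW (matHom X) u).det ≠ 0 :=
    fun X hX => (crit (matHom X)).1 ((ss_iff X).1 (hss X hX))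
  obtain ⟨D, hD⟩ : ∃ D : Set ℕ, D = {d | d ≤ r * r ∧ ∃ X ∈ Z, ∃ u : Fin d → FreeGroup ι,
      (gramW (matHom X) u).det ≠ 0} := ⟨_, rfl⟩
  have hDne : D.Nonempty := by
    obtain ⟨X, hX⟩ := hne
    obtain ⟨d, h1, -, h2⟩ := hcrit X hX
    rw [hD]
    exact ⟨d, h1, X, hX, h2⟩
  have hDfin : D.Finite := (Set.finite_Iic (r * r)).subset fun d hd => by
    rw [hD] at hd
    exact hd.1
  obtain ⟨m, hm, hmax⟩ := hDfin.exists_maximal hDne
  rw [hD] at hm
  obtain ⟨-, X₁, hX₁, u, hu⟩ := hm
  refine ⟨m, u, ⟨X₁, hX₁, hu⟩, fun X hX hdet x => ?_⟩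
  obtain ⟨d, hdr, hE, v, hv⟩ := hcrit X hX
  have hdm : d ≤ m := by
    by_contra hlt
    push Not at hlt
    have h1 : d ∈ D := by
      rw [hD]
      exact ⟨hdr, X, hX, v, hv⟩
    exact absurd (hmax h1 hlt.le) (not_le.2 hlt)
  have hind : LinearIndependent ℂ fun i => matHom X (u i) := by
    rw [Fintype.linearIndependent_iff]
    intro c hc i
    have h4 : c ᵥ* gramW (matHom X) u = 0 := by
      funext j
      rw [vecMul_gramW, hc, zero_mul, Matrix.trace_zero]
      rfl
    by_contra hci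
    exact hdet (Matrix.exists_vecMul_eq_zero_iff.1 ⟨c, fun h => hci (congrFun h i), h4⟩)
  by_contra hx
  have h5 : LinearIndependent ℂ (Fin.cons (matHom X x) (fun i => matHom X (u i)) :
      Fin (m + 1) → Matrix (Fin r) (Fin r) ℂ) := hind.finCons hx
  refine hE (fun i => (Fin.cons x u : Fin (m + 1) → FreeGroup ι) (Fin.castLE (by omega) i)) ?_
  have h6 : (fun i : Fin (d + 1) => matHom X ((Fin.cons x u : Fin (m + 1) → FreeGroup ι)
      (Fin.castLE (by omega) i))) = (Fin.cons (matHom X x) (fun i => matHom X (u i)) :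
        Fin (m + 1) → Matrix (Fin r) (Fin r) ℂ) ∘ Fin.castLE (by omega) := by
    funext i
    obtain ⟨j, hj⟩ : ∃ j : Fin (m + 1), j = Fin.castLE (by omega) i := ⟨_, rfl⟩
    rw [Function.comp_apply, ← hj]
    refine Fin.cases ?_ (fun k => ?_) j
    · rfl
    · rfl
  rw [h6]
  exact h5.comp _ (Fin.castLE_injective _)

end

end Vale.Agent.P002.R2.H426
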